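import Vale.Agent.Lib.P161.Tree

/-!
Balls of edges in a connected locally finite graph, equivariant under graph automorphisms.
-/

set_option linter.unusedSimpArgs false
set_option linter.unusedVariables false
set_option linter.unusedSectionVars false

namespace Vale.Agent.Lib.P143

noncomputable section

variable {V : Type*} {G : SimpleGraph V}

/-- Automorphisms preserve the distance. -/
lemma dist_iso (hc : G.Connected) (φ : G ≃g G) (x y : V) : G.dist (φ x) (φ y) = G.dist x y := by
  have key : ∀ (ψ : G ≃g G) (a b : V), G.dist (ψ a) (ψ b) ≤ G.dist a b := by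
    intro ψ a b
    obtain ⟨w, hw⟩ := hc.exists_walk_length_eq_dist a b
    have h := SimpleGraph.dist_le (w.map ψ.toHom)
    rw [SimpleGraph.Walk.length_map, hw] at h
    exact h
  refine le_antisymm (key φ x y) ?_
  have := key φ.symm (φ x) (φ y)
  simpa using this

/-- The edges all of whose ends are within distance `R` of an end of `e`. -/
def nearSet (G : SimpleGraph V) (e : G.edgeSet) (R : ℕ) : Set G.edgeSet :=
  {f | ∀ x ∈ f.1, ∃ y ∈ e.1, G.dist y x ≤ R}

lemma nearSet_finite [G.LocallyFinite] (hc : G.Connected) (e : G.edgeSet) (R : ℕ) :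
    (nearSet G e R).Finite := by
  classical
  induction' he : e.1 using Sym2.ind with a b
  let S : Finset V := Vale.Agent.Lib.P161.ballF G a R ∪ Vale.Agent.Lib.P161.ballF G b R
  have hsub : nearSet G e R ⊆ Subtype.val ⁻¹' ((S.sym2 : Finset (Sym2 V)) : Set (Sym2 V)) := by
    intro f hf
    simp only [Set.mem_preimage, Finset.mem_coe, Finset.mem_sym2_iff]
    intro x hx
    obtain ⟨y, hy, hd⟩ := hf x hx
    rw [he, Sym2.mem_iff] at hy
    rcases hy with rfl | rfl
    · exact Finset.mem_union_left _ ((Vale.Agent.Lib.P161.mem_ballF hc).2 hd)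
    · exact Finset.mem_union_right _ ((Vale.Agent.Lib.P161.mem_ballF hc).2 hd)
  refine Set.Finite.subset ?_ hsub
  exact Set.Finite.preimage Subtype.val_injective.injOn (Finset.finite_toSet _)

/-- The finite set of edges near `e`. -/
def nearF [G.LocallyFinite] (hc : G.Connected) (e : G.edgeSet) (R : ℕ) : Finset G.edgeSet :=
  (nearSet_finite hc e R).toFinset

lemma mem_nearF [G.LocallyFinite] (hc : G.Connected) {e f : G.edgeSet} {R : ℕ} :
    f ∈ nearF hc e R ↔ ∀ x ∈ f.1, ∃ y ∈ e.1, G.dist y x ≤ R := by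
  simp [nearF, nearSet]

lemma nearF_mono [G.LocallyFinite] (hc : G.Connected) (e : G.edgeSet) : Monotone (nearF hc e) := by
  intro R R' h f hf
  rw [mem_nearF] at hf ⊢
  intro x hx
  obtain ⟨y, hy, hd⟩ := hf x hx
  exact ⟨y, hy, hd.trans h⟩

lemma nearF_exhaust [G.LocallyFinite] (hc : G.Connected) (e f : G.edgeSet) :
    ∃ R, f ∈ nearF hc e R := by
  classical
  induction' he : e.1 using Sym2.ind with a b
  induction' hf : f.1 using Sym2.ind with c d
  refine ⟨G.dist a c + G.dist a d, ?_⟩
  rw [mem_nearF, hf]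
  intro x hx
  refine ⟨a, by rw [he]; exact Sym2.mem_mk_left _ _, ?_⟩
  rw [Sym2.mem_iff] at hx
  rcases hx with rfl | rfl <;> omega

/-- Near edges are equivariant under the automorphisms. -/
lemma nearF_map [G.LocallyFinite] (hc : G.Connected) (φ : G ≃g G) (e : G.edgeSet) (R : ℕ) :
    nearF hc (φ.mapEdgeSet e) R = (nearF hc e R).map φ.mapEdgeSet.toEmbedding := by
  classical
  ext f
  rw [Finset.mem_map_equiv, mem_nearF, mem_nearF]
  constructor
  · intro h x hx
    have h1 : φ x ∈ f.1 := by
      have : (φ.mapEdgeSet (φ.mapEdgeSet.symm f)).1 = f.1 := by rw [Equiv.apply_symm_apply]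
      rw [← this]
      change φ x ∈ Sym2.map φ _
      exact Sym2.mem_map.2 ⟨x, hx, rfl⟩
    obtain ⟨y, hy, hd⟩ := h _ h1
    have h2 : y ∈ Sym2.map φ e.1 := hy
    obtain ⟨y', hy', rfl⟩ := Sym2.mem_map.1 h2
    exact ⟨y', hy', by rwa [dist_iso hc] at hd⟩
  · intro h x hx
    have h1 : φ.symm x ∈ (φ.mapEdgeSet.symm f).1 := by
      change φ.symm x ∈ Sym2.map φ.symm f.1
      exact Sym2.mem_map.2 ⟨x, hx, rfl⟩
    obtain ⟨y, hy, hd⟩ := h _ h1
    refine ⟨φ y, ?_, ?_⟩
    · change φ y ∈ Sym2.map φ e.1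
      exact Sym2.mem_map.2 ⟨y, hy, rfl⟩
    · have := dist_iso hc φ y (φ.symm x)
      simp only [RelIso.apply_symm_apply] at this
      rw [this]
      exact hd

end

end Vale.Agent.Lib.P143
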