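import Vale.Agent.Lib.P143.Gauss

/-!
The observation process of stochastic localization and the Bayes formula: given the observations
on a finite window `B`, the conditional mean of a spin is the tilted mean at the current position.
-/

set_option linter.unusedSimpArgs false
set_option linter.unusedVariables false
set_option linter.unusedSectionVars false

set_option warn.classDefReducibility false

open Filter MeasureTheory Finset Topology ProbabilityTheory

namespace Vale.Agent.Lib.P143

noncomputable section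

variable {I Ω₂ : Type*} [MeasurableSpace Ω₂]

/-- The observation increment at level `j`, step `l`, edge `f`. -/
def obs (g : ℕ → ℕ → I → Ω₂ → ℝ) (j l : ℕ) (f : I) (ω : (I → Bool) × Ω₂) : ℝ :=
  hs j * spin (ω.1 f) + rs j * g j l f ω.2

/-- The observation path at level `j`, step `k`. -/
def yl (g : ℕ → ℕ → I → Ω₂ → ℝ) (j k : ℕ) (f : I) (ω : (I → Bool) × Ω₂) : ℝ :=
  ∑ l ∈ range k, obs g j l f ω

/-- The vector of observations on a finite window. -/
def obsVec (g : ℕ → ℕ → I → Ω₂ → ℝ) (j k : ℕ) (B : Finset I) (ω : (I → Bool) × Ω₂) :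
    Fin k × B → ℝ := fun p => obs g j p.1 p.2 ω

/-- The sigma-algebra of the observations on a finite window. -/
def FB (g : ℕ → ℕ → I → Ω₂ → ℝ) (j k : ℕ) (B : Finset I) :
    MeasurableSpace ((I → Bool) × Ω₂) :=
  MeasurableSpace.comap (obsVec g j k B) inferInstance

/-- The end point of a path, from the observation vector. -/
def sumVec {k : ℕ} {B : Finset I} (x : Fin k × B → ℝ) (f : I) : ℝ :=
  open Classical in if hf : f ∈ B then ∑ l : Fin k, x (l, ⟨f, hf⟩) else 0

variable (μ : Measure (I → Bool)) [IsProbabilityMeasure μ] (ν : Measure Ω₂) [IsProbabilityMeasure ν]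
  {g : ℕ → ℕ → I → Ω₂ → ℝ}

lemma measurable_spin_fst (e : I) :
    Measurable fun ω : (I → Bool) × Ω₂ => spin (ω.1 e) :=
  (measurable_spin_apply e).comp measurable_fst

lemma measurable_obs (hg : ∀ j k e, Measurable (g j k e)) (j l : ℕ) (f : I) :
    Measurable (obs g j l f) := by
  unfold obs
  exact ((measurable_spin_fst f).const_mul _).add (((hg j l f).comp measurable_snd).const_mul _)

lemma measurable_obsVec (hg : ∀ j k e, Measurable (g j k e)) (j k : ℕ) (B : Finset I) :
    Measurable (obsVec g j k B) :=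
  measurable_pi_lambda _ fun p => measurable_obs hg j _ _

lemma FB_le (hg : ∀ j k e, Measurable (g j k e)) (j k : ℕ) (B : Finset I) :
    FB g j k B ≤ (inferInstance : MeasurableSpace ((I → Bool) × Ω₂)) :=
  (measurable_obsVec hg j k B).comap_le

lemma measurable_sumVec {k : ℕ} {B : Finset I} (f : I) :
    Measurable fun x : Fin k × B → ℝ => sumVec x f := by
  classical
  unfold sumVec
  by_cases hf : f ∈ B
  · simp only [hf, dif_pos]
    exact Finset.measurable_sum _ fun l _ => measurable_pi_apply _
  · simp only [hf, dif_neg, not_false_eq_true]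
    exact measurable_const

lemma sumVec_obsVec (j k : ℕ) (B : Finset I) (ω : (I → Bool) × Ω₂) {f : I} (hf : f ∈ B) :
    sumVec (obsVec g j k B ω) f = yl g j k f ω := by
  classical
  unfold sumVec yl obsVec
  rw [dif_pos hf, Finset.sum_range]

section Core

variable {k j : ℕ} {B : Finset I}

/-- The shift coming from the signal. -/
def sigShift (j k : ℕ) (B : Finset I) (σ : I → Bool) : Fin k × B → ℝ :=
  fun p => rs j * spin (σ p.2)

/-- The noise vector on the window. -/
def noiseVec (g : ℕ → ℕ → I → Ω₂ → ℝ) (j k : ℕ) (B : Finset I) (w : Ω₂) : Fin k × B → ℝ :=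
  fun p => g j p.1 p.2 w

lemma map_noiseVec (hg : IsNoiseArray ν g) (j k : ℕ) (B : Finset I) :
    ν.map (noiseVec g j k B) = gamT (Fin k × B) := by
  have hind : iIndepFun (fun p : Fin k × B => g j p.1 p.2) ν := by
    refine (hg.indep j).precomp (g := fun p : Fin k × B => ((p.1 : ℕ), (p.2 : I))) ?_
    intro p q h
    have h1 := congrArg Prod.fst h
    have h2 := congrArg Prod.snd h
    exact Prod.ext (Fin.ext h1) (Subtype.ext h2)
  have := (iIndepFun_iff_map_fun_eq_pi_map (fun p : Fin k × B => (hg.meas j p.1 p.2).aemeasurable)).1 hind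
  unfold gamT
  simp_rw [hg.law] at this
  exact this

lemma measurable_noiseVec (hg : IsNoiseArray ν g) (j k : ℕ) (B : Finset I) :
    Measurable (noiseVec g j k B) :=
  measurable_pi_lambda _ fun p => hg.meas _ _ _

/-- Scaling by the root of the mesh. -/
def scaleVec {T : Type*} (j : ℕ) (z : T → ℝ) : T → ℝ := fun p => rs j * z p

lemma measurable_scaleVec {T : Type*} (j : ℕ) : Measurable (scaleVec (T := T) j) :=
  measurable_pi_lambda _ fun p => (measurable_pi_apply p).const_mul _

lemma obsVec_eq (j k : ℕ) (B : Finset I) (ω : (I → Bool) × Ω₂) :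
    obsVec g j k B ω = scaleVec j (fun p => noiseVec g j k B ω.2 p + sigShift j k B ω.1 p) := by
  funext p
  simp only [obsVec, obs, scaleVec, noiseVec, sigShift]
  rw [← rs_sq j]
  ring

lemma measurable_sigShift_uncurry (j k : ℕ) (B : Finset I) :
    Measurable (sigShift (I := I) j k B) :=
  measurable_pi_lambda _ fun p => (measurable_spin_apply _).const_mul _

/-- Fubini plus Cameron-Martin. -/
lemma bayes_core (hg : IsNoiseArray ν g) (j k : ℕ) (B : Finset I)
    {Ψ : (Fin k × B → ℝ) → ℝ} (hΨ : Measurable Ψ) {C : ℝ} (hb : ∀ x, |Ψ x| ≤ C)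
    {r : (I → Bool) → ℝ} (hr : Measurable r) {C' : ℝ} (hrb : ∀ x, |r x| ≤ C') :
    ∫ ω, Ψ (obsVec g j k B ω) * r ω.1 ∂(μ.prod ν) =
      ∫ z, Ψ (scaleVec j z) * ∫ σ, r σ * cmDens (sigShift j k B σ) z ∂μ ∂(gamT (Fin k × B)) := by
  have hmeas : Measurable fun ω : (I → Bool) × Ω₂ => Ψ (obsVec g j k B ω) * r ω.1 :=
    (hΨ.comp (measurable_obsVec hg.meas j k B)).mul (hr.comp measurable_fst)
  have hint : Integrable (fun ω : (I → Bool) × Ω₂ => Ψ (obsVec g j k B ω) * r ω.1) (μ.prod ν) := by
    refine Integrable.of_bound (C := C * C') hmeas.aestronglyMeasurable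
      (Eventually.of_forall fun ω => ?_)
    rw [Real.norm_eq_abs, abs_mul]
    exact mul_le_mul (hb _) (hrb _) (abs_nonneg _) ((abs_nonneg _).trans (hb (obsVec g j k B ω)))
  rw [integral_prod _ hint]
  have hΨs : Measurable fun z : Fin k × B → ℝ => Ψ (scaleVec j z) := hΨ.comp (measurable_scaleVec j)
  have step1 : ∀ σ : I → Bool, ∫ w, Ψ (obsVec g j k B (σ, w)) * r σ ∂ν =
      r σ * ∫ z, Ψ (scaleVec j z) * cmDens (sigShift j k B σ) z ∂(gamT (Fin k × B)) := by
    intro σ
    rw [integral_mul_const, mul_comm]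
    congr 1
    rw [← integral_shift (sigShift j k B σ) hΨs, ← map_noiseVec ν hg j k B]
    rw [integral_map (measurable_noiseVec ν hg j k B).aemeasurable]
    · refine integral_congr_ae (Eventually.of_forall fun w => ?_)
      simp only [obsVec_eq]
    · have : Measurable fun z : Fin k × B → ℝ => Ψ (scaleVec j fun i => z i + sigShift j k B σ i) :=
        hΨs.comp (measurable_pi_lambda _ fun i => (measurable_pi_apply i).add_const _)
      exact this.aestronglyMeasurable
  simp_rw [step1]
  simp_rw [← integral_const_mul]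
  -- integrability on the product
  have hcm : Measurable fun p : (I → Bool) × (Fin k × B → ℝ) => cmDens (sigShift j k B p.1) p.2 :=
    measurable_cmDens_uncurry (measurable_sigShift_uncurry j k B)
  have hcmint : Integrable (fun p : (I → Bool) × (Fin k × B → ℝ) => cmDens (sigShift j k B p.1) p.2)
      (μ.prod (gamT (Fin k × B))) := by
    rw [integrable_prod_iff hcm.aestronglyMeasurable]
    refine ⟨Eventually.of_forall fun σ => ?_, ?_⟩
    · exact integrable_cmDens (sigShift j k B σ)
    have : (fun σ : I → Bool => ∫ z, ‖cmDens (sigShift j k B σ) z‖ ∂(gamT (Fin k × B))) = fun _ => 1 := by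
      funext σ
      rw [← integral_cmDens (sigShift j k B σ)]
      refine integral_congr_ae (Eventually.of_forall fun z => ?_)
      change ‖cmDens (sigShift j k B σ) z‖ = cmDens (sigShift j k B σ) z
      rw [Real.norm_eq_abs, abs_of_pos (cmDens_pos _ _)]
    rw [this]
    exact integrable_const _
  have hint2 : Integrable (fun p : (I → Bool) × (Fin k × B → ℝ) =>
      r p.1 * (Ψ (scaleVec j p.2) * cmDens (sigShift j k B p.1) p.2)) (μ.prod (gamT (Fin k × B))) := by
    have hbd : Integrable (fun p : (I → Bool) × (Fin k × B → ℝ) =>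
        (r p.1 * Ψ (scaleVec j p.2)) * cmDens (sigShift j k B p.1) p.2) (μ.prod (gamT (Fin k × B))) := by
      refine hcmint.bdd_mul (c := C' * C)
        ((hr.comp measurable_fst).mul (hΨs.comp measurable_snd)).aestronglyMeasurable
        (Eventually.of_forall fun p => ?_)
      rw [Real.norm_eq_abs, abs_mul]
      exact mul_le_mul (hrb _) (hb _) (abs_nonneg _) ((abs_nonneg _).trans (hrb p.1))
    refine hbd.congr (Eventually.of_forall fun p => ?_)
    simp only []
    ring
  rw [integral_integral_swap hint2]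
  refine integral_congr_ae (Eventually.of_forall fun z => ?_)
  simp only []
  refine integral_congr_ae (Eventually.of_forall fun σ => ?_)
  simp only []
  ring

/-- Partial sums of the scaled vector. -/
def wVec (j : ℕ) {k : ℕ} {B : Finset I} (z : Fin k × B → ℝ) : I → ℝ :=
  fun f => sumVec (scaleVec j z) f

/-- The normalising constant of the Cameron-Martin density. -/
def cmConst (j k : ℕ) (B : Finset I) : ℝ := (k : ℝ) * (B.card : ℝ) * (hs j / 2)

lemma cmDens_sigShift (j k : ℕ) (B : Finset I) (σ : I → Bool) (z : Fin k × B → ℝ) :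
    cmDens (sigShift j k B σ) z =
      Real.exp (- cmConst j k B) * Real.exp (tiltExp B (wVec j z) σ) := by
  classical
  unfold cmDens
  rw [← Real.exp_add]
  congr 1
  have h1 : ∀ p : Fin k × B, sigShift j k B σ p * z p - sigShift j k B σ p ^ 2 / 2 =
      spin (σ p.2) * (rs j * z p) - hs j / 2 := by
    intro p
    unfold sigShift
    have h2 : (rs j * spin (σ p.2)) ^ 2 = hs j := by
      rw [mul_pow, sq (rs j), rs_sq, sq (spin _), spin_sq, mul_one]
    rw [h2]
    ring
  simp_rw [h1]
  rw [Finset.sum_sub_distrib]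
  have h3 : ∑ p : Fin k × B, hs j / 2 = cmConst j k B := by
    simp [cmConst, Fintype.card_coe]
  rw [h3]
  have h4 : ∑ p : Fin k × B, spin (σ p.2) * (rs j * z p) = tiltExp B (wVec j z) σ := by
    unfold tiltExp wVec sumVec scaleVec
    rw [← Finset.sum_coe_sort B, Fintype.sum_prod_type_right]
    refine Finset.sum_congr rfl fun f _ => ?_
    rw [dif_pos f.2, Finset.sum_mul, ]
    refine Finset.sum_congr rfl fun l _ => ?_
    simp only [Subtype.coe_eta]
    ring
  rw [h4]
  ring

lemma integral_r_cmDens (j k : ℕ) (B : Finset I) (r : (I → Bool) → ℝ) (z : Fin k × B → ℝ) :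
    ∫ σ, r σ * cmDens (sigShift j k B σ) z ∂μ =
      Real.exp (- cmConst j k B) * ∫ σ, r σ * Real.exp (tiltExp B (wVec j z) σ) ∂μ := by
  rw [← integral_const_mul]
  refine integral_congr_ae (Eventually.of_forall fun σ => ?_)
  simp only [cmDens_sigShift]
  ring

/-- The Bayes formula on a finite window. -/
theorem bayes (hg : IsNoiseArray ν g) (j k : ℕ) (B : Finset I) (e : I)
    {Φ : (Fin k × B → ℝ) → ℝ} (hΦ : Measurable Φ) {C : ℝ} (hb : ∀ x, |Φ x| ≤ C) :
    ∫ ω, Φ (obsVec g j k B ω) * spin (ω.1 e) ∂(μ.prod ν) =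
      ∫ ω, Φ (obsVec g j k B ω) * tiltM μ B e (fun f => yl g j k f ω) ∂(μ.prod ν) := by
  classical
  have hT : Measurable fun x : Fin k × B → ℝ => tiltM μ B e (fun f => sumVec x f) :=
    (measurable_tiltM μ B e).comp (measurable_pi_lambda _ fun f => measurable_sumVec f)
  have hΨ2 : Measurable fun x : Fin k × B → ℝ => Φ x * tiltM μ B e (fun f => sumVec x f) :=
    hΦ.mul hT
  have h1 := bayes_core μ ν hg j k B hΦ hb (measurable_spin_apply e) (C' := 1)
    (fun σ => by rw [abs_spin])
  have h2 := bayes_core μ ν hg j k B hΨ2 (C := C * 1)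
    (fun x => by
      rw [abs_mul]
      exact mul_le_mul (hb x) (abs_tiltM_le μ B e _) (abs_nonneg _) ((abs_nonneg _).trans (hb x)))
    (r := fun _ => 1) measurable_const (C' := 1) (fun σ => by simp)
  have e2 : ∀ ω : (I → Bool) × Ω₂, tiltM μ B e (fun f => yl g j k f ω) =
      tiltM μ B e (fun f => sumVec (obsVec g j k B ω) f) :=
    fun ω => tiltM_congr μ e fun f hf => (sumVec_obsVec j k B ω hf).symm
  simp_rw [e2]
  rw [h1]
  simp only [mul_one] at h2
  rw [h2]
  refine integral_congr_ae (Eventually.of_forall fun z => ?_)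
  simp only []
  rw [integral_r_cmDens]
  have h3 := integral_r_cmDens μ j k B (fun _ => 1) z
  simp only [one_mul] at h3 ⊢
  rw [h3]
  have h4 : tiltN μ B e (wVec j z) = ∫ σ, spin (σ e) * Real.exp (tiltExp B (wVec j z) σ) ∂μ := rfl
  have h5 : tiltD μ B (wVec j z) = ∫ σ, Real.exp (tiltExp B (wVec j z) σ) ∂μ := rfl
  rw [← h4, ← h5, ← tiltM_mul_tiltD μ B e (wVec j z)]
  have h6 : (fun f => sumVec (scaleVec j z) f) = wVec j z := rfl
  rw [h6]
  ring

/-- The tilted mean is the conditional expectation given the window observations. -/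
theorem tilt_ae_eq_condExp (hg : IsNoiseArray ν g) (j k : ℕ) (B : Finset I) (e : I) :
    (fun ω => tiltM μ B e (fun f => yl g j k f ω)) =ᵐ[μ.prod ν]
      (μ.prod ν)[fun ω : (I → Bool) × Ω₂ => spin (ω.1 e) | FB g j k B] := by
  classical
  have hm := FB_le (g := g) hg.meas j k B
  have hs_int : Integrable (fun ω : (I → Bool) × Ω₂ => spin (ω.1 e)) (μ.prod ν) :=
    Integrable.of_bound (C := 1) (measurable_spin_fst e).aestronglyMeasurable
      (Eventually.of_forall fun ω => by rw [Real.norm_eq_abs, abs_spin])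
  have hT : Measurable fun x : Fin k × B → ℝ => tiltM μ B e (fun f => sumVec x f) :=
    (measurable_tiltM μ B e).comp (measurable_pi_lambda _ fun f => measurable_sumVec f)
  have e2 : ∀ ω : (I → Bool) × Ω₂, tiltM μ B e (fun f => yl g j k f ω) =
      tiltM μ B e (fun f => sumVec (obsVec g j k B ω) f) :=
    fun ω => tiltM_congr μ e fun f hf => (sumVec_obsVec j k B ω hf).symm
  have hTm : Measurable[FB g j k B] fun ω : (I → Bool) × Ω₂ => tiltM μ B e (fun f => yl g j k f ω) := by
    simp_rw [e2]
    exact hT.comp (comap_measurable _)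
  have hTint : Integrable (fun ω : (I → Bool) × Ω₂ => tiltM μ B e (fun f => yl g j k f ω)) (μ.prod ν) :=
    Integrable.of_bound (C := 1) (hTm.mono hm le_rfl).aestronglyMeasurable
      (Eventually.of_forall fun ω => by rw [Real.norm_eq_abs]; exact abs_tiltM_le μ B e _)
  refine ae_eq_condExp_of_forall_setIntegral_eq hm hs_int
    (fun s _ _ => hTint.integrableOn) (fun s hs _ => ?_) hTm.aestronglyMeasurable
  obtain ⟨S, hS, rfl⟩ := hs
  have hΦ : Measurable (S.indicator (1 : (Fin k × B → ℝ) → ℝ)) := measurable_one.indicator hS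
  have hb : ∀ x, |S.indicator (1 : (Fin k × B → ℝ) → ℝ) x| ≤ 1 := by
    intro x
    by_cases hx : x ∈ S <;> simp [hx]
  have := bayes μ ν hg j k B e hΦ hb
  have hsm : MeasurableSet (obsVec g j k B ⁻¹' S) := (measurable_obsVec hg.meas j k B) hS
  rw [← integral_indicator hsm, ← integral_indicator hsm]
  have e1 : ∀ (h : (I → Bool) × Ω₂ → ℝ), (obsVec g j k B ⁻¹' S).indicator h =
      fun ω => S.indicator (1 : (Fin k × B → ℝ) → ℝ) (obsVec g j k B ω) * h ω := by
    intro h
    funext ω
    by_cases hx : obsVec g j k B ω ∈ S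
    · simp [Set.indicator, hx]
    · simp [Set.indicator, hx]
  rw [e1, e1]
  exact this.symm

end Core

end

end Vale.Agent.Lib.P143
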