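import Mathlib

set_option linter.unusedSectionVars false
set_option linter.unusedVariables false

/-!
A Cauchy-Binet expansion for the weighted Gram matrix `∑ e ∈ Es, c e • b e ⊗ b e`.
-/

open Finset Matrix

namespace Vale.Agent.Lib.P143

noncomputable section

variable {W E : Type*} [Fintype W] [DecidableEq W] [DecidableEq E]

/-- The weighted Gram matrix of the vectors `b e`, `e ∈ Es`, with weights `c`. -/
def lap (b : E → W → ℝ) (c : E → ℝ) (Es : Finset E) : Matrix W W ℝ :=
  ∑ e ∈ Es, c e • Matrix.vecMulVec (b e) (b e)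

/-- The square matrix whose columns are `b (f w)`. -/
def colM (b : E → W → ℝ) (f : W → E) : Matrix W W ℝ :=
  Matrix.of fun w' w => b (f w) w'

lemma lap_apply (b : E → W → ℝ) (c : E → ℝ) (Es : Finset E) (v w : W) :
    lap b c Es v w = ∑ e ∈ Es, c e * (b e v * b e w) := by
  simp [lap, Matrix.sum_apply, Matrix.vecMulVec_apply]

lemma det_lap_expand (b : E → W → ℝ) (c : E → ℝ) (Es : Finset E) :
    (lap b c Es).det =
      ∑ f ∈ Fintype.piFinset (fun _ : W => Es),
        (∏ w, (c (f w) * b (f w) w)) * (colM b f).det := by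
  classical
  simp only [Matrix.det_apply', lap_apply, colM, Matrix.of_apply]
  have h : ∀ σ : Equiv.Perm W,
      ∏ i, ∑ e ∈ Es, c e * (b e (σ i) * b e i)
        = ∑ f ∈ Fintype.piFinset (fun _ : W => Es),
            ∏ i, (c (f i) * (b (f i) (σ i) * b (f i) i)) := by
    intro σ
    rw [Finset.prod_univ_sum]
  simp only [h, Finset.mul_sum]
  rw [Finset.sum_comm]
  refine Finset.sum_congr rfl fun f _ => ?_
  refine Finset.sum_congr rfl fun σ _ => ?_
  have : ∏ i, (c (f i) * (b (f i) (σ i) * b (f i) i))
      = (∏ i, (c (f i) * b (f i) i)) * ∏ i, b (f i) (σ i) := by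
    rw [← Finset.prod_mul_distrib]
    refine Finset.prod_congr rfl fun i _ => by ring
  rw [this]
  ring

lemma det_colM_eq_zero_of_not_injective (b : E → W → ℝ) (f : W → E)
    (hf : ¬ Function.Injective f) : (colM b f).det = 0 := by
  simp only [Function.Injective, not_forall] at hf
  obtain ⟨i, j, hij, hne⟩ := hf
  exact Matrix.det_zero_of_column_eq (i := i) (j := j) hne (by intro k; simp [colM, hij])

/-- Precomposing with a permutation multiplies the determinant by the sign. -/
lemma det_colM_comp (b : E → W → ℝ) (f : W → E) (π : Equiv.Perm W) :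
    (colM b (f ∘ π)).det = (Equiv.Perm.sign π : ℤ) * (colM b f).det := by
  have : colM b (f ∘ π) = (colM b f).submatrix id π := by
    ext i j; simp [colM]
  rw [this, Matrix.det_permute']

/-- The contribution of the functions with image `S`. -/
lemma sum_fiber (b : E → W → ℝ) (c : E → ℝ) (g : W → E) (hg : Function.Injective g) :
    ∑ π : Equiv.Perm W, (∏ w, (c (g (π w)) * b (g (π w)) w)) * (colM b (g ∘ π)).det
      = (∏ w, c (g w)) * (colM b g).det ^ 2 := by
  have h1 : ∀ π : Equiv.Perm W, ∏ w, c (g (π w)) = ∏ w, c (g w) := fun π =>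
    Equiv.prod_comp π (fun w => c (g w))
  have h2 : (colM b g).det = ∑ π : Equiv.Perm W, (Equiv.Perm.sign π : ℤ) * ∏ w, b (g (π w)) w := by
    rw [← Matrix.det_transpose, Matrix.det_apply']
    refine Finset.sum_congr rfl fun π _ => ?_
    simp [colM, Matrix.transpose_apply]
  calc ∑ π : Equiv.Perm W, (∏ w, (c (g (π w)) * b (g (π w)) w)) * (colM b (g ∘ π)).det
      = ∑ π : Equiv.Perm W, (∏ w, c (g w)) * (colM b g).det *
          (((Equiv.Perm.sign π : ℤ) : ℝ) * ∏ w, b (g (π w)) w) := by
        refine Finset.sum_congr rfl fun π _ => ?_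
        rw [Finset.prod_mul_distrib, h1 π, det_colM_comp]
        ring
    _ = (∏ w, c (g w)) * (colM b g).det ^ 2 := by
        rw [← Finset.mul_sum, ← h2]
        ring

/-- Cauchy-Binet for Gram matrices, in the form used for the matrix-tree theorem. -/
theorem det_lap_eq_sum (b : E → W → ℝ) (c : E → ℝ) (Es : Finset E) (w : Finset E → ℝ)
    (hw : ∀ S ∈ Es.powersetCard (Fintype.card W), ∀ g : W → E, Function.Injective g →
      Finset.univ.image g = S → (colM b g).det ^ 2 = w S) :
    (lap b c Es).det = ∑ S ∈ Es.powersetCard (Fintype.card W), (∏ e ∈ S, c e) * w S := by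
  classical
  rw [det_lap_expand]
  -- remove the non injective functions
  have h0 : ∑ f ∈ Fintype.piFinset (fun _ : W => Es),
        (∏ w, (c (f w) * b (f w) w)) * (colM b f).det
      = ∑ f ∈ (Fintype.piFinset (fun _ : W => Es)).filter Function.Injective,
        (∏ w, (c (f w) * b (f w) w)) * (colM b f).det := by
    rw [Finset.sum_filter]
    refine Finset.sum_congr rfl fun f _ => ?_
    split_ifs with hf
    · rfl
    · rw [det_colM_eq_zero_of_not_injective b f hf, mul_zero]
  rw [h0]
  -- group according to the image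
  have hmaps : ∀ f ∈ (Fintype.piFinset (fun _ : W => Es)).filter Function.Injective,
      Finset.univ.image f ∈ Es.powersetCard (Fintype.card W) := by
    intro f hf
    rw [Finset.mem_filter, Fintype.mem_piFinset] at hf
    rw [Finset.mem_powersetCard]
    refine ⟨?_, ?_⟩
    · intro e he
      rw [Finset.mem_image] at he
      obtain ⟨a, -, rfl⟩ := he
      exact hf.1 a
    · rw [Finset.card_image_of_injective _ hf.2]; rfl
  rw [← Finset.sum_fiberwise_of_maps_to hmaps]
  refine Finset.sum_congr rfl fun S hS => ?_
  -- an enumeration of `S`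
  have hcard := (Finset.mem_powersetCard.1 hS).2
  have hsub := (Finset.mem_powersetCard.1 hS).1
  have hcard' : Fintype.card W = Fintype.card S := by simp [hcard]
  let eqv : W ≃ S := Fintype.equivOfCardEq hcard'
  let g : W → E := fun w => (eqv w : E)
  have hg : Function.Injective g := fun a a' h => eqv.injective (Subtype.ext h)
  have hgS : Finset.univ.image g = S := by
    ext e
    simp only [Finset.mem_image, Finset.mem_univ, true_and]
    constructor
    · rintro ⟨a, rfl⟩
      exact (eqv a).2
    · intro he
      refine ⟨eqv.symm ⟨e, he⟩, ?_⟩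
      simp [g]
  have hprod : ∏ w, c (g w) = ∏ e ∈ S, c e := by
    rw [← hgS, Finset.prod_image (fun a _ a' _ h => hg h)]
  rw [← hprod, ← hw S hS g hg hgS, ← sum_fiber b c g hg]
  -- the fibre is parametrized by permutations
  symm
  refine Finset.sum_bij (fun π _ => g ∘ π) ?_ ?_ ?_ ?_
  · intro π _
    rw [Finset.mem_filter, Finset.mem_filter, Fintype.mem_piFinset]
    refine ⟨⟨fun a => hsub (by rw [← hgS]; exact Finset.mem_image_of_mem g (Finset.mem_univ _)),
      hg.comp π.injective⟩, ?_⟩
    rw [← hgS, ← Finset.image_image]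
    congr 1
    ext a
    simp
  · intro π _ π' _ h
    ext a
    have := congrFun h a
    exact hg this
  · intro f hf
    rw [Finset.mem_filter, Finset.mem_filter, Fintype.mem_piFinset] at hf
    have hfS : ∀ a, f a ∈ S := fun a => by
      rw [← hf.2]; exact Finset.mem_image_of_mem f (Finset.mem_univ _)
    have hsurj : ∀ a, ∃ a', g a' = f a := fun a => by
      have : f a ∈ Finset.univ.image g := by rw [hgS]; exact hfS a
      simpa using this
    choose p hp using hsurj
    have hpinj : Function.Injective p := fun a a' h => hf.1.2 (by rw [← hp a, ← hp a', h])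
    let π : Equiv.Perm W := Equiv.ofBijective p (Finite.injective_iff_bijective.1 hpinj)
    refine ⟨π, Finset.mem_univ _, ?_⟩
    funext a
    exact hp a
  · intro π _
    rfl

end

end Vale.Agent.Lib.P143
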