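import Mathlib

/-!
The Cayley graph of a group for a finite generating set, with left multiplication on its edges.
-/

namespace Vale.Agent.Lib.P143

variable {Γ : Type*} [Group Γ]

/-- The simple Cayley graph: `g` and `h` are adjacent iff they differ and `h = g s` or `g = h s`
with `s ∈ S`. Left multiplication acts by automorphisms. -/
def cayleyGraph (S : Finset Γ) : SimpleGraph Γ where
  Adj g h := g ≠ h ∧ (g⁻¹ * h ∈ S ∨ h⁻¹ * g ∈ S)
  symm := ⟨fun _ _ hgh => ⟨hgh.1.symm, hgh.2.symm⟩⟩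
  loopless := ⟨fun _ h => h.1 rfl⟩

lemma cayleyGraph_adj {S : Finset Γ} {g h : Γ} :
    (cayleyGraph S).Adj g h ↔ g ≠ h ∧ (g⁻¹ * h ∈ S ∨ h⁻¹ * g ∈ S) := Iff.rfl

lemma cayleyGraph_adj_mul (S : Finset Γ) (c : Γ) {g h : Γ} (hgh : (cayleyGraph S).Adj g h) :
    (cayleyGraph S).Adj (c * g) (c * h) := by
  rw [cayleyGraph_adj] at hgh ⊢
  refine ⟨fun h' => hgh.1 (mul_left_cancel h'), ?_⟩
  have h1 : (c * g)⁻¹ * (c * h) = g⁻¹ * h := by group
  have h2 : (c * h)⁻¹ * (c * g) = h⁻¹ * g := by group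
  rw [h1, h2]
  exact hgh.2

/-- Left multiplication by `c` on the edges of the Cayley graph. -/
def cayleyShift (S : Finset Γ) (c : Γ) (e : (cayleyGraph S).edgeSet) : (cayleyGraph S).edgeSet :=
  ⟨Sym2.map (c * ·) e.1, by
    obtain ⟨e, he⟩ := e
    induction e using Sym2.ind with
    | _ a b => exact cayleyGraph_adj_mul S c he⟩

end Vale.Agent.Lib.P143
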