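import Vale.Agent.Lib.P143.EdgeNoise
import Vale.Agent.Lib.P143.Balls
import Vale.Agent.Lib.P143.CayleyDefs

/-!
Assembly on a Cayley graph: a measure on the edge configurations with Lipschitz tilts that is
invariant under left multiplication is a `Γ`-factor of i.i.d. vertex labels.
-/

set_option linter.unusedSimpArgs false
set_option linter.unusedVariables false
set_option linter.unusedSectionVars false

open Filter MeasureTheory Finset Topology ProbabilityTheory

namespace Vale.Agent.Lib.P143

noncomputable section

variable {Γ : Type*} [Group Γ]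

/-- A finite generating set makes the Cayley graph connected. -/
lemma cayleyGraph_connected (S : Finset Γ) (hS : Subgroup.closure (S : Set Γ) = ⊤) :
    (cayleyGraph S).Connected := by
  rw [SimpleGraph.connected_iff_exists_forall_reachable]
  refine ⟨1, fun g => ?_⟩
  have hg : g ∈ Subgroup.closure (S : Set Γ) := by rw [hS]; exact Subgroup.mem_top g
  induction hg using Subgroup.closure_induction_right with
  | one => exact SimpleGraph.Reachable.refl _
  | mul_right x _ y hy ih =>
    by_cases h1 : y = 1
    · simpa [h1] using ih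
    · refine ih.trans (SimpleGraph.Adj.reachable ?_)
      rw [cayleyGraph_adj]
      refine ⟨fun h => h1 (by simpa using h), Or.inl ?_⟩
      simpa using hy
  | mul_inv_cancel x _ y hy ih =>
    by_cases h1 : y = 1
    · simpa [h1] using ih
    · refine ih.trans (SimpleGraph.Adj.reachable ?_)
      rw [cayleyGraph_adj]
      refine ⟨fun h => h1 (by simpa using h), Or.inr ?_⟩
      simpa using hy

/-- The Cayley graph is locally finite. -/
instance cayleyGraph_locallyFinite (S : Finset Γ) : (cayleyGraph S).LocallyFinite := by
  classical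
  intro g
  have hfin : ((cayleyGraph S).neighborSet g).Finite := by
    have hsub : (cayleyGraph S).neighborSet g ⊆
        ((S.image (g * ·)) ∪ (S.image (fun s => g * s⁻¹)) : Finset Γ) := by
      intro h hh
      have hh' := (SimpleGraph.mem_neighborSet _ _ _).1 hh
      rw [cayleyGraph_adj] at hh'
      rcases hh'.2 with h1 | h1
      · refine Finset.mem_coe.2 (Finset.mem_union_left _ (Finset.mem_image.2 ⟨_, h1, by group⟩))
      · refine Finset.mem_coe.2 (Finset.mem_union_right _ (Finset.mem_image.2 ⟨_, h1, by group⟩))
    exact (Finset.finite_toSet _).subset hsub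
  exact hfin.fintype

/-- Left multiplication as an automorphism of the Cayley graph. -/
def cayleyIso (S : Finset Γ) (c : Γ) : cayleyGraph S ≃g cayleyGraph S where
  toEquiv := Equiv.mulLeft c
  map_rel_iff' := by
    intro a b
    constructor
    · intro h
      have := cayleyGraph_adj_mul S c⁻¹ h
      simpa using this
    · exact fun h => cayleyGraph_adj_mul S c h

lemma cayleyIso_mapEdgeSet (S : Finset Γ) (c : Γ) (e : (cayleyGraph S).edgeSet) :
    (cayleyIso S c).mapEdgeSet e = cayleyShift S c e := rfl

lemma countable_of_cayley (S : Finset Γ) (hS : Subgroup.closure (S : Set Γ) = ⊤) : Countable Γ := by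
  classical
  exact Vale.Agent.Lib.P161.countable_of_connected (cayleyGraph_connected S hS)

/-- The assembly. -/
theorem cayley_assembly (S : Finset Γ) (hS : Subgroup.closure (S : Set Γ) = ⊤)
    (μ : Measure ((cayleyGraph S).edgeSet → Bool)) [IsProbabilityMeasure μ] {K : ℝ} (hK : 0 < K)
    (hL : SupLip μ K) (hinv : ∀ c : Γ, μ.map (fun σ => σ ∘ cayleyShift S c) = μ) :
    ∃ Φ : (Γ → unitInterval) → ((cayleyGraph S).edgeSet → Bool), Measurable Φ ∧
      (∀ (c : Γ) (U : Γ → unitInterval) (e : (cayleyGraph S).edgeSet),
        Φ (fun g => U (c⁻¹ * g)) e = Φ U (cayleyShift S c⁻¹ e)) ∧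
      (uniformField Γ).map Φ = μ := by
  classical
  have hc := cayleyGraph_connected S hS
  have hΓ : Countable Γ := countable_of_cayley S hS
  have : Countable (cayleyGraph S).edgeSet := by
    have : Countable (Sym2 Γ) := by
      have h1 : Function.Surjective (fun p : Γ × Γ => s(p.1, p.2)) := fun e => by
        induction e using Sym2.ind with
        | _ a b => exact ⟨(a, b), rfl⟩
      exact h1.countable
    exact Subtype.countable
  obtain ⟨γ, hγm, hγr, hγn⟩ := Vale.Agent.Lib.P161.exists_noise (Γ × Γ)
  obtain ⟨ρ, hρ, hmap⟩ := exists_label_split (Γ := Γ)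
  let Bs := fun (e : (cayleyGraph S).edgeSet) (R : ℕ) => nearF hc e R
  have hnoise : IsNoiseArray (uniformField Γ)
      (fun (j k : ℕ) (e : (cayleyGraph S).edgeSet) U => edgeNoise γ ρ j k e U) :=
    edgeNoise_isNoiseArray hγm hγr hγn hρ hmap (E := (cayleyGraph S).edgeSet)
      (fun e he => SimpleGraph.not_isDiag_of_mem_edgeSet _ he)
  refine ⟨fun U => Psi μ Bs (fun j k e => edgeNoise γ ρ j k e U), ?_, ?_, ?_⟩
  · refine (measurable_Psi μ Bs).comp ?_
    exact measurable_pi_lambda _ fun j => measurable_pi_lambda _ fun k =>
      measurable_pi_lambda _ fun e => hnoise.meas j k e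
  · intro c U e
    have hequiv := Psi_equivariant μ Bs ((cayleyIso S c⁻¹).mapEdgeSet) (hinv c⁻¹)
      (fun e R => nearF_map hc (cayleyIso S c⁻¹) e R) (fun j k e => edgeNoise γ ρ j k e U) e
    rw [cayleyIso_mapEdgeSet] at hequiv
    change Psi μ Bs (fun j k e => edgeNoise γ ρ j k e (fun g => U (c⁻¹ * g))) e =
      Psi μ Bs (fun j k e => edgeNoise γ ρ j k e U) (cayleyShift S c⁻¹ e)
    rw [← hequiv]
    congr 1
    funext j k e
    rw [edgeNoise_equivariant]
    rfl
  · exact Psi_law μ Bs hK hL (fun e => nearF_mono hc e) (fun e f => nearF_exhaust hc e f)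
      (uniformField Γ) hnoise

end

end Vale.Agent.Lib.P143
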