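import Mathlib

/-!
Definitions used in the final statements for P143: spanning trees of a finite subgraph, the
uniform spanning tree probabilities, exhaustions by finite connected subgraphs and the i.i.d.
uniform field.
-/

open MeasureTheory

namespace Vale.Agent.Lib.P143

noncomputable section

variable {V : Type*} {G : SimpleGraph V}

/-- `T` is the edge set of a spanning tree of the subgraph `H`: its edges are edges of `H`, and the
graph on the vertices of `H` with edge set `T` is a tree. -/
def IsSpanningTreeOf (H : G.Subgraph) (T : Finset (Sym2 V)) : Prop :=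
  (T : Set (Sym2 V)) ⊆ H.edgeSet ∧
    ((SimpleGraph.fromEdgeSet (T : Set (Sym2 V))).induce H.verts).IsTree

open Classical in
/-- The probability, for the uniform spanning tree `T` of the finite subgraph `H`, of the event
`T ∩ F = P`. -/
def ustProb (H : G.Subgraph) (F P : Finset (Sym2 V)) : ℝ :=
  (Set.ncard {T : Finset (Sym2 V) | IsSpanningTreeOf H T ∧ T ∩ F = P} : ℝ) /
    (Set.ncard {T : Finset (Sym2 V) | IsSpanningTreeOf H T} : ℝ)

/-- An exhaustion of `G` by finite connected subgraphs `H 0 ≤ H 1 ≤ ...` with union `G`. -/
structure IsExhaustion (G : SimpleGraph V) (H : ℕ → G.Subgraph) : Prop where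
  finite : ∀ n, (H n).verts.Finite
  connected : ∀ n, (H n).Connected
  mono : Monotone H
  verts : ∀ v, ∃ n, v ∈ (H n).verts
  adj : ∀ a b, G.Adj a b → ∃ n, (H n).Adj a b

/-- The law of an i.i.d. field of uniform `[0,1]` variables indexed by `V`. -/
def uniformField (V : Type*) : Measure (V → unitInterval) :=
  Measure.infinitePi (fun _ : V => (volume : Measure unitInterval))

end

end Vale.Agent.Lib.P143
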