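import Vale.Agent.Lib.P143.MatrixTree

set_option linter.unusedSectionVars false
set_option linter.unusedVariables false
set_option linter.unusedSimpArgs false

/-!
Determinant tools for tree sums of a finite multigraph.
-/

open Finset Matrix

namespace Vale.Agent.Lib.P143

noncomputable section

variable {V F : Type*} [Fintype V] [DecidableEq V] [Fintype F] [DecidableEq F]

/-- Rank `|A|` update of a determinant. -/
lemma det_sub_mul_transpose {W A : Type*} [Fintype W] [DecidableEq W] [Fintype A] [DecidableEq A]
    (M : Matrix W W ℝ) (hM : IsUnit M.det) (U : Matrix W A ℝ) :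
    (M - U * Uᵀ).det = M.det * (1 - Uᵀ * (M⁻¹ * U)).det := by
  have h1 : M - U * Uᵀ = M * (1 - (M⁻¹ * U) * Uᵀ) := by
    rw [mul_sub, mul_one, ← Matrix.mul_assoc, ← Matrix.mul_assoc, Matrix.mul_nonsing_inv _ hM,
      Matrix.one_mul]
  rw [h1, Matrix.det_mul, Matrix.det_one_sub_mul_comm]

/-- Positivity of the total weight of the spanning trees. -/
lemma treeSum_pos (u v : F → V) (hex : ∃ T, IsSpanTree u v T) {c : F → ℝ} (hc : ∀ f, 0 < c f) :
    0 < treeSum u v c (fun _ => True) := by
  classical
  obtain ⟨T, hT⟩ := hex
  unfold treeSum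
  refine Finset.sum_pos (fun T' _ => Finset.prod_pos fun f _ => hc f) ⟨T, ?_⟩
  simp [hT]

open Classical in
lemma treeSum_eq_filter (u v : F → V) (c : F → ℝ) (P : Finset F → Prop) :
    treeSum u v c P = ∑ T ∈ (Finset.univ.filter fun T => IsSpanTree u v T).filter P, ∏ f ∈ T, c f := by
  unfold treeSum
  rw [Finset.filter_filter]

open Classical in
lemma treeSum_eq_sum_ite (u v : F → V) (c : F → ℝ) (P : Finset F → Prop) :
    treeSum u v c P = ∑ T ∈ Finset.univ.filter (fun T => IsSpanTree u v T),
      if P T then ∏ f ∈ T, c f else 0 := by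
  rw [treeSum_eq_filter, Finset.sum_filter]

open Classical in
/-- Splitting the tree sum according to whether a property holds. -/
lemma treeSum_add_not (u v : F → V) (c : F → ℝ) (P : Finset F → Prop) :
    treeSum u v c P + treeSum u v c (fun T => ¬ P T) = treeSum u v c (fun _ => True) := by
  rw [treeSum_eq_filter, treeSum_eq_filter, treeSum_eq_filter, Finset.sum_filter_add_sum_filter_not]
  simp

/-- Tree sum of the trees avoiding `A` is the tree sum for the weights vanishing on `A`. -/
lemma treeSum_avoid (u v : F → V) (c : F → ℝ) (A : Finset F) :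
    treeSum u v c (fun T => Disjoint T A) =
      treeSum u v (fun f => if f ∈ A then 0 else c f) (fun _ => True) := by
  classical
  rw [treeSum_eq_sum_ite, treeSum_eq_sum_ite]
  refine Finset.sum_congr rfl fun T _ => ?_
  rw [if_pos trivial]
  split_ifs with hT
  · refine Finset.prod_congr rfl fun f hf => ?_
    rw [if_neg (Finset.disjoint_left.1 hT hf)]
  · symm
    obtain ⟨f, hf, hfA⟩ := Finset.not_disjoint_iff.1 hT
    exact Finset.prod_eq_zero hf (if_pos hfA)


end

end Vale.Agent.Lib.P143
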