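import Vale.Agent.Lib.P143.Main
import Vale.Agent.Lib.P143.Defs

/-!
From i.i.d. vertex labels to a noise array on the edges of a graph on a group, equivariantly for
left multiplication: each vertex carries independent Gaussian arrays, one for each direction, and
an edge receives the normalized sum of the two arrays looking along it.
-/

set_option linter.unusedSimpArgs false
set_option linter.unusedVariables false
set_option linter.unusedSectionVars false
set_option warn.classDefReducibility false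

open Filter MeasureTheory Finset Topology ProbabilityTheory

namespace Vale.Agent.Lib.P143

noncomputable section

open Vale.Agent.Lib.P161 (IsNoise hasGaussianLaw_of_mem_span memLp_of_mem_span
  iIndepFun_of_mem_span map_eq_gaussianReal_of_mem_span integral_eq_zero_of_mem_span cov_rot)

/-- Independence and laws pull back along a map with the right image measure. -/
lemma noise_pullback {Ω₁ Ω₂ κ : Type*} [MeasurableSpace Ω₁] [MeasurableSpace Ω₂]
    {P : Measure Ω₁} {Q : Measure Ω₂} [IsProbabilityMeasure P] [IsProbabilityMeasure Q]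
    {T : Ω₁ → Ω₂} (hT : Measurable T) (hPQ : P.map T = Q) {f : κ → Ω₂ → ℝ} (hf : ∀ p, Measurable (f p))
    (hi : iIndepFun f Q) (hl : ∀ p, Q.map (f p) = gaussianReal 0 1) :
    iIndepFun (fun p U => f p (T U)) P ∧ ∀ p, P.map (fun U => f p (T U)) = gaussianReal 0 1 := by
  have hlaw : ∀ p, P.map (fun U => f p (T U)) = gaussianReal 0 1 := by
    intro p
    have : (fun U => f p (T U)) = f p ∘ T := rfl
    rw [this, ← Measure.map_map (hf p) hT, hPQ, hl p]
  refine ⟨?_, hlaw⟩
  have hmm : ∀ p, Measurable fun U => f p (T U) := fun p => (hf p).comp hT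
  rw [iIndepFun_iff_map_fun_eq_infinitePi_map hmm]
  have h1 := (iIndepFun_iff_map_fun_eq_infinitePi_map hf).1 hi
  have e : (fun U p => f p (T U)) = (fun u p => f p u) ∘ T := rfl
  rw [e, ← Measure.map_map (measurable_pi_lambda _ hf) hT, hPQ, h1]
  simp_rw [hl, hlaw]

/-- An orthonormal family made of normalized sums of disjoint pairs in an i.i.d. Gaussian family
is again i.i.d. Gaussian. -/
lemma pair_noise {Ω κ ι : Type*} [MeasurableSpace Ω] {P : Measure Ω} [IsProbabilityMeasure P]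
    {ζ : κ → Ω → ℝ} (hm : ∀ p, Measurable (ζ p)) (hi : iIndepFun ζ P)
    (hl : ∀ p, P.map (ζ p) = gaussianReal 0 1) (p₁ p₂ : ι → κ) (hne : ∀ i, p₁ i ≠ p₂ i)
    (hdis : ∀ i i', i ≠ i' → p₁ i ≠ p₁ i' ∧ p₁ i ≠ p₂ i' ∧ p₂ i ≠ p₁ i' ∧ p₂ i ≠ p₂ i') :
    iIndepFun (fun i ω => (ζ (p₁ i) ω + ζ (p₂ i) ω) / Real.sqrt 2) P ∧
      ∀ i, P.map (fun ω => (ζ (p₁ i) ω + ζ (p₂ i) ω) / Real.sqrt 2) = gaussianReal 0 1 := by
  classical
  have hZmem : ∀ p, MemLp (ζ p) 2 P := fun p =>
    memLp_of_mem_span hm hi hl (Submodule.subset_span ⟨p, rfl⟩)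
  have hZ : ∀ p q, cov[ζ p, ζ q; P] = if p = q then 1 else 0 := by
    intro p q
    split_ifs with h
    · subst h
      rw [covariance_self (hm p).aemeasurable, ← variance_id_map (hm p).aemeasurable, hl p]
      simp
    · exact (hi.indepFun h).covariance_eq_zero (hZmem p) (hZmem q)
  have hspan : ∀ i, (fun ω => (ζ (p₁ i) ω + ζ (p₂ i) ω) / Real.sqrt 2) ∈
      Submodule.span ℝ (Set.range ζ) := by
    intro i
    have e : (fun ω => (ζ (p₁ i) ω + ζ (p₂ i) ω) / Real.sqrt 2) =
        (Real.sqrt 2)⁻¹ • (ζ (p₁ i) + ζ (p₂ i)) := by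
      funext ω; simp [div_eq_inv_mul]
    rw [e]
    exact Submodule.smul_mem _ _ (Submodule.add_mem _ (Submodule.subset_span ⟨_, rfl⟩)
      (Submodule.subset_span ⟨_, rfl⟩))
  have hcov : ∀ i i', cov[fun ω => (ζ (p₁ i) ω + ζ (p₂ i) ω) / Real.sqrt 2,
      fun ω => (ζ (p₁ i') ω + ζ (p₂ i') ω) / Real.sqrt 2; P] =
      ((if p₁ i = p₁ i' then 1 else 0) + (if p₁ i = p₂ i' then 1 else 0) +
        (if p₂ i = p₁ i' then 1 else 0) + (if p₂ i = p₂ i' then 1 else 0)) / 2 := by
    intro i i'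
    have h := cov_rot (P := P) (hZmem (p₁ i)) (hZmem (p₂ i)) (hZmem (p₁ i')) (hZmem (p₂ i')) 1 1
    simp only [one_mul] at h
    rw [h, hZ, hZ, hZ, hZ]
  refine ⟨iIndepFun_of_mem_span hm hi hl hspan fun i i' hii => ?_, fun i => ?_⟩
  · rw [hcov]
    obtain ⟨h1, h2, h3, h4⟩ := hdis i i' hii
    simp [h1, h2, h3, h4]
  · refine map_eq_gaussianReal_of_mem_span hm hi hl (hspan i)
      (integral_eq_zero_of_mem_span hm hi hl (hspan i)) ?_
    rw [hcov]
    have h1 := hne i
    have h2 := (hne i).symm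
    simp [h1, h2]

variable {Γ : Type*} [Group Γ]

/-- The normalized sum of the values looking along an edge, in both directions. -/
def edgeVal (ζ : Γ × Γ → ℝ) : Sym2 Γ → ℝ :=
  Sym2.lift ⟨fun a b => (ζ (a, a⁻¹ * b) + ζ (b, b⁻¹ * a)) / Real.sqrt 2, fun a b => by
    simp only [add_comm]⟩

lemma edgeVal_mk (ζ : Γ × Γ → ℝ) (a b : Γ) :
    edgeVal ζ s(a, b) = (ζ (a, a⁻¹ * b) + ζ (b, b⁻¹ * a)) / Real.sqrt 2 := rfl

/-- The edge noise built from vertex labels. -/
def edgeNoise (γ : ℕ → ℕ → unitInterval → ℝ) (ρ : unitInterval → Γ → unitInterval)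
    (j k : ℕ) (e : Sym2 Γ) (U : Γ → unitInterval) : ℝ :=
  edgeVal (fun p => γ j k (ρ (U p.1) p.2)) e

/-- The edge noise is exactly equivariant under left multiplication. -/
lemma edgeNoise_equivariant (γ : ℕ → ℕ → unitInterval → ℝ) (ρ : unitInterval → Γ → unitInterval)
    (j k : ℕ) (g : Γ) (e : Sym2 Γ) (U : Γ → unitInterval) :
    edgeNoise γ ρ j k e (fun x => U (g⁻¹ * x)) = edgeNoise γ ρ j k (Sym2.map (g⁻¹ * ·) e) U := by
  induction e using Sym2.ind with
  | _ a b =>
    simp only [edgeNoise, Sym2.map_mk, edgeVal_mk]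
    have h1 : (g⁻¹ * a)⁻¹ * (g⁻¹ * b) = a⁻¹ * b := by group
    have h2 : (g⁻¹ * b)⁻¹ * (g⁻¹ * a) = b⁻¹ * a := by group
    rw [h1, h2]

lemma measurable_labelField {ρ : unitInterval → Γ → unitInterval} (hρ : Measurable ρ) :
    Measurable fun (U : Γ → unitInterval) (p : Γ × Γ) => ρ (U p.1) p.2 := by
  refine measurable_pi_lambda _ fun p => ?_
  exact (measurable_pi_apply p.2).comp (hρ.comp (measurable_pi_apply p.1))

instance (V : Type*) : IsProbabilityMeasure (uniformField V) := by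
  unfold uniformField; infer_instance

/-- The split labels are i.i.d. uniform. -/
lemma map_labelField {ρ : unitInterval → Γ → unitInterval} (hρ : Measurable ρ)
    (hmap : (volume : Measure unitInterval).map ρ = uniformField Γ) :
    (uniformField Γ).map (fun (U : Γ → unitInterval) (p : Γ × Γ) => ρ (U p.1) p.2) =
      uniformField (Γ × Γ) := by
  have heval : ∀ a : Γ, (uniformField Γ).map (fun U => U a) = volume := fun a =>
    Measure.infinitePi_map_eval _ a
  have hX : ∀ a s : Γ, Measurable fun U : Γ → unitInterval => ρ (U a) s := fun a s =>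
    (measurable_pi_apply s).comp (hρ.comp (measurable_pi_apply a))
  have hlaw : ∀ a s : Γ, (uniformField Γ).map (fun U : Γ → unitInterval => ρ (U a) s) = volume := by
    intro a s
    have : (fun U : Γ → unitInterval => ρ (U a) s) = (fun u => ρ u s) ∘ (fun U => U a) := rfl
    have hu : Measurable fun u => ρ u s := (measurable_pi_apply s).comp hρ
    have ha : Measurable fun U : Γ → unitInterval => U a := measurable_pi_apply a
    rw [this, ← Measure.map_map hu ha, heval]
    have h2 : (fun u => ρ u s) = (fun f : Γ → unitInterval => f s) ∘ ρ := rfl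
    have hs : Measurable fun f : Γ → unitInterval => f s := measurable_pi_apply s
    rw [h2, ← Measure.map_map hs hρ, hmap]
    exact Measure.infinitePi_map_eval _ s
  have h1 : iIndepFun (fun (a : Γ) (U : Γ → unitInterval) (s : Γ) => ρ (U a) s) (uniformField Γ) := by
    have := iIndepFun_infinitePi (ι := Γ) (Ω := fun _ => unitInterval)
      (P := fun _ => (volume : Measure unitInterval)) (𝓧 := fun _ => Γ → unitInterval)
      (X := fun _ u => ρ u) (fun _ => hρ)
    exact this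
  have h2 : ∀ a : Γ, iIndepFun (fun (s : Γ) (U : Γ → unitInterval) => ρ (U a) s) (uniformField Γ) := by
    intro a
    rw [iIndepFun_iff_map_fun_eq_infinitePi_map (fun s => hX a s)]
    have e : (fun (U : Γ → unitInterval) (s : Γ) => ρ (U a) s) = ρ ∘ (fun U => U a) := rfl
    rw [e, ← Measure.map_map hρ (measurable_pi_apply a), heval, hmap]
    simp_rw [hlaw]
    rfl
  have h3 := iIndepFun_uncurry' (X := fun (a : Γ) (s : Γ) (U : Γ → unitInterval) => ρ (U a) s)
    (fun a s => hX a s) h1 h2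
  have h4 := (iIndepFun_iff_map_fun_eq_infinitePi_map (fun p : Γ × Γ => hX p.1 p.2)).1 h3
  refine h4.trans ?_
  simp_rw [hlaw]
  rfl

variable [Countable Γ]

/-- Labels, splitting and noise exist. -/
lemma exists_label_split : ∃ ρ : unitInterval → Γ → unitInterval, Measurable ρ ∧
    (volume : Measure unitInterval).map ρ = uniformField Γ := by
  obtain ⟨f, hf, hfμ⟩ := MeasureTheory.Measure.exists_measurable_map_eq (uniformField Γ)
  exact ⟨f, hf, hfμ⟩

/-- First end of an edge, by a fixed choice. -/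
def ea (e : Sym2 Γ) : Γ := (Quot.out e).1

/-- Second end of an edge, by a fixed choice. -/
def eb (e : Sym2 Γ) : Γ := (Quot.out e).2

lemma s_ea_eb (e : Sym2 Γ) : s(ea e, eb e) = e := Quot.out_eq e

/-- The edge noise is a noise array on any set of non-diagonal pairs. -/
theorem edgeNoise_isNoiseArray {γ : ℕ → ℕ → unitInterval → ℝ} {ρ : unitInterval → Γ → unitInterval}
    (hγm : ∀ j k, Measurable (γ j k))
    (hγr : ∀ j k s, γ j k s = (γ (j + 1) (2 * k) s + γ (j + 1) (2 * k + 1) s) / Real.sqrt 2)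
    (hγn : ∀ j, IsNoise (Vale.Agent.Lib.P161.uniformField (Γ × Γ))
      (fun (k : ℕ) (v : Γ × Γ) (u : Γ × Γ → unitInterval) => γ j k (u v)))
    (hρ : Measurable ρ) (hmap : (volume : Measure unitInterval).map ρ = uniformField Γ)
    {E : Set (Sym2 Γ)} (hE : ∀ e ∈ E, ¬ e.IsDiag) :
    IsNoiseArray (uniformField Γ) (fun (j k : ℕ) (e : E) U => edgeNoise γ ρ j k e U) := by
  classical
  have hT := measurable_labelField hρ
  have hPQ := map_labelField hρ hmap
  haveI : IsProbabilityMeasure (Vale.Agent.Lib.P161.uniformField (Γ × Γ)) := by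
    unfold Vale.Agent.Lib.P161.uniformField; infer_instance
  -- the i.i.d. family at level j on the vertex labels
  have hζ : ∀ j, iIndepFun (fun (p : ℕ × (Γ × Γ)) (U : Γ → unitInterval) => γ j p.1 (ρ (U p.2.1) p.2.2))
      (uniformField Γ) ∧
      ∀ p : ℕ × (Γ × Γ), (uniformField Γ).map (fun U : Γ → unitInterval => γ j p.1 (ρ (U p.2.1) p.2.2)) =
        gaussianReal 0 1 := by
    intro j
    exact noise_pullback (Q := Vale.Agent.Lib.P161.uniformField (Γ × Γ)) hT hPQ
      (f := fun (p : ℕ × (Γ × Γ)) (u : Γ × Γ → unitInterval) => γ j p.1 (u p.2))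
      (fun p => (hγn j).meas p.1 p.2) (hγn j).indep (fun p => (hγn j).law p.1 p.2)
  have hζm : ∀ (j : ℕ) (p : ℕ × (Γ × Γ)), Measurable (fun U : Γ → unitInterval => γ j p.1 (ρ (U p.2.1) p.2.2)) :=
    fun j p => (hγm j p.1).comp ((measurable_pi_apply p.2.2).comp (hρ.comp (measurable_pi_apply p.2.1)))
  have hform : ∀ (j k : ℕ) (e : Sym2 Γ) (U : Γ → unitInterval), edgeNoise γ ρ j k e U =
      (γ j k (ρ (U (ea e)) ((ea e)⁻¹ * eb e)) + γ j k (ρ (U (eb e)) ((eb e)⁻¹ * ea e))) / Real.sqrt 2 := by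
    intro j k e U
    conv_lhs => rw [← s_ea_eb e]
    rfl
  -- the pairs
  let p₁ : ℕ × E → ℕ × (Γ × Γ) := fun i => (i.1, (ea i.2.1, (ea i.2.1)⁻¹ * eb i.2.1))
  let p₂ : ℕ × E → ℕ × (Γ × Γ) := fun i => (i.1, (eb i.2.1, (eb i.2.1)⁻¹ * ea i.2.1))
  let key : ℕ × (Γ × Γ) → ℕ × Sym2 Γ := fun q => (q.1, s(q.2.1, q.2.1 * q.2.2))
  have hk1 : ∀ i, key (p₁ i) = (i.1, i.2.1) := by
    intro i
    simp only [key, p₁, mul_inv_cancel_left, s_ea_eb]
  have hk2 : ∀ i, key (p₂ i) = (i.1, i.2.1) := by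
    intro i
    simp only [key, p₂, mul_inv_cancel_left]
    rw [Sym2.eq_swap, s_ea_eb]
  have hkeyinj : ∀ i i' : ℕ × E, i ≠ i' → (i.1, i.2.1) ≠ (i'.1, i'.2.1) := by
    intro i i' h h2
    apply h
    have h3 := congrArg Prod.fst h2
    have h4 := congrArg Prod.snd h2
    exact Prod.ext h3 (Subtype.ext h4)
  have hne : ∀ i, p₁ i ≠ p₂ i := by
    intro i h
    have h5 := congrArg Prod.fst (congrArg Prod.snd h)
    have hd : (s(ea i.2.1, eb i.2.1) : Sym2 Γ).IsDiag := by
      rw [Sym2.mk_isDiag_iff]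
      exact h5
    rw [s_ea_eb] at hd
    exact hE _ i.2.2 hd
  have hdis : ∀ i i', i ≠ i' → p₁ i ≠ p₁ i' ∧ p₁ i ≠ p₂ i' ∧ p₂ i ≠ p₁ i' ∧ p₂ i ≠ p₂ i' := by
    intro i i' hii
    refine ⟨fun h => ?_, fun h => ?_, fun h => ?_, fun h => ?_⟩
    · exact hkeyinj i i' hii (by rw [← hk1, ← hk1 i', h])
    · exact hkeyinj i i' hii (by rw [← hk1, ← hk2 i', h])
    · exact hkeyinj i i' hii (by rw [← hk2, ← hk1 i', h])
    · exact hkeyinj i i' hii (by rw [← hk2, ← hk2 i', h])
  have key2 : ∀ j, _ := fun j => pair_noise (hζm j) (hζ j).1 (hζ j).2 p₁ p₂ hne hdis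
  refine ⟨fun j k e => ?_, fun j k e U => ?_, fun j => ?_, fun j k e => ?_⟩
  · have : (fun U => edgeNoise γ ρ j k e.1 U) = fun U =>
        (γ j k (ρ (U (ea e.1)) ((ea e.1)⁻¹ * eb e.1)) + γ j k (ρ (U (eb e.1)) ((eb e.1)⁻¹ * ea e.1))) / Real.sqrt 2 := by
      funext U; exact hform j k e.1 U
    rw [this]
    have h1 := hζm j (k, (ea e.1, (ea e.1)⁻¹ * eb e.1))
    have h2 := hζm j (k, (eb e.1, (eb e.1)⁻¹ * ea e.1))
    exact (h1.add h2).div_const _
  · simp only [hform]
    rw [hγr j k, hγr j k]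
    ring
  · have := (key2 j).1
    refine this.congr fun i => Eventually.of_forall fun U => ?_
    exact (hform j i.1 i.2.1 U).symm
  · have := (key2 j).2 (k, e)
    have e1 : (fun U => edgeNoise γ ρ j k e.1 U) = fun U =>
        (γ j k (ρ (U (ea e.1)) ((ea e.1)⁻¹ * eb e.1)) + γ j k (ρ (U (eb e.1)) ((eb e.1)⁻¹ * ea e.1))) / Real.sqrt 2 := by
      funext U; exact hform j k e.1 U
    change (uniformField Γ).map (fun U => edgeNoise γ ρ j k e.1 U) = _
    rw [e1]
    exact this

end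

end Vale.Agent.Lib.P143
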