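import Vale.Agent.Lib.P143.Subgraph

set_option linter.unusedSectionVars false
set_option linter.unusedVariables false
set_option linter.unusedSimpArgs false

/-!
The cycle projections of the subgraphs of an exhaustion converge entrywise, with a limit that does
not depend on the exhaustion.
-/

open Finset Matrix Filter Topology

namespace Vale.Agent.Lib.P143

noncomputable section

variable {V : Type*} {G : SimpleGraph V}

/-- A finite connected subgraph of `G`. -/
structure FS (G : SimpleGraph V) where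
  H : G.Subgraph
  fin : H.verts.Finite
  conn : H.Connected

namespace FS

variable (S S' : FS G)

instance : Fintype S.H.verts := S.fin.fintype
instance : Fintype S.H.edgeSet := (finite_edgeSet S.H S.fin).fintype
instance : DecidableEq S.H.verts := Classical.decEq _
instance : DecidableEq S.H.edgeSet := Classical.decEq _

/-- A root of `S`. -/
def root : S.H.verts := ⟨S.conn.nonempty.some, S.conn.nonempty.some_mem⟩

lemma hex : ∃ T', IsSpanTree (uH S.H) (vH S.H) T' := exists_isSpanTree S.H S.conn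

open Classical in
/-- The cycle projection of `S`, on the ambient edges. -/
def x (a b : Sym2 V) : ℝ :=
  if h : a ∈ S.H.edgeSet ∧ b ∈ S.H.edgeSet then
    xf (uH S.H) (vH S.H) S.root ⟨a, h.1⟩ ⟨b, h.2⟩ else 0

lemma x_eq {a b : Sym2 V} (ha : a ∈ S.H.edgeSet) (hb : b ∈ S.H.edgeSet) :
    S.x a b = xf (uH S.H) (vH S.H) S.root ⟨a, ha⟩ ⟨b, hb⟩ := by
  unfold x
  rw [dif_pos ⟨ha, hb⟩]

variable {S S'}

/-- The comparison maps for `S ≤ S'`. -/
lemma x_compare (hle : S.H ≤ S'.H) {a b : Sym2 V} (ha : a ∈ S.H.edgeSet) (hb : b ∈ S.H.edgeSet) :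
    (S'.x a b - S.x a b) ^ 2 ≤ S'.x a a - S.x a a := by
  have hmono : S.H.edgeSet ⊆ S'.H.edgeSet := SimpleGraph.Subgraph.edgeSet_mono hle
  let ι : S.H.verts → S'.H.verts := fun w => ⟨w.1, hle.1 w.2⟩
  let j : S.H.edgeSet → S'.H.edgeSet := fun f => ⟨f.1, hmono f.2⟩
  have hj : Function.Injective j := fun f f' h => Subtype.ext (congrArg (fun g => g.1) h)
  have := xf_sub_sq_le (r := S.root) (r₂ := S'.root) ι j hj (fun f => rfl) (fun f => rfl)
    S.hex S'.hex ⟨a, ha⟩ ⟨b, hb⟩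
  rw [S.x_eq ha hb, S.x_eq ha ha, S'.x_eq (hmono ha) (hmono hb), S'.x_eq (hmono ha) (hmono ha)]
  exact this

lemma x_self_mono (hle : S.H ≤ S'.H) {a : Sym2 V} (ha : a ∈ S.H.edgeSet) : S.x a a ≤ S'.x a a := by
  have := x_compare hle ha ha
  nlinarith [sq_nonneg (S'.x a a - S.x a a)]

variable (S)

/-- The diagonal entries lie in `[0,1]`. -/
lemma x_self_mem {a : Sym2 V} (ha : a ∈ S.H.edgeSet) : 0 ≤ S.x a a ∧ S.x a a ≤ 1 := by
  rw [S.x_eq ha ha]
  have h := sum_xf_sq (r := S.root) S.hex (⟨a, ha⟩ : S.H.edgeSet)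
  have h1 : 0 ≤ xf (uH S.H) (vH S.H) S.root ⟨a, ha⟩ ⟨a, ha⟩ := by
    rw [← h]; exact Finset.sum_nonneg fun _ _ => sq_nonneg _
  have h2 : xf (uH S.H) (vH S.H) S.root ⟨a, ha⟩ ⟨a, ha⟩ ^ 2 ≤
      xf (uH S.H) (vH S.H) S.root ⟨a, ha⟩ ⟨a, ha⟩ := by
    conv_rhs => rw [← h]
    exact Finset.single_le_sum (f := fun f => xf (uH S.H) (vH S.H) S.root ⟨a, ha⟩ f ^ 2)
      (fun _ _ => sq_nonneg _) (Finset.mem_univ _)
  exact ⟨h1, by nlinarith⟩

end FS

/-- The finite connected subgraphs of an exhaustion. -/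
def IsExhaustion.fs {H : ℕ → G.Subgraph} (hH : IsExhaustion G H) (n : ℕ) : FS G :=
  ⟨H n, hH.finite n, hH.connected n⟩

section exhaustion

variable {H : ℕ → G.Subgraph} (hH : IsExhaustion G H)
include hH

lemma IsExhaustion.edge_eventually {a : Sym2 V} (ha : a ∈ G.edgeSet) :
    ∃ n₀, ∀ n ≥ n₀, a ∈ (H n).edgeSet := by
  induction a using Sym2.ind with
  | _ x y =>
    obtain ⟨n₀, hn₀⟩ := hH.adj x y ha
    exact ⟨n₀, fun n hn => (hH.mono hn).2 hn₀⟩

/-- A finite connected subgraph lies in some member of the exhaustion. -/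
lemma IsExhaustion.exists_le (S : FS G) : ∃ n, S.H ≤ H n := by
  classical
  have h1 : ∀ v : S.H.verts, ∃ n, v.1 ∈ (H n).verts := fun v => hH.verts v.1
  have h2 : ∀ e : S.H.edgeSet, ∃ n, e.1 ∈ (H n).edgeSet := fun e =>
    hH.edge_eventually (SimpleGraph.Subgraph.edgeSet_subset _ e.2) |>.imp fun n hn => hn n le_rfl
  choose n1 hn1 using h1
  choose n2 hn2 using h2
  refine ⟨(Finset.univ.sup n1) + (Finset.univ.sup n2), ?_⟩
  constructor
  · intro v hv
    have : n1 ⟨v, hv⟩ ≤ (Finset.univ.sup n1) + (Finset.univ.sup n2) :=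
      (Finset.le_sup (f := n1) (Finset.mem_univ _)).trans (Nat.le_add_right _ _)
    exact (hH.mono this).1 (hn1 ⟨v, hv⟩)
  · intro a b hab
    have hab' : s(a, b) ∈ S.H.edgeSet := hab
    have : n2 ⟨s(a, b), hab'⟩ ≤ (Finset.univ.sup n1) + (Finset.univ.sup n2) :=
      (Finset.le_sup (f := n2) (Finset.mem_univ _)).trans (Nat.le_add_left _ _)
    exact (hH.mono this).2 (hn2 ⟨s(a, b), hab'⟩)

/-- The diagonal converges. -/
lemma IsExhaustion.exists_diag {a : Sym2 V} (ha : a ∈ G.edgeSet) :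
    ∃ p : ℝ, Tendsto (fun n => (hH.fs n).x a a) atTop (𝓝 p) ∧
      ∀ n, a ∈ (H n).edgeSet → (hH.fs n).x a a ≤ p := by
  obtain ⟨n₀, hn₀⟩ := hH.edge_eventually ha
  have hmono : Monotone (fun k => (hH.fs (k + n₀)).x a a) := by
    refine monotone_nat_of_le_succ fun k => ?_
    exact FS.x_self_mono (hH.mono (by omega)) (hn₀ _ (by omega))
  have hbdd : BddAbove (Set.range fun k => (hH.fs (k + n₀)).x a a) :=
    ⟨1, by rintro _ ⟨k, rfl⟩; exact ((hH.fs (k + n₀)).x_self_mem (hn₀ _ (by omega))).2⟩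
  have hlim := tendsto_atTop_ciSup hmono hbdd
  refine ⟨_, (tendsto_add_atTop_iff_nat n₀).1 hlim, fun n hn => ?_⟩
  refine le_trans ?_ (le_ciSup hbdd n)
  exact FS.x_self_mono (hH.mono (by omega)) hn

/-- The entries converge. -/
lemma IsExhaustion.exists_entry {a b : Sym2 V} (ha : a ∈ G.edgeSet) (hb : b ∈ G.edgeSet) :
    ∃ L : ℝ, Tendsto (fun n => (hH.fs n).x a b) atTop (𝓝 L) := by
  obtain ⟨p, hp, hple⟩ := hH.exists_diag ha
  obtain ⟨n₁, hn₁⟩ := hH.edge_eventually ha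
  obtain ⟨n₂, hn₂⟩ := hH.edge_eventually hb
  have hab : ∀ n ≥ max n₁ n₂, a ∈ (H n).edgeSet ∧ b ∈ (H n).edgeSet := fun n hn =>
    ⟨hn₁ n (le_trans (le_max_left _ _) hn), hn₂ n (le_trans (le_max_right _ _) hn)⟩
  have hc : CauchySeq (fun n => (hH.fs n).x a b) := by
    rw [Metric.cauchySeq_iff']
    intro ε hε
    have h1 : ∀ᶠ n in atTop, p - (hH.fs n).x a a < (ε / 2) ^ 2 := by
      have : Tendsto (fun n => p - (hH.fs n).x a a) atTop (𝓝 (p - p)) := tendsto_const_nhds.sub hp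
      rw [sub_self] at this
      exact this.eventually (gt_mem_nhds (by positivity))
    obtain ⟨N, hN⟩ := (h1.and (eventually_ge_atTop (max n₁ n₂))).exists
    refine ⟨N, fun n hn => ?_⟩
    have hsq := FS.x_compare (S := hH.fs N) (S' := hH.fs n) (hH.mono hn) (hab N hN.2).1 (hab N hN.2).2
    have h2 := hple n (hab n (le_trans hN.2 hn)).1
    have h3 : ((hH.fs n).x a b - (hH.fs N).x a b) ^ 2 < (ε / 2) ^ 2 := by linarith [hN.1]
    rw [Real.dist_eq]
    have := abs_lt_of_sq_lt_sq h3 (by positivity)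
    linarith
  obtain ⟨L, hL⟩ := cauchySeq_tendsto_of_complete hc
  exact ⟨L, hL⟩

/-- Comparison of a limit with any finite connected subgraph. -/
lemma IsExhaustion.limit_compare {a b : Sym2 V} {p L : ℝ} (ha : a ∈ G.edgeSet)
    (hp : Tendsto (fun n => (hH.fs n).x a a) atTop (𝓝 p))
    (hple : ∀ n, a ∈ (H n).edgeSet → (hH.fs n).x a a ≤ p)
    (hL : Tendsto (fun n => (hH.fs n).x a b) atTop (𝓝 L))
    (S : FS G) (haS : a ∈ S.H.edgeSet) (hbS : b ∈ S.H.edgeSet) :
    (L - S.x a b) ^ 2 ≤ p - S.x a a := by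
  obtain ⟨n₀, hn₀⟩ := hH.exists_le S
  have h1 : Tendsto (fun n => ((hH.fs n).x a b - S.x a b) ^ 2) atTop (𝓝 ((L - S.x a b) ^ 2)) :=
    (hL.sub tendsto_const_nhds).pow 2
  refine le_of_tendsto h1 ?_
  filter_upwards [eventually_ge_atTop n₀] with n hn
  have hle : S.H ≤ (hH.fs n).H := hn₀.trans (hH.mono hn)
  have := FS.x_compare (S := S) (S' := hH.fs n) hle haS hbS
  have h2 := hple n (SimpleGraph.Subgraph.edgeSet_mono hle haS)
  linarith

end exhaustion

/-- The limit of the entries does not depend on the exhaustion. -/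
theorem exhaustion_limit_unique {H H' : ℕ → G.Subgraph} (hH : IsExhaustion G H)
    (hH' : IsExhaustion G H') {a b : Sym2 V} (ha : a ∈ G.edgeSet) (hb : b ∈ G.edgeSet) {L L' : ℝ}
    (hL : Tendsto (fun n => (hH.fs n).x a b) atTop (𝓝 L))
    (hL' : Tendsto (fun n => (hH'.fs n).x a b) atTop (𝓝 L')) : L = L' := by
  obtain ⟨p, hp, hple⟩ := hH.exists_diag ha
  obtain ⟨p', hp', hple'⟩ := hH'.exists_diag ha
  obtain ⟨n₁, hn₁⟩ := hH.edge_eventually ha
  obtain ⟨n₂, hn₂⟩ := hH.edge_eventually hb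
  obtain ⟨n₃, hn₃⟩ := hH'.edge_eventually ha
  have hpp : p ≤ p' := by
    refine le_of_tendsto' ((tendsto_add_atTop_iff_nat n₁).2 hp) fun n => ?_
    obtain ⟨m, hm⟩ := hH'.exists_le (hH.fs (n + n₁))
    exact (FS.x_self_mono hm (hn₁ _ (by omega))).trans
      (hple' m (SimpleGraph.Subgraph.edgeSet_mono hm (hn₁ _ (by omega))))
  have hpp' : p' ≤ p := by
    refine le_of_tendsto' ((tendsto_add_atTop_iff_nat n₃).2 hp') fun n => ?_
    obtain ⟨m, hm⟩ := hH.exists_le (hH'.fs (n + n₃))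
    exact (FS.x_self_mono hm (hn₃ _ (by omega))).trans
      (hple m (SimpleGraph.Subgraph.edgeSet_mono hm (hn₃ _ (by omega))))
  have heq : p = p' := le_antisymm hpp hpp'
  subst heq
  -- compare the limit `L'` with the subgraphs of `H`
  have h1 : ∀ᶠ n in atTop, (L' - (hH.fs n).x a b) ^ 2 ≤ p - (hH.fs n).x a a := by
    filter_upwards [eventually_ge_atTop (max n₁ n₂)] with n hn
    exact hH'.limit_compare ha hp' hple' hL' (hH.fs n) (hn₁ n (le_trans (le_max_left _ _) hn))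
      (hn₂ n (le_trans (le_max_right _ _) hn))
  have h2 : Tendsto (fun n => (L' - (hH.fs n).x a b) ^ 2) atTop (𝓝 ((L' - L) ^ 2)) :=
    (tendsto_const_nhds.sub hL).pow 2
  have h3 : Tendsto (fun n => p - (hH.fs n).x a a) atTop (𝓝 (p - p)) := tendsto_const_nhds.sub hp
  have h4 := le_of_tendsto_of_tendsto h2 h3 h1
  rw [sub_self] at h4
  have h5 : (L' - L) ^ 2 = 0 := le_antisymm h4 (sq_nonneg _)
  have := pow_eq_zero_iff (two_ne_zero) |>.1 h5
  linarith

end

end Vale.Agent.Lib.P143
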