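import Vale.Agent.Lib.P143.DetTools

set_option linter.unusedSectionVars false
set_option linter.unusedVariables false
set_option linter.unusedSimpArgs false

/-!
Unit conductances on a finite multigraph: current flows, the cycle projection, the determinantal
formula for avoidance probabilities and the monotone comparison under inclusion of graphs.
-/

open Finset Matrix

namespace Vale.Agent.Lib.P143

noncomputable section

variable {V F : Type*} [Fintype V] [DecidableEq V] [Fintype F] [DecidableEq F]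

/-- Reduced Laplacian with unit conductances. -/
def lap1 (u v : F → V) (r : V) : Matrix {x // x ≠ r} {x // x ≠ r} ℝ :=
  lap (incR u v r) (fun _ => 1) Finset.univ

/-- The potential of the unit current through `a`, on non-root vertices. -/
def zvec (u v : F → V) (r : V) (a : F) : {x // x ≠ r} → ℝ :=
  (lap1 u v r)⁻¹ *ᵥ incR u v r a

/-- The potential of the unit current through `a`, vanishing at the root. -/
def potR (u v : F → V) (r : V) (a : F) (w : V) : ℝ :=
  if h : w ≠ r then zvec u v r a ⟨w, h⟩ else 0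

/-- The transfer current `K(a, f)`. -/
def Kf (u v : F → V) (r : V) (a f : F) : ℝ := incR u v r f ⬝ᵥ zvec u v r a

/-- The projection `x_a = δ_a - K(a, ·)` onto the cycle space of `δ_a`. -/
def xf (u v : F → V) (r : V) (a f : F) : ℝ := (if f = a then 1 else 0) - Kf u v r a f

lemma sum_incZ_mul (u v : F → V) (f : F) (ψ : V → ℝ) :
    ∑ w, ψ w * ((incZ u v f w : ℤ) : ℝ) = ψ (u f) - ψ (v f) := by
  simp only [incZ, Int.cast_sub, Int.cast_ite, Int.cast_one, Int.cast_zero, mul_sub]
  rw [Finset.sum_sub_distrib]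
  simp

/-- Sums over non-root vertices: extension by zero at the root. -/
lemma sum_subtype_ne (r : V) (g : V → ℝ) (hg : g r = 0) :
    ∑ w : {x // x ≠ r}, g w = ∑ w, g w := by
  have : ∑ w, g w = ∑ w ∈ Finset.univ.filter (fun a => a ≠ r), g w := by
    rw [Finset.sum_filter]
    refine Finset.sum_congr rfl fun a _ => ?_
    by_cases h : a = r
    · subst h; simp [hg]
    · simp [h]
  rw [this, ← Finset.sum_subtype_eq_sum_filter]
  simp [Finset.sum_subtype]

lemma Kf_eq_pot (u v : F → V) (r : V) (a f : F) :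
    Kf u v r a f = potR u v r a (u f) - potR u v r a (v f) := by
  unfold Kf
  rw [← sum_incZ_mul u v f (potR u v r a)]
  rw [← sum_subtype_ne r (fun w => potR u v r a w * ((incZ u v f w : ℤ) : ℝ)) (by simp [potR])]
  simp only [dotProduct, incR, potR]
  refine Finset.sum_congr rfl fun w _ => ?_
  rw [dif_pos w.2, mul_comm]

/-- Total incidence of an edge vanishes. -/
lemma sum_incZ (u v : F → V) (f : F) : ∑ w, ((incZ u v f w : ℤ) : ℝ) = 0 := by
  have := sum_incZ_mul u v f (fun _ => 1)
  simpa using this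

section unit

variable {u v : F → V} {r : V} (hex : ∃ T, IsSpanTree u v T)
include hex

lemma isUnit_det_lap1 : IsUnit (lap1 u v r).det := by
  unfold lap1
  rw [matrix_tree u v r]
  exact isUnit_iff_ne_zero.2 (treeSum_pos u v hex (fun _ => one_pos)).ne'

lemma lap1_mulVec_zvec (a : F) : lap1 u v r *ᵥ zvec u v r a = incR u v r a := by
  unfold zvec
  rw [Matrix.mulVec_mulVec, Matrix.mul_nonsing_inv _ (isUnit_det_lap1 hex), Matrix.one_mulVec]

/-- `x_a` is a cycle flow: its divergence vanishes at non-root vertices. -/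
lemma sum_xf_incR (a : F) (w : {x // x ≠ r}) :
    ∑ f, xf u v r a f * incR u v r f w = 0 := by
  have h := congrFun (lap1_mulVec_zvec (u := u) (v := v) (r := r) hex a) w
  have h2 : (lap1 u v r *ᵥ zvec u v r a) w = ∑ f, Kf u v r a f * incR u v r f w := by
    simp only [lap1, Matrix.mulVec, dotProduct, lap_apply, Kf]
    calc ∑ y, (∑ e, 1 * (incR u v r e w * incR u v r e y)) * zvec u v r a y
        = ∑ y, ∑ e, incR u v r e w * (incR u v r e y * zvec u v r a y) := by
          refine Finset.sum_congr rfl fun y _ => ?_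
          rw [Finset.sum_mul]
          refine Finset.sum_congr rfl fun e _ => by ring
      _ = ∑ e, ∑ y, incR u v r e w * (incR u v r e y * zvec u v r a y) := Finset.sum_comm
      _ = _ := by
          refine Finset.sum_congr rfl fun e _ => ?_
          rw [← Finset.mul_sum, mul_comm]
  simp only [xf, sub_mul, Finset.sum_sub_distrib, ite_mul, one_mul, zero_mul]
  rw [Finset.sum_ite_eq' Finset.univ a]
  simp only [Finset.mem_univ, if_true]
  rw [← h2, h]
  ring

/-- `x_a` is a cycle flow, at all vertices. -/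
lemma sum_xf_incZ (a : F) (w : V) :
    ∑ f, xf u v r a f * ((incZ u v f w : ℤ) : ℝ) = 0 := by
  by_cases hw : w = r
  · subst hw
    -- the row of the root is minus the sum of the others
    have h1 : ∀ f, ((incZ u v f w : ℤ) : ℝ) = - ∑ y : {x // x ≠ w}, incR u v w f y := by
      intro f
      have := sum_incZ u v f
      rw [← Finset.add_sum_erase _ _ (Finset.mem_univ w)] at this
      have h2 : ∑ y : {x // x ≠ w}, incR u v w f y
          = ∑ y ∈ Finset.univ.erase w, ((incZ u v f y : ℤ) : ℝ) := by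
        rw [← Finset.filter_ne' ]
        rw [← Finset.sum_subtype_eq_sum_filter]
        simp [incR, Finset.sum_subtype]
      rw [h2]; linarith
    simp only [h1, mul_neg, Finset.sum_neg_distrib, Finset.mul_sum]
    rw [Finset.sum_comm]
    simp [sum_xf_incR hex a]
  · exact sum_xf_incR hex a ⟨w, hw⟩

/-- Cycle flows are orthogonal to gradients. -/
lemma sum_xf_grad (a : F) (ψ : V → ℝ) :
    ∑ f, xf u v r a f * (ψ (u f) - ψ (v f)) = 0 := by
  simp only [← sum_incZ_mul u v _ ψ, Finset.mul_sum]
  rw [Finset.sum_comm]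
  refine Finset.sum_eq_zero fun w _ => ?_
  have := sum_xf_incZ (r := r) hex a w
  calc ∑ f, xf u v r a f * (ψ w * ((incZ u v f w : ℤ) : ℝ))
      = ψ w * ∑ f, xf u v r a f * ((incZ u v f w : ℤ) : ℝ) := by
        rw [Finset.mul_sum]; refine Finset.sum_congr rfl fun f _ => by ring
    _ = 0 := by rw [this, mul_zero]

/-- The norm of `x_a`. -/
lemma sum_xf_sq (a : F) : ∑ f, xf u v r a f ^ 2 = xf u v r a a := by
  have h := sum_xf_grad (r := r) hex a (potR u v r a)
  simp only [← Kf_eq_pot] at h
  calc ∑ f, xf u v r a f ^ 2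
      = ∑ f, (xf u v r a f * (if f = a then 1 else 0) - xf u v r a f * Kf u v r a f) := by
        refine Finset.sum_congr rfl fun f _ => ?_
        conv_lhs => rw [pow_two]
        nth_rewrite 2 [xf]
        ring
    _ = xf u v r a a := by
        rw [Finset.sum_sub_distrib, h, sub_zero]
        simp

/-- Symmetry of the inverse Laplacian. -/
lemma Kf_symm (a f : F) : Kf u v r a f = Kf u v r f a := by
  have hsym : (lap1 u v r)ᵀ = lap1 u v r := by
    ext x y
    simp only [lap1, Matrix.transpose_apply, lap_apply]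
    refine Finset.sum_congr rfl fun e _ => by ring
  have hinv : ((lap1 u v r)⁻¹)ᵀ = (lap1 u v r)⁻¹ := by
    rw [Matrix.transpose_nonsing_inv, hsym]
  unfold Kf zvec
  rw [Matrix.dotProduct_mulVec, dotProduct_comm, ← Matrix.mulVec_transpose, hinv]

end unit

/-- The determinantal formula for avoiding a set of edges, with unit conductances. -/
theorem avoid_det (u v : F → V) (r : V) (hex : ∃ T, IsSpanTree u v T) (A : Finset F) :
    treeSum u v (fun _ => 1) (fun T => Disjoint T A) / treeSum u v (fun _ => 1) (fun _ => True) =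
      (Matrix.of fun a b : A => xf u v r (a : F) (b : F)).det := by
  classical
  set M := lap1 u v r with hM
  have hunit : IsUnit M.det := isUnit_det_lap1 hex
  have hdet : M.det = treeSum u v (fun _ => 1) (fun _ => True) := matrix_tree u v r _
  have hZ : M.det ≠ 0 := hunit.ne_zero
  let U : Matrix {x // x ≠ r} A ℝ := Matrix.of fun x a => incR u v r (a : F) x
  have hupd : lap (incR u v r) (fun f => if f ∈ A then (0 : ℝ) else 1) Finset.univ = M - U * Uᵀ := by
    ext x y
    rw [Matrix.sub_apply, Matrix.mul_apply, hM, lap1, lap_apply, lap_apply]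
    simp only [U, Matrix.of_apply, Matrix.transpose_apply]
    have h1 : ∑ a : A, incR u v r (a : F) x * incR u v r (a : F) y
        = ∑ e, if e ∈ A then incR u v r e x * incR u v r e y else 0 := by
      rw [Finset.sum_ite_mem, Finset.univ_inter]
      exact Finset.sum_coe_sort A (fun e => incR u v r e x * incR u v r e y)
    rw [h1, ← Finset.sum_sub_distrib]
    refine Finset.sum_congr rfl fun e _ => ?_
    split_ifs <;> ring
  have hav : treeSum u v (fun _ => 1) (fun T => Disjoint T A)
      = M.det * (1 - Uᵀ * (M⁻¹ * U)).det := by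
    rw [treeSum_avoid, ← matrix_tree u v r, hupd, det_sub_mul_transpose M hunit]
  rw [hav, ← hdet, mul_div_cancel_left₀ _ hZ, ← Matrix.det_transpose]
  congr 1
  ext a b
  simp only [Matrix.transpose_apply, Matrix.of_apply, Matrix.sub_apply, Matrix.one_apply, xf, Kf, zvec]
  congr 1
  by_cases h : b = a
  · subst h; simp
  · have h' : (b : F) ≠ (a : F) := fun h2 => h (Subtype.ext h2)
    simp [h, h']

/-! ### Comparison under inclusion -/

section compare

variable {V₂ F₂ : Type*} [Fintype V₂] [DecidableEq V₂] [Fintype F₂] [DecidableEq F₂]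
variable {u v : F → V} {u₂ v₂ : F₂ → V₂} {r : V} {r₂ : V₂} (ι : V → V₂) (j : F → F₂)
  (hj : Function.Injective j) (hu : ∀ f, u₂ (j f) = ι (u f)) (hv : ∀ f, v₂ (j f) = ι (v f))
  (hex : ∃ T, IsSpanTree u v T) (hex₂ : ∃ T, IsSpanTree u₂ v₂ T)
include hj hu hv hex hex₂

/-- The key identity under inclusion of graphs. -/
theorem sum_sq_compare (a : F) :
    (∑ f₂, (xf u₂ v₂ r₂ (j a) f₂ - ∑ f, (if j f = f₂ then xf u v r a f else 0)) ^ 2)
      = xf u₂ v₂ r₂ (j a) (j a) - xf u v r a a := by
  -- the zero extension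
  set y : F₂ → ℝ := fun f₂ => ∑ f, (if j f = f₂ then xf u v r a f else 0) with hy
  have hyj : ∀ f, y (j f) = xf u v r a f := by
    intro f
    simp only [hy, hj.eq_iff]
    simp
  have hsum : ∀ g : F₂ → ℝ, ∑ f₂, y f₂ * g f₂ = ∑ f, xf u v r a f * g (j f) := by
    intro g
    simp only [hy, Finset.sum_mul]
    rw [Finset.sum_comm]
    refine Finset.sum_congr rfl fun f _ => ?_
    simp
  -- `y` is orthogonal to gradients on the big graph
  have hgrad : ∀ ψ : V₂ → ℝ, ∑ f₂, y f₂ * (ψ (u₂ f₂) - ψ (v₂ f₂)) = 0 := by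
    intro ψ
    rw [hsum]
    simp only [hu, hv]
    exact sum_xf_grad (r := r) hex a (fun w => ψ (ι w))
  have h1 : ∑ f₂, y f₂ ^ 2 = xf u v r a a := by
    have : ∑ f₂, y f₂ ^ 2 = ∑ f₂, y f₂ * y f₂ := by
      refine Finset.sum_congr rfl fun f₂ _ => by ring
    rw [this, hsum]
    simp only [hyj]
    rw [← sum_xf_sq (r := r) hex a]
    refine Finset.sum_congr rfl fun f _ => by ring
  have h2 : ∑ f₂, y f₂ * xf u₂ v₂ r₂ (j a) f₂ = xf u v r a a := by
    have hg := hgrad (potR u₂ v₂ r₂ (j a))
    simp only [← Kf_eq_pot] at hg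
    calc ∑ f₂, y f₂ * xf u₂ v₂ r₂ (j a) f₂
        = ∑ f₂, (y f₂ * (if f₂ = j a then 1 else 0) - y f₂ * Kf u₂ v₂ r₂ (j a) f₂) := by
          refine Finset.sum_congr rfl fun f₂ _ => ?_
          rw [xf]; ring
      _ = xf u v r a a := by
          rw [Finset.sum_sub_distrib, hg, sub_zero]
          simp [hyj]
  have h3 := sum_xf_sq (r := r₂) hex₂ (j a)
  calc ∑ f₂, (xf u₂ v₂ r₂ (j a) f₂ - y f₂) ^ 2
      = ∑ f₂, xf u₂ v₂ r₂ (j a) f₂ ^ 2 - 2 * ∑ f₂, y f₂ * xf u₂ v₂ r₂ (j a) f₂ + ∑ f₂, y f₂ ^ 2 := by
        rw [Finset.mul_sum, ← Finset.sum_sub_distrib, ← Finset.sum_add_distrib]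
        refine Finset.sum_congr rfl fun f₂ _ => by ring
    _ = _ := by rw [h3, h1, h2]; ring

/-- Monotonicity of `x_a(a)`. -/
theorem xf_self_le (a : F) : xf u v r a a ≤ xf u₂ v₂ r₂ (j a) (j a) := by
  have h := sum_sq_compare (r := r) (r₂ := r₂) ι j hj hu hv hex hex₂ a
  have h0 : 0 ≤ ∑ f₂, (xf u₂ v₂ r₂ (j a) f₂ - ∑ f, (if j f = f₂ then xf u v r a f else 0)) ^ 2 :=
    Finset.sum_nonneg fun _ _ => sq_nonneg _
  linarith

/-- Entrywise comparison. -/
theorem xf_sub_sq_le (a b : F) :
    (xf u₂ v₂ r₂ (j a) (j b) - xf u v r a b) ^ 2 ≤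
      xf u₂ v₂ r₂ (j a) (j a) - xf u v r a a := by
  have h := sum_sq_compare (r := r) (r₂ := r₂) ι j hj hu hv hex hex₂ a
  rw [← h]
  have hy : ∑ f, (if j f = j b then xf u v r a f else 0) = xf u v r a b := by
    simp only [hj.eq_iff]; simp
  have := Finset.single_le_sum (f := fun f₂ =>
    (xf u₂ v₂ r₂ (j a) f₂ - ∑ f, (if j f = f₂ then xf u v r a f else 0)) ^ 2)
    (fun _ _ => sq_nonneg _) (Finset.mem_univ (j b))
  simpa only [hy] using this

end compare

end

end Vale.Agent.Lib.P143
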