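import Vale.Agent.Lib.P143.Law

set_option linter.unusedSectionVars false
set_option linter.unusedVariables false
set_option linter.unusedSimpArgs false

/-!
Existence of the free uniform spanning forest: the laws of the uniform spanning trees along any
exhaustion converge to one limit, whose tilted means are Lipschitz in the sup norm, and which is
invariant under the automorphisms of the graph.
-/

open Finset MeasureTheory Filter Topology Matrix
open scoped ENNReal

namespace Vale.Agent.Lib.P143

noncomputable section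

variable {V : Type*} {G : SimpleGraph V}

section clopen

lemma isClopen_avoidSet (A : Finset G.edgeSet) : IsClopen (avoidSet A) := by
  have : avoidSet A = ⋂ a ∈ A, (fun σ : G.edgeSet → Bool => σ a) ⁻¹' {false} := by
    ext σ; simp [avoidSet]
  rw [this]
  refine isClopen_biInter_finset fun a _ => ?_
  exact (isClopen_discrete _).preimage (continuous_apply a)

variable [Countable V]

/-- The probability of a clopen set is continuous for weak convergence. -/
lemma continuous_real_of_clopen {C : Set (G.edgeSet → Bool)} (hC : IsClopen C) :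
    Continuous fun ν : ProbabilityMeasure (G.edgeSet → Bool) => ((ν : Measure _) C).toReal := by
  classical
  have hcont : Continuous (C.indicator (fun _ => (1 : ℝ))) :=
    hC.continuous_indicator continuous_const
  let f : BoundedContinuousFunction (G.edgeSet → Bool) ℝ :=
    BoundedContinuousFunction.mkOfCompact ⟨_, hcont⟩
  have h := ProbabilityMeasure.continuous_integral_boundedContinuousFunction (X := G.edgeSet → Bool) f
  convert h using 2 with ν
  have : ∀ σ, f σ = C.indicator (fun _ => (1 : ℝ)) σ := fun _ => rfl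
  simp only [this]
  rw [integral_indicator hC.isOpen.measurableSet]
  simp [Measure.real]

/-- Two probability measures agreeing on avoidance events agree. -/
lemma measure_eq_of_avoid {μ ν : Measure (G.edgeSet → Bool)} [IsProbabilityMeasure μ]
    [IsProbabilityMeasure ν] (h : ∀ A, μ (avoidSet A) = ν (avoidSet A)) : μ = ν := by
  classical
  refine ext_of_generate_finite (Set.range (avoidSet (G := G))) ?_ ?_ ?_ (by simp)
  · apply le_antisymm
    · refine iSup_le fun e => ?_
      rw [← measurable_iff_comap_le]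
      refine @measurable_to_bool _ (MeasurableSpace.generateFrom _) _ ?_
      have h1 : (fun σ : G.edgeSet → Bool => σ e) ⁻¹' {true} = (avoidSet {e})ᶜ := by
        ext σ; simp [avoidSet]
      rw [h1]
      refine MeasurableSet.compl (MeasurableSpace.measurableSet_generateFrom ⟨_, rfl⟩)
    · refine MeasurableSpace.generateFrom_le ?_
      rintro _ ⟨A, rfl⟩
      exact measurableSet_avoidSet A
  · rintro _ ⟨A, rfl⟩ _ ⟨A', rfl⟩ _
    refine ⟨A ∪ A', ?_⟩
    ext σ
    simp only [avoidSet, Finset.mem_union, Set.mem_ofPred_eq, Set.mem_inter_iff]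
    constructor
    · intro h; exact ⟨fun a ha => h a (Or.inl ha), fun a ha => h a (Or.inr ha)⟩
    · rintro ⟨h1, h2⟩ a (ha | ha)
      · exact h1 a ha
      · exact h2 a ha
  · rintro _ ⟨A, rfl⟩
    exact h A

end clopen

variable [Countable V]

/-- The law of `S` as an element of the space of probability measures. -/
def FS.lawP (S : FS G) : ProbabilityMeasure (G.edgeSet → Bool) := ⟨S.law, inferInstance⟩

/-- The limit of the entries of the cycle projections. -/
theorem exists_L {H₀ : ℕ → G.Subgraph} (hH₀ : IsExhaustion G H₀) :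
    ∃ L : Sym2 V → Sym2 V → ℝ, ∀ {H : ℕ → G.Subgraph} (hH : IsExhaustion G H) {a b : Sym2 V},
      a ∈ G.edgeSet → b ∈ G.edgeSet → Tendsto (fun n => (hH.fs n).x a b) atTop (𝓝 (L a b)) := by
  classical
  have h0 : ∀ a b : Sym2 V, ∃ l : ℝ, a ∈ G.edgeSet → b ∈ G.edgeSet →
      Tendsto (fun n => (hH₀.fs n).x a b) atTop (𝓝 l) := by
    intro a b
    by_cases h : a ∈ G.edgeSet ∧ b ∈ G.edgeSet
    · obtain ⟨l, hl⟩ := hH₀.exists_entry h.1 h.2
      exact ⟨l, fun _ _ => hl⟩
    · exact ⟨0, fun h1 h2 => absurd ⟨h1, h2⟩ h⟩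
  choose L hL using h0
  refine ⟨L, fun {H} hH {a b} ha hb => ?_⟩
  obtain ⟨l, hl⟩ := hH.exists_entry ha hb
  rw [exhaustion_limit_unique hH₀ hH ha hb (hL a b ha hb) hl]
  exact hl

section limit

variable {L : Sym2 V → Sym2 V → ℝ}

open Classical in
/-- The limit of the avoidance probabilities. -/
def detL (L : Sym2 V → Sym2 V → ℝ) (A : Finset G.edgeSet) : ℝ :=
  (Matrix.of fun a b : A => L a.1.1 b.1.1).det

lemma tendsto_law_avoid (hL : ∀ {H : ℕ → G.Subgraph} (hH : IsExhaustion G H) {a b : Sym2 V},
      a ∈ G.edgeSet → b ∈ G.edgeSet → Tendsto (fun n => (hH.fs n).x a b) atTop (𝓝 (L a b)))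
    {H : ℕ → G.Subgraph} (hH : IsExhaustion G H) (A : Finset G.edgeSet) :
    Tendsto (fun n => ((hH.fs n).lawP : Measure (G.edgeSet → Bool)) (avoidSet A) |>.toReal) atTop
      (𝓝 (detL L A)) := by
  classical
  have hev : ∀ᶠ n in atTop, ∀ a ∈ A, a.1 ∈ (H n).edgeSet := by
    rw [Filter.eventually_all_finset]
    intro a _
    obtain ⟨n₀, hn₀⟩ := hH.edge_eventually a.2
    exact eventually_atTop.2 ⟨n₀, hn₀⟩
  have h1 : Tendsto (fun n => (Matrix.of fun a b : A => (hH.fs n).x a.1.1 b.1.1).det) atTop
      (𝓝 (detL L A)) := by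
    unfold detL
    refine (Continuous.matrix_det continuous_id).tendsto _ |>.comp ?_
    refine tendsto_pi_nhds.2 fun a => tendsto_pi_nhds.2 fun b => ?_
    exact hL hH a.1.2 b.1.2
  refine h1.congr' ?_
  filter_upwards [hev] with n hn
  exact ((hH.fs n).law_avoid A hn).symm

/-- Cluster points of the laws have the prescribed avoidance probabilities. -/
lemma cluster_avoid (hL : ∀ {H : ℕ → G.Subgraph} (hH : IsExhaustion G H) {a b : Sym2 V},
      a ∈ G.edgeSet → b ∈ G.edgeSet → Tendsto (fun n => (hH.fs n).x a b) atTop (𝓝 (L a b)))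
    {H : ℕ → G.Subgraph} (hH : IsExhaustion G H) {ν : ProbabilityMeasure (G.edgeSet → Bool)}
    (hν : ClusterPt ν (map (fun n => (hH.fs n).lawP) atTop)) (A : Finset G.edgeSet) :
    ((ν : Measure (G.edgeSet → Bool)) (avoidSet A)).toReal = detL L A := by
  have hcont := continuous_real_of_clopen (isClopen_avoidSet A)
  have h1 := hν.map hcont.continuousAt tendsto_map
  have h2 : map (fun ν : ProbabilityMeasure (G.edgeSet → Bool) => ((ν : Measure _) (avoidSet A)).toReal)
      (map (fun n => (hH.fs n).lawP) atTop) ≤ 𝓝 (detL L A) := by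
    rw [Filter.map_map]
    exact tendsto_law_avoid hL hH A
  have h3 : (𝓝 (((ν : Measure (G.edgeSet → Bool)) (avoidSet A)).toReal) ⊓ 𝓝 (detL L A)).NeBot :=
    h1.neBot.mono (inf_le_inf_left _ h2)
  exact eq_of_nhds_neBot h3

end limit

/-- The laws along every exhaustion converge to a single limit. -/
theorem exists_fusf {H₀ : ℕ → G.Subgraph} (hH₀ : IsExhaustion G H₀) :
    ∃ μ : ProbabilityMeasure (G.edgeSet → Bool), ∀ {H : ℕ → G.Subgraph} (hH : IsExhaustion G H),
      Tendsto (fun n => (hH.fs n).lawP) atTop (𝓝 μ) := by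
  classical
  obtain ⟨L, hL⟩ := exists_L hH₀
  obtain ⟨μ, hμ⟩ := exists_clusterPt_of_compactSpace (map (fun n => (hH₀.fs n).lawP) atTop)
  refine ⟨μ, fun {H} hH => ?_⟩
  refine le_nhds_of_unique_clusterPt fun ν hν => ?_
  have h1 := cluster_avoid hL hH hν
  have h2 := cluster_avoid hL hH₀ hμ
  apply ProbabilityMeasure.toMeasure_injective
  refine measure_eq_of_avoid fun A => ?_
  have h3 := (h1 A).trans (h2 A).symm
  exact (ENNReal.toReal_eq_toReal_iff' (measure_ne_top _ _) (measure_ne_top _ _)).1 h3

/-! ### Tilted means of the limit -/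

section tilt

variable {H : ℕ → G.Subgraph} (hH : IsExhaustion G H)
  {μ : ProbabilityMeasure (G.edgeSet → Bool)}

lemma continuous_tiltExp (B : Finset G.edgeSet) (x : G.edgeSet → ℝ) :
    Continuous (tiltExp B x) := by
  unfold tiltExp
  refine continuous_finsetSum _ fun f _ => continuous_const.mul ?_
  exact (continuous_of_discreteTopology (f := spin)).comp (continuous_apply f)

include hH in
/-- Tilted means pass to the limit. -/
lemma tendsto_tiltM (hμ : Tendsto (fun n => (hH.fs n).lawP) atTop (𝓝 μ)) (B : Finset G.edgeSet)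
    (e : G.edgeSet) (x : G.edgeSet → ℝ) :
    Tendsto (fun n => tiltM (hH.fs n).law B e x) atTop (𝓝 (tiltM (μ : Measure _) B e x)) := by
  have h := ProbabilityMeasure.tendsto_iff_forall_integral_tendsto.1 hμ
  have hD : Tendsto (fun n => tiltD (hH.fs n).law B x) atTop (𝓝 (tiltD (μ : Measure _) B x)) := by
    have hc : Continuous fun σ : G.edgeSet → Bool => Real.exp (tiltExp B x σ) :=
      Real.continuous_exp.comp (continuous_tiltExp B x)
    exact h (BoundedContinuousFunction.mkOfCompact ⟨_, hc⟩)
  have hN : Tendsto (fun n => tiltN (hH.fs n).law B e x) atTop (𝓝 (tiltN (μ : Measure _) B e x)) := by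
    have hc : Continuous fun σ : G.edgeSet → Bool => spin (σ e) * Real.exp (tiltExp B x σ) :=
      ((continuous_of_discreteTopology (f := spin)).comp (continuous_apply e)).mul
        (Real.continuous_exp.comp (continuous_tiltExp B x))
    exact h (BoundedContinuousFunction.mkOfCompact ⟨_, hc⟩)
  unfold tiltM
  exact hN.div hD (tiltD_pos _ B x).ne'

include hH in
/-- The limit has Lipschitz tilted means. -/
theorem supLip_of_tendsto (hμ : Tendsto (fun n => (hH.fs n).lawP) atTop (𝓝 μ)) :
    SupLip (μ : Measure (G.edgeSet → Bool)) 16 := by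
  classical
  intro B e x x' a ha hxx'
  have h1 := tendsto_tiltM hH hμ B e x
  have h2 := tendsto_tiltM hH hμ B e x'
  refine le_of_tendsto (h1.sub h2).abs ?_
  have hev : ∀ᶠ n in atTop, (∀ b ∈ B, b.1 ∈ (H n).edgeSet) ∧ e.1 ∈ (H n).edgeSet := by
    refine Filter.Eventually.and ?_ ?_
    · rw [Filter.eventually_all_finset]
      intro b _
      obtain ⟨n₀, hn₀⟩ := hH.edge_eventually b.2
      exact eventually_atTop.2 ⟨n₀, hn₀⟩
    · obtain ⟨n₀, hn₀⟩ := hH.edge_eventually e.2
      exact eventually_atTop.2 ⟨n₀, hn₀⟩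
  filter_upwards [hev] with n hn
  exact (hH.fs n).tilt_lip B hn.1 ⟨e.1, hn.2⟩ x x' ha hxx'

end tilt

/-! ### Cylinder events -/

open Classical in
/-- A configuration on the edges of `G`, as a function on all pairs. -/
def toBoolFun (σ : G.edgeSet → Bool) (e : Sym2 V) : Bool :=
  if h : e ∈ G.edgeSet then σ ⟨e, h⟩ else false

open Classical in
/-- The event `T ∩ F = P`, for a configuration `T`. -/
def evtSet (F P : Finset (Sym2 V)) : Set (G.edgeSet → Bool) :=
  {σ | F.filter (fun e => toBoolFun σ e = true) = P}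

lemma continuous_toBoolFun (e : Sym2 V) :
    Continuous fun σ : G.edgeSet → Bool => toBoolFun σ e := by
  classical
  unfold toBoolFun
  by_cases h : e ∈ G.edgeSet
  · simp only [h, dite_true]
    exact continuous_apply _
  · simp only [h, dite_false]
    exact continuous_const

lemma isClopen_evtSet (F P : Finset (Sym2 V)) : IsClopen (evtSet (G := G) F P) := by
  classical
  have hcont : Continuous fun σ : G.edgeSet → Bool => (fun e : F => toBoolFun σ e.1) :=
    continuous_pi fun e => continuous_toBoolFun e.1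
  let Y : Set (F → Bool) := {g | F.filter (fun e => ∃ h : e ∈ F, g ⟨e, h⟩ = true) = P}
  have : evtSet (G := G) F P = (fun σ : G.edgeSet → Bool => (fun e : F => toBoolFun σ e.1)) ⁻¹' Y := by
    ext σ
    simp only [evtSet, Y, Set.mem_ofPred_eq, Set.mem_preimage]
    have : ∀ e, (∃ h : e ∈ F, toBoolFun σ e = true) ↔ (e ∈ F ∧ toBoolFun σ e = true) := fun e =>
      ⟨fun ⟨h1, h2⟩ => ⟨h1, h2⟩, fun ⟨h1, h2⟩ => ⟨h1, h2⟩⟩
    have h2 : F.filter (fun e => ∃ h : e ∈ F, toBoolFun σ e = true) = F.filter (fun e => toBoolFun σ e = true) := by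
      ext e
      simp only [Finset.mem_filter]
      constructor
      · rintro ⟨h1, _, h2⟩; exact ⟨h1, h2⟩
      · rintro ⟨h1, h2⟩; exact ⟨h1, h1, h2⟩
    rw [h2]
  rw [this]
  exact (isClopen_discrete Y).preimage hcont

lemma toBoolFun_cfg (S : FS G) (T' : Finset S.H.edgeSet) (e : Sym2 V) :
    toBoolFun (S.cfg T') e = true ↔ e ∈ S.amb T' := by
  classical
  unfold toBoolFun
  by_cases h : e ∈ G.edgeSet
  · simp only [h, dite_true]
    exact S.cfg_eq_true
  · simp only [h, dite_false]
    constructor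
    · intro h2; exact absurd h2 (by simp)
    · intro h2
      exact absurd (SimpleGraph.Subgraph.edgeSet_subset _ (S.amb_sub T' (Finset.mem_coe.2 h2))) h

/-- The uniform spanning tree probabilities are probabilities of the law. -/
lemma ustProb_eq_law (S : FS G) (F P : Finset (Sym2 V)) :
    ustProb S.H F P = (S.law (evtSet F P)).toReal := by
  classical
  rw [S.ustProb_eq, S.law_real _ (isClopen_evtSet F P).isOpen.measurableSet]
  congr 2
  refine congrArg Finset.card (Finset.ext fun T' => ?_)
  rw [Finset.mem_filter, Finset.mem_filter]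
  refine and_congr_right fun _ => ?_
  simp only [evtSet, Set.mem_ofPred_eq]
  have : F.filter (fun e => toBoolFun (S.cfg T') e = true) = S.amb T' ∩ F := by
    ext e
    simp only [Finset.mem_filter, Finset.mem_inter]
    rw [toBoolFun_cfg]
    tauto
  rw [this]

/-- Convergence of the uniform spanning tree probabilities along an exhaustion. -/
theorem tendsto_ustProb {H : ℕ → G.Subgraph} (hH : IsExhaustion G H)
    {μ : ProbabilityMeasure (G.edgeSet → Bool)}
    (hμ : Tendsto (fun n => (hH.fs n).lawP) atTop (𝓝 μ)) (F P : Finset (Sym2 V)) :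
    Tendsto (fun n => ustProb (H n) F P) atTop (𝓝 ((μ : Measure (G.edgeSet → Bool)) (evtSet F P)).toReal) := by
  have h := (continuous_real_of_clopen (isClopen_evtSet (G := G) F P)).tendsto μ |>.comp hμ
  refine h.congr fun n => ?_
  exact (ustProb_eq_law (hH.fs n) F P).symm

/-! ### Invariance -/

section invariance

variable (τ : G ≃g G)

/-- The map induced by an automorphism on finite edge sets. -/
def symEmb : Sym2 V ↪ Sym2 V := ⟨Sym2.map τ, Sym2.map.injective τ.injective⟩

lemma symEmb_symm_apply (e : Sym2 V) : symEmb τ.symm (symEmb τ e) = e := by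
  induction e using Sym2.ind with
  | _ a b => simp [symEmb, Sym2.map_mk]

lemma symEmb_apply_symm (e : Sym2 V) : symEmb τ (symEmb τ.symm e) = e := by
  induction e using Sym2.ind with
  | _ a b => simp [symEmb, Sym2.map_mk]

/-- Spanning trees are transported by automorphisms. -/
lemma isSpanningTreeOf_map (H : G.Subgraph) (T : Finset (Sym2 V)) :
    IsSpanningTreeOf (H.map τ.toHom) (T.map (symEmb τ)) ↔ IsSpanningTreeOf H T := by
  classical
  unfold IsSpanningTreeOf
  have hsub : (↑(T.map (symEmb τ)) : Set (Sym2 V)) ⊆ (H.map τ.toHom).edgeSet ↔ (↑T : Set (Sym2 V)) ⊆ H.edgeSet := by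
    rw [SimpleGraph.Subgraph.edgeSet_map]
    constructor
    · intro h e he
      have h1 := h (Finset.mem_coe.2 (Finset.mem_map_of_mem (symEmb τ) he))
      obtain ⟨e', he', h2⟩ := h1
      have : e' = e := Sym2.map.injective τ.injective h2
      exact this ▸ he'
    · intro h e he
      obtain ⟨e', he', rfl⟩ := Finset.mem_map.1 (Finset.mem_coe.1 he)
      exact ⟨e', h he', rfl⟩
  have hiso : ((SimpleGraph.fromEdgeSet (↑T : Set (Sym2 V))).induce H.verts) ≃g
      ((SimpleGraph.fromEdgeSet (↑(T.map (symEmb τ)) : Set (Sym2 V))).induce (H.map τ.toHom).verts) := by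
    refine ⟨Equiv.Set.image τ H.verts τ.injective, ?_⟩
    intro a b
    change (SimpleGraph.fromEdgeSet (↑(T.map (symEmb τ)) : Set (Sym2 V))).Adj (τ a.1) (τ b.1) ↔
      (SimpleGraph.fromEdgeSet (↑T : Set (Sym2 V))).Adj a.1 b.1
    rw [SimpleGraph.fromEdgeSet_adj, SimpleGraph.fromEdgeSet_adj]
    constructor
    · rintro ⟨h1, h2⟩
      refine ⟨?_, fun h => h2 (congrArg _ h)⟩
      obtain ⟨e', he', h3⟩ := Finset.mem_map.1 (Finset.mem_coe.1 h1)
      have h4 : Sym2.map τ e' = Sym2.map τ s(a.1, b.1) := by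
        rw [Sym2.map_mk]; exact h3
      have := Sym2.map.injective τ.injective h4
      exact Finset.mem_coe.2 (this ▸ he')
    · rintro ⟨h1, h2⟩
      refine ⟨?_, fun h => h2 (τ.injective h)⟩
      refine Finset.mem_coe.2 (Finset.mem_map.2 ⟨_, Finset.mem_coe.1 h1, ?_⟩)
      simp [symEmb, Sym2.map_mk]
  rw [hsub, ← hiso.isTree_iff]

lemma ustProb_map (H : G.Subgraph) (F P : Finset (Sym2 V)) :
    ustProb (H.map τ.toHom) (F.map (symEmb τ)) (P.map (symEmb τ)) = ustProb H F P := by
  classical
  unfold ustProb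
  have key : ∀ Q Q' : Finset (Sym2 V) → Prop, (∀ T, Q' (T.map (symEmb τ)) ↔ Q T) →
      Set.ncard {T | IsSpanningTreeOf (H.map τ.toHom) T ∧ Q' T} =
        Set.ncard {T | IsSpanningTreeOf H T ∧ Q T} := by
    intro Q Q' hQ
    have himg : {T | IsSpanningTreeOf (H.map τ.toHom) T ∧ Q' T} =
        (fun T => T.map (symEmb τ)) '' {T | IsSpanningTreeOf H T ∧ Q T} := by
      ext T
      simp only [Set.mem_ofPred_eq, Set.mem_image]
      constructor
      · rintro ⟨h1, h2⟩
        have h3 : (T.map (symEmb τ.symm)).map (symEmb τ) = T := by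
          ext e
          simp only [Finset.mem_map]
          constructor
          · rintro ⟨_, ⟨e', he', rfl⟩, rfl⟩
            rwa [symEmb_apply_symm]
          · intro he
            exact ⟨_, ⟨e, he, rfl⟩, symEmb_apply_symm τ e⟩
        refine ⟨T.map (symEmb τ.symm), ⟨?_, ?_⟩, h3⟩
        · rw [← isSpanningTreeOf_map τ, h3]; exact h1
        · rw [← hQ, h3]; exact h2
      · rintro ⟨T', ⟨h1, h2⟩, rfl⟩
        exact ⟨(isSpanningTreeOf_map τ H T').2 h1, (hQ T').2 h2⟩
    rw [himg, Set.ncard_image_of_injective _ (Finset.map_injective _)]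
  rw [key (fun T => T ∩ F = P) (fun T => T ∩ F.map (symEmb τ) = P.map (symEmb τ))]
  · have := key (fun _ => True) (fun _ => True) (fun _ => Iff.rfl)
    simp only [and_true] at this
    rw [this]
  · intro T
    rw [← Finset.map_inter, Finset.map_inj]

/-- Automorphisms transport exhaustions. -/
lemma IsExhaustion.map {H : ℕ → G.Subgraph} (hH : IsExhaustion G H) :
    IsExhaustion G (fun n => (H n).map τ.toHom) where
  finite n := (hH.finite n).image _
  connected n := by
    have hc := hH.connected n
    refine ⟨(SimpleGraph.connected_iff _).2 ⟨?_, ?_⟩⟩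
    · rintro ⟨_, a, ha, rfl⟩ ⟨_, b, hb, rfl⟩
      have h1 := hc.coe.preconnected ⟨a, ha⟩ ⟨b, hb⟩
      let g : (H n).coe →g ((H n).map τ.toHom).coe :=
        ⟨fun w => ⟨τ w.1, w.1, w.2, rfl⟩, fun {w w'} hw => ⟨w.1, w'.1, hw, rfl, rfl⟩⟩
      exact h1.map g
    · obtain ⟨a, ha⟩ := hc.nonempty
      exact ⟨⟨τ a, a, ha, rfl⟩⟩
  mono := fun n m hnm => SimpleGraph.Subgraph.map_monotone (hH.mono hnm)
  verts v := by
    obtain ⟨n, hn⟩ := hH.verts (τ.symm v)
    exact ⟨n, τ.symm v, hn, by simp⟩
  adj a b hab := by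
    have h1 : G.Adj (τ.symm a) (τ.symm b) := τ.symm.map_rel_iff.2 hab
    obtain ⟨n, hn⟩ := hH.adj _ _ h1
    exact ⟨n, τ.symm a, τ.symm b, hn, by simp, by simp⟩

/-- The avoidance event as a cylinder event. -/
lemma evtSet_avoid (A : Finset G.edgeSet) :
    evtSet (A.map (Function.Embedding.subtype _)) ∅ = avoidSet A := by
  classical
  ext σ
  simp only [evtSet, avoidSet, Set.mem_ofPred_eq, Finset.filter_eq_empty_iff, Finset.mem_map,
    Function.Embedding.subtype_apply]
  constructor
  · intro h a ha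
    have := h (x := a.1) ⟨a, ha, rfl⟩
    simpa [toBoolFun, a.2] using this
  · rintro h _ ⟨a, ha, rfl⟩
    simpa [toBoolFun, a.2] using h a ha

/-- The limit is invariant under automorphisms. -/
theorem map_eq_of_tendsto {H : ℕ → G.Subgraph} (hH : IsExhaustion G H)
    {μ : ProbabilityMeasure (G.edgeSet → Bool)}
    (hμ : ∀ {H : ℕ → G.Subgraph} (hH : IsExhaustion G H),
      Tendsto (fun n => (hH.fs n).lawP) atTop (𝓝 μ)) :
    (μ : Measure (G.edgeSet → Bool)).map (fun σ => σ ∘ τ.mapEdgeSet) = μ := by
  classical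
  have hmeas : Measurable fun σ : G.edgeSet → Bool => σ ∘ τ.mapEdgeSet :=
    measurable_pi_lambda _ fun e => measurable_pi_apply _
  have : IsProbabilityMeasure ((μ : Measure (G.edgeSet → Bool)).map fun σ => σ ∘ τ.mapEdgeSet) :=
    Measure.isProbabilityMeasure_map hmeas.aemeasurable
  refine measure_eq_of_avoid fun A => ?_
  rw [Measure.map_apply hmeas (measurableSet_avoidSet A)]
  have hpre : (fun σ : G.edgeSet → Bool => σ ∘ τ.mapEdgeSet) ⁻¹' avoidSet A =
      avoidSet (A.map τ.mapEdgeSet.toEmbedding) := by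
    ext σ
    simp only [avoidSet, Set.mem_preimage, Set.mem_ofPred_eq, Finset.forall_mem_map]
    rfl
  rw [hpre]
  -- compare the two limits
  set F : Finset (Sym2 V) := A.map (Function.Embedding.subtype _) with hF
  have hF' : (A.map τ.mapEdgeSet.toEmbedding).map (Function.Embedding.subtype _) = F.map (symEmb τ) := by
    ext e
    simp only [Finset.mem_map, Function.Embedding.subtype_apply, Equiv.coe_toEmbedding, hF]
    constructor
    · rintro ⟨_, ⟨a, ha, rfl⟩, rfl⟩
      exact ⟨a.1, ⟨a, ha, rfl⟩, rfl⟩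
    · rintro ⟨_, ⟨a, ha, rfl⟩, rfl⟩
      exact ⟨_, ⟨a, ha, rfl⟩, rfl⟩
  have h1 := tendsto_ustProb hH (hμ hH) F ∅
  have h2 := tendsto_ustProb (hH.map τ) (hμ (hH.map τ)) (F.map (symEmb τ)) ∅
  have h3 : (fun n => ustProb ((H n).map τ.toHom) (F.map (symEmb τ)) ∅) = fun n => ustProb (H n) F ∅ := by
    funext n
    have := ustProb_map τ (H n) F ∅
    simpa using this
  rw [h3] at h2
  have h4 := tendsto_nhds_unique h1 h2
  rw [hF, evtSet_avoid] at h4
  rw [← hF', evtSet_avoid] at h4
  exact ((ENNReal.toReal_eq_toReal_iff' (measure_ne_top _ _) (measure_ne_top _ _)).1 h4).symm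

end invariance

/-! ### Balls and the main theorem -/

section balls

/-- Balls around `o`, defined by adding neighbours. -/
def ballS (G : SimpleGraph V) (o : V) : ℕ → Set V
  | 0 => {o}
  | n + 1 => ballS G o n ∪ ⋃ v ∈ ballS G o n, G.neighborSet v

lemma ballS_mono (o : V) : Monotone (ballS G o) :=
  monotone_nat_of_le_succ fun _ => Set.subset_union_left

lemma ballS_finite (hlf : ∀ v, (G.neighborSet v).Finite) (o : V) (n : ℕ) : (ballS G o n).Finite := by
  induction n with
  | zero => exact Set.finite_singleton o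
  | succ n ih => exact ih.union (ih.biUnion fun v _ => hlf v)

/-- The balls around a vertex, as subgraphs. -/
def ballH (G : SimpleGraph V) (o : V) (n : ℕ) : G.Subgraph := (⊤ : G.Subgraph).induce (ballS G o n)

lemma ballH_mono (o : V) : Monotone (ballH G o) := fun _ _ h =>
  SimpleGraph.Subgraph.induce_mono_right (ballS_mono o h)

lemma self_mem_ballS (o : V) (n : ℕ) : o ∈ ballS G o n :=
  ballS_mono o (Nat.zero_le n) (Set.mem_singleton o)

lemma ballH_reachable (o : V) (n : ℕ) (v : V) (hv : v ∈ ballS G o n) :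
    (ballH G o n).coe.Reachable ⟨o, self_mem_ballS o n⟩ ⟨v, hv⟩ := by
  induction n generalizing v with
  | zero =>
    have : v = o := hv
    subst this
    exact SimpleGraph.Reachable.refl _
  | succ n ih =>
    have hle : ballH G o n ≤ ballH G o (n + 1) := ballH_mono o (Nat.le_succ n)
    rcases hv with hv | hv
    · exact (ih v hv).map (SimpleGraph.Subgraph.inclusion hle)
    · simp only [Set.mem_iUnion, exists_prop] at hv
      obtain ⟨w, hw, hwv⟩ := hv
      refine ((ih w hw).map (SimpleGraph.Subgraph.inclusion hle)).trans ?_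
      refine SimpleGraph.Adj.reachable ?_
      exact ⟨ballS_mono o (Nat.le_succ n) hw, Or.inr (Set.mem_biUnion hw hwv), hwv⟩

/-- Exhaustion by balls. -/
theorem isExhaustion_ballH (hlf : ∀ v, (G.neighborSet v).Finite) (hG : G.Connected) (o : V) :
    IsExhaustion G (ballH G o) where
  finite n := ballS_finite hlf o n
  connected n := by
    refine ⟨(SimpleGraph.connected_iff _).2 ⟨?_, ⟨⟨o, self_mem_ballS o n⟩⟩⟩⟩
    rintro ⟨a, ha⟩ ⟨b, hb⟩
    exact (ballH_reachable o n a ha).symm.trans (ballH_reachable o n b hb)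
  mono := ballH_mono o
  verts v := by
    have h := hG.preconnected o v
    rw [SimpleGraph.reachable_iff_reflTransGen] at h
    induction h with
    | refl => exact ⟨0, self_mem_ballS (G := G) o 0⟩
    | tail _ hstep ih =>
      obtain ⟨n, hn⟩ := ih
      exact ⟨n + 1, Or.inr (Set.mem_biUnion hn hstep)⟩
  adj a b hab := by
    have h := hG.preconnected o a
    rw [SimpleGraph.reachable_iff_reflTransGen] at h
    have : ∃ n, a ∈ ballS G o n := by
      clear hab
      induction h with
      | refl => exact ⟨0, self_mem_ballS (G := G) o 0⟩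
      | tail _ hstep ih =>
        obtain ⟨n, hn⟩ := ih
        exact ⟨n + 1, Or.inr (Set.mem_biUnion hn hstep)⟩
    obtain ⟨n, hn⟩ := this
    exact ⟨n + 1, ballS_mono o (Nat.le_succ n) hn, Or.inr (Set.mem_biUnion hn hab), hab⟩

end balls

/-- Existence of the free uniform spanning forest of a connected locally finite graph, with the
properties needed for the factor of IID construction. -/
theorem fusf_main (hlf : ∀ v, (G.neighborSet v).Finite) (hG : G.Connected) :
    ∃ μ : Measure (G.edgeSet → Bool), IsProbabilityMeasure μ ∧ SupLip μ 16 ∧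
      (∀ τ : G ≃g G, μ.map (fun σ => σ ∘ τ.mapEdgeSet) = μ) ∧
      ∀ {H : ℕ → G.Subgraph}, IsExhaustion G H → ∀ F P : Finset (Sym2 V),
        Tendsto (fun n => ustProb (H n) F P) atTop (𝓝 (μ (evtSet F P)).toReal) := by
  obtain ⟨o⟩ := hG.nonempty
  have hH₀ := isExhaustion_ballH hlf hG o
  obtain ⟨μ, hμ⟩ := exists_fusf hH₀
  refine ⟨μ, inferInstance, supLip_of_tendsto hH₀ (hμ hH₀), fun τ => map_eq_of_tendsto τ hH₀ hμ,
    fun {H} hH F P => tendsto_ustProb hH (hμ hH) F P⟩

end

end Vale.Agent.Lib.P143
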