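import Vale.Agent.Lib.P143.Defs

/-!
The free uniform spanning forest of a graph, as the weak limit of the uniform spanning trees.
-/

open MeasureTheory Filter Topology

namespace Vale.Agent.Lib.P143

noncomputable section

variable {V : Type*}

/-- `ν` is the free uniform spanning forest of `G`, as a law on the edge configurations: `G` has
exhaustions by finite connected subgraphs, and along every one of them the laws of the uniform
spanning trees converge to `ν` on all cylinders (this is weak convergence on `{0,1}^E(G)`). -/
def IsFUSF (G : SimpleGraph V) (ν : Measure (G.edgeSet → Bool)) : Prop :=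
  IsProbabilityMeasure ν ∧ (∃ H : ℕ → G.Subgraph, IsExhaustion G H) ∧
    ∀ H : ℕ → G.Subgraph, IsExhaustion G H → ∀ F P : Finset (Sym2 V),
      (F : Set (Sym2 V)) ⊆ G.edgeSet → P ⊆ F →
        Tendsto (fun n => ustProb (H n) F P) atTop
          (𝓝 (ν {σ | ∀ e : G.edgeSet, e.1 ∈ F → (σ e = true ↔ e.1 ∈ P)}).toReal)

end

end Vale.Agent.Lib.P143
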