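import Vale.Agent.Lib.P143.Tilt

/-!
Cameron-Martin for finite products of standard Gaussians, and the noise array structure.
-/

set_option linter.unusedSimpArgs false
set_option linter.unusedVariables false
set_option linter.unusedSectionVars false

open Filter MeasureTheory Finset Topology ProbabilityTheory

namespace Vale.Agent.Lib.P143

noncomputable section

/-- One-dimensional Cameron-Martin. -/
lemma gaussian_withDensity (a : ℝ) :
    (gaussianReal 0 1).withDensity (fun z => ENNReal.ofReal (Real.exp (a * z - a ^ 2 / 2))) =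
      gaussianReal a 1 := by
  have hv : (1 : NNReal) ≠ 0 := one_ne_zero
  rw [gaussianReal_of_var_ne_zero 0 hv, gaussianReal_of_var_ne_zero a hv]
  rw [← withDensity_mul _ (measurable_gaussianPDF 0 1)
    (by fun_prop : Measurable fun z : ℝ => ENNReal.ofReal (Real.exp (a * z - a ^ 2 / 2)))]
  congr 1
  funext z
  simp only [Pi.mul_apply, gaussianPDF_def, gaussianPDFReal_def]
  rw [← ENNReal.ofReal_mul (by positivity)]
  congr 1
  rw [mul_assoc, ← Real.exp_add]
  congr 2
  simp only [NNReal.coe_one, mul_one]
  ring

variable {T : Type*} [Fintype T]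

/-- The standard Gaussian measure on `T → ℝ`. -/
def gamT (T : Type*) [Fintype T] : Measure (T → ℝ) := Measure.pi fun _ => gaussianReal 0 1

instance : IsProbabilityMeasure (gamT T) := by unfold gamT; infer_instance

/-- The Cameron-Martin density. -/
def cmDens (a z : T → ℝ) : ℝ := Real.exp (∑ i, (a i * z i - a i ^ 2 / 2))

lemma measurable_cmDens_uncurry {α : Type*} [MeasurableSpace α] {a : α → T → ℝ}
    (ha : Measurable a) : Measurable fun p : α × (T → ℝ) => cmDens (a p.1) p.2 := by
  unfold cmDens
  refine Real.measurable_exp.comp (Finset.measurable_sum _ fun i _ => ?_)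
  have h1 : Measurable fun p : α × (T → ℝ) => a p.1 i :=
    (measurable_pi_apply i).comp (ha.comp measurable_fst)
  have h2 : Measurable fun p : α × (T → ℝ) => p.2 i :=
    (measurable_pi_apply i).comp measurable_snd
  exact (h1.mul h2).sub ((h1.pow_const 2).div_const 2)

lemma measurable_cmDens (a : T → ℝ) : Measurable (cmDens a) := by
  have := measurable_cmDens_uncurry (α := Unit) (a := fun _ => a) measurable_const
  exact this.comp ((measurable_const (a := ())).prodMk measurable_id)

lemma cmDens_pos (a z : T → ℝ) : 0 < cmDens a z := Real.exp_pos _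

/-- Multi-dimensional Cameron-Martin: the density turns the standard Gaussian into the shifted one. -/
lemma gamT_withDensity (a : T → ℝ) :
    (gamT T).withDensity (fun z => ENNReal.ofReal (cmDens a z)) =
      Measure.pi fun i => gaussianReal (a i) 1 := by
  classical
  symm
  refine Measure.pi_eq fun s hs => ?_
  rw [withDensity_apply _ (MeasurableSet.univ_pi hs)]
  rw [← lintegral_indicator (MeasurableSet.univ_pi hs)]
  set d : T → ℝ → ENNReal := fun i x => ENNReal.ofReal (Real.exp (a i * x - a i ^ 2 / 2)) with hd
  have hdm : ∀ i, Measurable (d i) := fun i => by simp only [hd]; fun_prop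
  have key : ∀ z : T → ℝ, (Set.pi Set.univ s).indicator (fun z => ENNReal.ofReal (cmDens a z)) z =
      ∏ i, (s i).indicator (d i) (z i) := by
    intro z
    by_cases hz : z ∈ Set.pi Set.univ s
    · rw [Set.indicator_of_mem hz]
      have h1 : ∀ i, (s i).indicator (d i) (z i) = d i (z i) := fun i =>
        Set.indicator_of_mem (hz i (Set.mem_univ i)) _
      simp_rw [h1]
      unfold cmDens
      rw [Real.exp_sum, ENNReal.ofReal_prod_of_nonneg (fun i _ => (Real.exp_pos _).le)]
    · rw [Set.indicator_of_notMem hz]
      obtain ⟨i, hi⟩ : ∃ i, z i ∉ s i := by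
        by_contra h
        push Not at h
        exact hz fun i _ => h i
      symm
      refine Finset.prod_eq_zero (Finset.mem_univ i) ?_
      exact Set.indicator_of_notMem hi _
  simp_rw [key]
  have hXm : ∀ i, Measurable fun z : T → ℝ => (s i).indicator (d i) (z i) := fun i =>
    ((hdm i).indicator (hs i)).comp (measurable_pi_apply i)
  have hind : iIndepFun (fun (i : T) (z : T → ℝ) => (s i).indicator (d i) (z i)) (gamT T) := by
    unfold gamT
    exact iIndepFun_pi (X := fun i => (s i).indicator (d i))
      (fun i => ((hdm i).indicator (hs i)).aemeasurable)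
  have := lintegral_prod_eq_prod_lintegral_of_indepFun Finset.univ
    (fun (i : T) (z : T → ℝ) => (s i).indicator (d i) (z i)) hind hXm
  rw [this]
  refine Finset.prod_congr rfl fun i _ => ?_
  have hmap : (gamT T).map (fun z => z i) = gaussianReal 0 1 := by
    unfold gamT
    exact (measurePreserving_eval _ i).map_eq
  have h3 : ∫⁻ z : T → ℝ, (s i).indicator (d i) (z i) ∂(gamT T) =
      ∫⁻ x, (s i).indicator (d i) x ∂(gaussianReal 0 1) := by
    rw [← hmap, lintegral_map ((hdm i).indicator (hs i)) (measurable_pi_apply i)]
  rw [h3, lintegral_indicator (hs i), ← withDensity_apply _ (hs i), hd, gaussian_withDensity]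

/-- The shifted Gaussian as a pushforward. -/
lemma gamT_map_add (a : T → ℝ) :
    (gamT T).map (fun z i => z i + a i) = Measure.pi fun i => gaussianReal (a i) 1 := by
  unfold gamT
  have h := Measure.pi_map_pi (μ := fun _ : T => gaussianReal 0 1)
    (f := fun i (x : ℝ) => x + a i) (fun i => by fun_prop)
  rw [h]
  congr 1
  funext i
  rw [gaussianReal_map_add_const]
  simp

lemma lintegral_cmDens (a : T → ℝ) : ∫⁻ z, ENNReal.ofReal (cmDens a z) ∂(gamT T) = 1 := by
  have h := gamT_withDensity a
  have h2 : ((gamT T).withDensity (fun z => ENNReal.ofReal (cmDens a z))) Set.univ = 1 := by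
    rw [h]
    simp
  rwa [withDensity_apply _ MeasurableSet.univ, Measure.restrict_univ] at h2

lemma integrable_cmDens (a : T → ℝ) : Integrable (cmDens a) (gamT T) := by
  refine ⟨(measurable_cmDens a).aestronglyMeasurable, ?_⟩
  rw [hasFiniteIntegral_iff_ofReal (Eventually.of_forall fun z => (cmDens_pos a z).le)]
  rw [lintegral_cmDens]
  exact ENNReal.one_lt_top

lemma integral_cmDens (a : T → ℝ) : ∫ z, cmDens a z ∂(gamT T) = 1 := by
  rw [integral_eq_lintegral_of_nonneg_ae (Eventually.of_forall fun z => (cmDens_pos a z).le)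
    (measurable_cmDens a).aestronglyMeasurable, lintegral_cmDens]
  simp

/-- Cameron-Martin in integral form. -/
lemma integral_shift (a : T → ℝ) {Ψ : (T → ℝ) → ℝ} (hΨ : Measurable Ψ) :
    ∫ z, Ψ (fun i => z i + a i) ∂(gamT T) = ∫ z, Ψ z * cmDens a z ∂(gamT T) := by
  have hm : Measurable fun z : T → ℝ => fun i => z i + a i :=
    measurable_pi_lambda _ fun i => (measurable_pi_apply i).add_const _
  have h1 : ∫ z, Ψ (fun i => z i + a i) ∂(gamT T) =
      ∫ z, Ψ z ∂((gamT T).map fun z i => z i + a i) :=
    (integral_map hm.aemeasurable hΨ.aestronglyMeasurable).symm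
  rw [h1, gamT_map_add, ← gamT_withDensity]
  rw [integral_withDensity_eq_integral_toReal_smul]
  · refine integral_congr_ae (Eventually.of_forall fun z => ?_)
    simp only [smul_eq_mul]
    rw [ENNReal.toReal_ofReal (cmDens_pos a z).le, mul_comm]
  · exact ENNReal.measurable_ofReal.comp (measurable_cmDens a)
  · exact Eventually.of_forall fun z => ENNReal.ofReal_lt_top

/-- The noise array: each level i.i.d. standard Gaussian, each level a dyadic refinement of the
previous one. -/
structure IsNoiseArray {I Ω : Type*} [MeasurableSpace Ω] (P : Measure Ω)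
    (g : ℕ → ℕ → I → Ω → ℝ) : Prop where
  meas : ∀ j k e, Measurable (g j k e)
  refine : ∀ j k e ω, g j k e ω = (g (j + 1) (2 * k) e ω + g (j + 1) (2 * k + 1) e ω) / Real.sqrt 2
  indep : ∀ j, iIndepFun (fun p : ℕ × I => g j p.1 p.2) P
  law : ∀ j k e, P.map (g j k e) = gaussianReal 0 1

end

end Vale.Agent.Lib.P143
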