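import Vale.Agent.Lib.P143.Riemann

/-!
The innovation array of the exact process is a noise array, and the exact process solves the
integral equation driven by its innovations.
-/

set_option linter.unusedSimpArgs false
set_option linter.unusedVariables false
set_option linter.unusedSectionVars false
set_option warn.classDefReducibility false

open Filter MeasureTheory Finset Topology ProbabilityTheory

namespace Vale.Agent.Lib.P143

noncomputable section

section General
variable {Ω : Type*} [MeasurableSpace Ω]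

/-- A family whose finite combinations have Gaussian characteristic functions is i.i.d. standard Gaussian. -/
lemma noise_of_char {κ : Type*} {P : Measure Ω} [IsProbabilityMeasure P] {X : κ → Ω → ℝ}
    (hX : ∀ p, Measurable (X p))
    (h : ∀ (s : Finset κ) (a : κ → ℝ),
      ∫ ω, Complex.exp (Complex.I * (∑ p ∈ s, a p * X p ω : ℝ)) ∂P =
        ((Real.exp (-(∑ p ∈ s, a p ^ 2 / 2)) : ℝ) : ℂ)) :
    iIndepFun X P ∧ ∀ p, P.map (X p) = gaussianReal 0 1 := by
  classical
  have hlaw : ∀ p, P.map (X p) = gaussianReal 0 1 := by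
    intro p
    refine Measure.ext_of_charFun ?_
    funext t
    rw [charFun_gaussianReal, charFun_apply_real, integral_map (hX p).aemeasurable (by fun_prop)]
    have := h {p} (fun _ => t)
    simp only [Finset.sum_singleton] at this
    have e1 : ∀ ω, Complex.exp ((t : ℂ) * (X p ω : ℂ) * Complex.I) =
        Complex.exp (Complex.I * ((t * X p ω : ℝ) : ℂ)) := by
      intro ω; congr 1; push_cast; ring
    simp_rw [e1]
    rw [this]
    push_cast
    congr 1
    simp
  refine ⟨?_, hlaw⟩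
  rw [iIndepFun_iff_finset]
  intro s
  rw [iIndepFun_iff_charFun_pi (E := fun _ : s => ℝ) (X := s.restrict X) (fun i => (hX i).aemeasurable)]
  intro t
  have hm : Measurable fun ω => WithLp.toLp 2 (fun i : s => s.restrict X i ω) := by
    have h1 : Measurable fun ω => (fun i : s => s.restrict X i ω) :=
      measurable_pi_lambda _ fun i => hX _
    exact (MeasurableEquiv.toLp 2 _).measurable.comp h1
  rw [charFun_apply, integral_map hm.aemeasurable (by fun_prop)]
  have hfac : ∀ i : s, charFun (P.map (s.restrict X i)) (t i) =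
      ((Real.exp (-((t i) ^ 2 / 2)) : ℝ) : ℂ) := by
    intro i
    have : s.restrict X i = X i := rfl
    rw [this, hlaw, charFun_gaussianReal]
    push_cast
    congr 1
    simp
  simp_rw [hfac]
  rw [← Complex.ofReal_prod, ← Real.exp_sum]
  let a : κ → ℝ := fun p => if hp : p ∈ s then t ⟨p, hp⟩ else 0
  have h3 := h s a
  have e1 : ∀ ω, Complex.exp (Complex.ofReal (inner ℝ (WithLp.toLp 2 (fun i : s => s.restrict X i ω)) t) * Complex.I) =
      Complex.exp (Complex.I * (∑ p ∈ s, a p * X p ω : ℝ)) := by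
    intro ω
    congr 1
    rw [mul_comm]
    congr 2
    rw [PiLp.inner_apply, ← Finset.sum_coe_sort s]
    refine Finset.sum_congr rfl fun i _ => ?_
    simp [a, Finset.restrict, mul_comm]
  simp_rw [e1]
  rw [h3]
  congr 2
  rw [← Finset.sum_neg_distrib, ← Finset.sum_coe_sort s (fun p => -(a p ^ 2 / 2))]
  refine Finset.sum_congr rfl fun i _ => ?_
  simp [a]

end General

lemma sum_range_mul_block {M : ℕ} (hM : 0 < M) (F : ℕ → ℕ → ℝ) (N : ℕ) :
    ∑ l ∈ range (N * M), F (l / M) l = ∑ k ∈ range N, ∑ r ∈ range M, F k (k * M + r) := by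
  induction N with
  | zero => simp
  | succ N ih =>
    rw [Nat.succ_mul, Finset.sum_range_add, ih, Finset.sum_range_succ]
    congr 1
    refine Finset.sum_congr rfl fun r hr => ?_
    have hr' := Finset.mem_range.1 hr
    have : (N * M + r) / M = N := by
      rw [add_comm, Nat.add_mul_div_right _ _ hM, Nat.div_eq_of_lt hr']
      simp
    rw [this]

variable {I Ω₂ : Type*} [MeasurableSpace Ω₂]

variable (μ : Measure (I → Bool)) [IsProbabilityMeasure μ] (ν : Measure Ω₂) [IsProbabilityMeasure ν]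
  {g : ℕ → ℕ → I → Ω₂ → ℝ} (Bs : I → ℕ → Finset I)

/-- The innovation process in real time. -/
def Bex (μ : Measure (I → Bool)) (Bs : I → ℕ → Finset I) (g : ℕ → ℕ → I → Ω₂ → ℝ)
    (ω : (I → Bool) × Ω₂) (t : ℝ) (e : I) : ℝ :=
  yy g ω t e - dInt (fD μ Bs g e ω) t

/-- The innovation array. -/
def gex (μ : Measure (I → Bool)) (Bs : I → ℕ → Finset I) (g : ℕ → ℕ → I → Ω₂ → ℝ)
    (j k : ℕ) (e : I) (ω : (I → Bool) × Ω₂) : ℝ :=
  (1 / rs j) * (Bex μ Bs g ω (((k + 1 : ℕ) : ℝ) * hs j) e - Bex μ Bs g ω ((k : ℝ) * hs j) e)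

lemma measurable_Bex (hg : ∀ j k e, Measurable (g j k e)) (t : ℝ) (e : I) :
    Measurable fun ω => Bex μ Bs g ω t e := by
  unfold Bex
  refine (measurable_yy hg t e).sub ?_
  exact dInt_measurable (f := fun ω s => fD μ Bs g e ω s) (fun s => measurable_fD μ Bs hg e s) t

lemma measurable_gex (hg : ∀ j k e, Measurable (g j k e)) (j k : ℕ) (e : I) :
    Measurable (gex μ Bs g j k e) := by
  unfold gex
  exact ((measurable_Bex μ Bs hg _ e).sub (measurable_Bex μ Bs hg _ e)).const_mul _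

lemma gex_refine (j k : ℕ) (e : I) (ω : (I → Bool) × Ω₂) :
    gex μ Bs g j k e ω =
      (gex μ Bs g (j + 1) (2 * k) e ω + gex μ Bs g (j + 1) (2 * k + 1) e ω) / Real.sqrt 2 := by
  unfold gex
  have h1 : (((2 * k + 1 + 1 : ℕ) : ℝ) * hs (j + 1)) = ((k + 1 : ℕ) : ℝ) * hs j := by
    rw [hs_succ j]; push_cast; ring
  have h2 : (((2 * k + 1 : ℕ) : ℝ)) = ((2 * k + 1 : ℕ) : ℝ) := rfl
  have h3 : ((2 * k : ℕ) : ℝ) * hs (j + 1) = (k : ℝ) * hs j := by
    rw [hs_succ j]; push_cast; ring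
  rw [h1, h3]
  have hr : rs j = rs (j + 1) * Real.sqrt 2 := rs_succ j
  have h5 := (rs_pos (j + 1)).ne'
  have h6 : Real.sqrt 2 ≠ 0 := by positivity
  rw [hr]
  field_simp
  ring

lemma Bex_zero (hg : ∀ j k e ω, g j k e ω = (g (j + 1) (2 * k) e ω + g (j + 1) (2 * k + 1) e ω) / Real.sqrt 2)
    (J : ℕ) (ω : (I → Bool) × Ω₂) (e : I) : Bex μ Bs g ω (((0 : ℕ) : ℝ) * hs J) e = 0 := by
  unfold Bex
  have h1 : yy g ω (((0 : ℕ) : ℝ) * hs J) e = 0 := by
    have := congrFun (yy_dyadic hg J 0 ω) e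
    rw [this]
    simp [yl]
  have h2 : dInt (fD μ Bs g e ω) (((0 : ℕ) : ℝ) * hs J) = 0 := by
    unfold dInt RS
    simp
  rw [h1, h2, sub_zero]

lemma gex_sum (hg : ∀ j k e ω, g j k e ω = (g (j + 1) (2 * k) e ω + g (j + 1) (2 * k + 1) e ω) / Real.sqrt 2)
    (J k : ℕ) (e : I) (ω : (I → Bool) × Ω₂) :
    rs J * ∑ l ∈ range k, gex μ Bs g J l e ω = Bex μ Bs g ω ((k : ℝ) * hs J) e := by
  have h1 : ∀ l, rs J * gex μ Bs g J l e ω =
      Bex μ Bs g ω (((l + 1 : ℕ) : ℝ) * hs J) e - Bex μ Bs g ω ((l : ℝ) * hs J) e := by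
    intro l
    unfold gex
    have := (rs_pos J).ne'
    field_simp
  rw [Finset.mul_sum]
  simp_rw [h1]
  rw [Finset.sum_range_sub (fun l : ℕ => Bex μ Bs g ω ((l : ℝ) * hs J) e), Bex_zero μ Bs hg, sub_zero]

/-- The forcing built from the innovation array is the innovation process at dyadic times. -/
lemma forc_gex (hg : ∀ j k e ω, g j k e ω = (g (j + 1) (2 * k) e ω + g (j + 1) (2 * k + 1) e ω) / Real.sqrt 2)
    (J k : ℕ) (e : I) (ω : (I → Bool) × Ω₂) :
    forc (fun j l e => gex μ Bs g j l e ω) ((k : ℝ) * hs J) e = Bex μ Bs g ω ((k : ℝ) * hs J) e := by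
  rw [forc_dyadic (a := fun j l e => gex μ Bs g j l e ω) (fun j k e => gex_refine μ Bs j k e ω)]
  exact gex_sum μ Bs hg J k e ω

/-- The exact process solves the integral equation with the innovation forcing, pointwise. -/
theorem yy_eq_sol {K : ℝ} (hK : 0 < K) (hL : SupLip μ K)
    (hg : ∀ j k e ω, g j k e ω = (g (j + 1) (2 * k) e ω + g (j + 1) (2 * k + 1) e ω) / Real.sqrt 2)
    (ω : (I → Bool) × Ω₂) {t : ℝ} (ht : IsDyadicTime t) (e : I) :
    yy g ω t e = sol (drift μ Bs) (forc fun j l e => gex μ Bs g j l e ω) t e := by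
  refine eq_sol_of_dyadic (drift_isDrift μ Bs hK hL) _ ?_ ht e
  intro t ht e
  obtain ⟨J, k, rfl⟩ := ht
  rw [forc_gex μ Bs hg]
  unfold Bex
  have : (fun s => drift μ Bs (yy g ω s) e) = fD μ Bs g e ω := rfl
  rw [this]
  ring

/-- Partial sums of the innovation increments. -/
def Xi (μ : Measure (I → Bool)) (Bs : I → ℕ → Finset I) (g : ℕ → ℕ → I → Ω₂ → ℝ)
    (J m k : ℕ) (e : I) (ω : (I → Bool) × Ω₂) : ℝ :=
  ∑ l ∈ range (k * 2 ^ m), xi μ Bs g (J + m) l e ω

lemma Xi_eq (hg : ∀ j k e ω, g j k e ω = (g (j + 1) (2 * k) e ω + g (j + 1) (2 * k + 1) e ω) / Real.sqrt 2)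
    (J m k : ℕ) (e : I) (ω : (I → Bool) × Ω₂) :
    Xi μ Bs g J m k e ω = yy g ω ((k : ℝ) * hs J) e - RS (J + m) (fD μ Bs g e ω) ((k : ℝ) * hs J) := by
  unfold Xi xi
  rw [Finset.sum_sub_distrib, RS_fD μ Bs hg]
  congr 1
  rw [dyadic_refine' J m k]
  have := congrFun (yy_dyadic hg (J + m) (k * 2 ^ m) ω) e
  rw [this]
  rfl

lemma Xi_tendsto (hg : IsNoiseArray ν g) (e : I) (hmono : Monotone (Bs e))
    (hex : ∀ f, ∃ R, f ∈ Bs e R) (J k : ℕ) :
    ∀ᵐ ω ∂(μ.prod ν), Tendsto (fun m => Xi μ Bs g J m k e ω) atTop (𝓝 (Bex μ Bs g ω ((k : ℝ) * hs J) e)) := by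
  filter_upwards [riemann_tendsto μ ν Bs hg e hmono hex J k] with ω hω
  simp_rw [Xi_eq μ Bs hg.refine]
  exact tendsto_const_nhds.sub hω

/-- The block weights. -/
def Lam (a : ℕ → I → ℝ) (J m l : ℕ) (e : I) : ℝ := (1 / rs J) * a (l / 2 ^ m) e

lemma SK_block (a : ℕ → I → ℝ) (A : Finset I) (J m N : ℕ) (ω : (I → Bool) × Ω₂) :
    SK μ Bs g A (Lam a J m) (J + m) (N * 2 ^ m) ω =
      ∑ k ∈ range N, ∑ e ∈ A, a k e *
        ((1 / rs J) * (Xi μ Bs g J m (k + 1) e ω - Xi μ Bs g J m k e ω)) := by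
  unfold SK Lam
  have hM : 0 < 2 ^ m := by positivity
  have := sum_range_mul_block hM
    (fun k l => ∑ e ∈ A, (1 / rs J * a k e) * xi μ Bs g (J + m) l e ω) N
  rw [this]
  refine Finset.sum_congr rfl fun k _ => ?_
  rw [Finset.sum_comm]
  refine Finset.sum_congr rfl fun e _ => ?_
  unfold Xi
  rw [Nat.succ_mul, Finset.sum_range_add, add_sub_cancel_left, Finset.mul_sum, Finset.mul_sum]
  refine Finset.sum_congr rfl fun r _ => ?_
  ring

lemma varSum_block (a : ℕ → I → ℝ) (A : Finset I) (J m N : ℕ) :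
    varSum A (Lam a J m) (J + m) (N * 2 ^ m) = ∑ k ∈ range N, ∑ e ∈ A, a k e ^ 2 / 2 := by
  unfold varSum Lam
  have hM : 0 < 2 ^ m := by positivity
  have := sum_range_mul_block hM (fun k l => ∑ e ∈ A, (1 / rs J * a k e) ^ 2) N
  rw [this]
  simp only [Finset.sum_const, Finset.card_range, nsmul_eq_mul]
  rw [Finset.mul_sum]
  refine Finset.sum_congr rfl fun k _ => ?_
  rw [Finset.mul_sum, Finset.mul_sum]
  refine Finset.sum_congr rfl fun e _ => ?_
  have h1 : hs (J + m) * 2 ^ m = hs J := by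
    unfold hs
    rw [pow_add, mul_assoc, ← mul_pow]
    norm_num
  have h2 : (1 / rs J * a k e) ^ 2 = a k e ^ 2 / hs J := by
    rw [mul_pow, div_pow, one_pow, sq (rs J), rs_sq]
    ring
  rw [h2]
  have h3 := (hs_pos J).ne'
  push_cast
  calc hs (J + m) / 2 * (2 ^ m * (a k e ^ 2 / hs J)) = (hs (J + m) * 2 ^ m) * (a k e ^ 2 / hs J) / 2 := by ring
    _ = a k e ^ 2 / 2 := by rw [h1]; field_simp

lemma errSum_block (a : ℕ → I → ℝ) (A : Finset I) (J m N : ℕ) :
    errSum A (Lam a J m) (J + m) (N * 2 ^ m) =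
      (hs J ^ 2 * ∑ k ∈ range N, 3 * (2 * (1 / rs J) * ∑ e ∈ A, |a k e|) ^ 2) * hs m := by
  unfold errSum Lam
  have hM : 0 < 2 ^ m := by positivity
  have := sum_range_mul_block hM (fun k l => 3 * (2 * hs (J + m) * ∑ e ∈ A, |1 / rs J * a k e|) ^ 2) N
  rw [this]
  simp only [Finset.sum_const, Finset.card_range, nsmul_eq_mul]
  rw [Finset.mul_sum, Finset.sum_mul]
  refine Finset.sum_congr rfl fun k _ => ?_
  have hA : ∑ e ∈ A, |1 / rs J * a k e| = (1 / rs J) * ∑ e ∈ A, |a k e| := by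
    rw [Finset.mul_sum]
    refine Finset.sum_congr rfl fun e _ => ?_
    rw [abs_mul, abs_of_pos (by have := rs_pos J; positivity)]
  rw [hA]
  have h1 : hs (J + m) = hs J * hs m := by unfold hs; rw [pow_add]
  have h2 : hs m * 2 ^ m = 1 := hs_mul_two_pow m
  rw [h1]
  push_cast
  calc (2 : ℝ) ^ m * (3 * (2 * (hs J * hs m) * (1 / rs J * ∑ e ∈ A, |a k e|)) ^ 2)
      = (hs m * 2 ^ m) * (hs J ^ 2 * (3 * (2 * (1 / rs J) * ∑ e ∈ A, |a k e|) ^ 2)) * hs m := by ring
    _ = _ := by rw [h2]; ring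

lemma hs_tendsto : Tendsto hs atTop (𝓝 0) :=
  tendsto_pow_atTop_nhds_zero_of_lt_one (by norm_num) (by norm_num)

/-- The joint characteristic function of the innovation array at one level. -/
theorem char_gex (hg : IsNoiseArray ν g) (hmono : ∀ e, Monotone (Bs e))
    (hex : ∀ e f, ∃ R, f ∈ Bs e R) (a : ℕ → I → ℝ) (A : Finset I) (J N : ℕ) :
    ∫ ω, Complex.exp (Complex.I *
        ((∑ k ∈ range N, ∑ e ∈ A, a k e * gex μ Bs g J k e ω : ℝ) : ℂ)) ∂(μ.prod ν) =
      ((Real.exp (-(∑ k ∈ range N, ∑ e ∈ A, a k e ^ 2 / 2)) : ℝ) : ℂ) := by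
  classical
  set F : ℕ → (I → Bool) × Ω₂ → ℂ := fun m ω =>
    Complex.exp (Complex.I * ((SK μ Bs g A (Lam a J m) (J + m) (N * 2 ^ m) ω : ℝ) : ℂ)) with hF
  set T : ℝ := Real.exp (-(∑ k ∈ range N, ∑ e ∈ A, a k e ^ 2 / 2)) with hT
  -- almost sure convergence
  have hae : ∀ᵐ ω ∂(μ.prod ν), Tendsto (fun m => F m ω) atTop
      (𝓝 (Complex.exp (Complex.I * ((∑ k ∈ range N, ∑ e ∈ A, a k e * gex μ Bs g J k e ω : ℝ) : ℂ)))) := by
    have h1 : ∀ᵐ ω ∂(μ.prod ν), ∀ k : ℕ, ∀ e ∈ A,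
        Tendsto (fun m => Xi μ Bs g J m k e ω) atTop (𝓝 (Bex μ Bs g ω ((k : ℝ) * hs J) e)) := by
      rw [ae_all_iff]
      intro k
      rw [Finset.eventually_all]
      intro e _
      exact Xi_tendsto μ ν Bs hg e (hmono e) (hex e) J k
    filter_upwards [h1] with ω hω
    refine (Complex.continuous_exp.tendsto _).comp ?_
    refine tendsto_const_nhds.mul ?_
    refine (Complex.continuous_ofReal.tendsto _).comp ?_
    simp_rw [SK_block]
    refine tendsto_finsetSum _ fun k _ => tendsto_finsetSum _ fun e he => ?_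
    refine Tendsto.const_mul _ (Tendsto.const_mul _ ?_)
    exact (hω (k + 1) e he).sub (hω k e he)
  have hFm : ∀ m, Measurable (F m) := by
    intro m
    have h := measurable_FF_SK μ Bs (g := g) A (Lam a J m) (J + m) (N * 2 ^ m)
    have h2 := h.mono (FF_le hg.meas _ _) le_rfl
    exact Complex.measurable_exp.comp (measurable_const.mul (Complex.measurable_ofReal.comp h2))
  have hFn : ∀ m ω, ‖F m ω‖ = 1 := fun m ω => norm_cexp_I_mul _
  have hlim1 : Tendsto (fun m => ∫ ω, F m ω ∂(μ.prod ν)) atTop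
      (𝓝 (∫ ω, Complex.exp (Complex.I *
        ((∑ k ∈ range N, ∑ e ∈ A, a k e * gex μ Bs g J k e ω : ℝ) : ℂ)) ∂(μ.prod ν))) := by
    refine tendsto_integral_of_dominated_convergence (fun _ => 1)
      (fun m => (hFm m).aestronglyMeasurable) (integrable_const _)
      (fun m => Eventually.of_forall fun ω => (hFn m ω).le) hae
  have hlim2 : Tendsto (fun m => ∫ ω, F m ω ∂(μ.prod ν)) atTop (𝓝 (T : ℂ)) := by
    rw [tendsto_iff_norm_sub_tendsto_zero]
    have hbound : ∀ m, ‖∫ ω, F m ω ∂(μ.prod ν) - (T : ℂ)‖ ≤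
        (hs J ^ 2 * ∑ k ∈ range N, 3 * (2 * (1 / rs J) * ∑ e ∈ A, |a k e|) ^ 2) * hs m := by
      intro m
      have := char_level μ ν Bs hg hmono hex A (Lam a J m) (J + m) (N * 2 ^ m)
      rw [varSum_block, errSum_block] at this
      exact this
    have h0 : Tendsto (fun m => (hs J ^ 2 * ∑ k ∈ range N, 3 * (2 * (1 / rs J) * ∑ e ∈ A, |a k e|) ^ 2) * hs m)
        atTop (𝓝 0) := by
      simpa using hs_tendsto.const_mul (hs J ^ 2 * ∑ k ∈ range N, 3 * (2 * (1 / rs J) * ∑ e ∈ A, |a k e|) ^ 2)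
    exact squeeze_zero (fun m => norm_nonneg _) hbound h0
  exact tendsto_nhds_unique hlim1 hlim2

/-- The innovation array is a noise array. -/
theorem gex_isNoiseArray (hg : IsNoiseArray ν g) (hmono : ∀ e, Monotone (Bs e))
    (hex : ∀ e f, ∃ R, f ∈ Bs e R) : IsNoiseArray (μ.prod ν) (gex μ Bs g) := by
  classical
  have key : ∀ J, iIndepFun (fun p : ℕ × I => gex μ Bs g J p.1 p.2) (μ.prod ν) ∧
      ∀ p : ℕ × I, (μ.prod ν).map (gex μ Bs g J p.1 p.2) = gaussianReal 0 1 := by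
    intro J
    refine noise_of_char (fun p => measurable_gex μ Bs hg.meas J p.1 p.2) fun s b => ?_
    let N : ℕ := s.sup Prod.fst + 1
    let A : Finset I := s.image Prod.snd
    let a : ℕ → I → ℝ := fun k e => if (k, e) ∈ s then b (k, e) else 0
    have hsub : s ⊆ range N ×ˢ A := by
      intro p hp
      rw [Finset.mem_product, Finset.mem_range]
      refine ⟨Nat.lt_succ_of_le (Finset.le_sup (f := Prod.fst) hp), Finset.mem_image_of_mem _ hp⟩
    have h1 : ∀ f : ℕ × I → ℝ, ∑ p ∈ s, b p * f p =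
        ∑ k ∈ range N, ∑ e ∈ A, a k e * f (k, e) := by
      intro f
      rw [← Finset.sum_product' (range N) A (fun k e => a k e * f (k, e))]
      rw [← Finset.sum_subset hsub]
      · refine Finset.sum_congr rfl fun p hp => ?_
        simp only [a]
        have : (p.1, p.2) = p := rfl
        rw [this, if_pos hp]
      · intro p _ hp
        simp only [a]
        have : (p.1, p.2) = p := rfl
        rw [this, if_neg hp, zero_mul]
    have h2 : ∑ p ∈ s, b p ^ 2 / 2 = ∑ k ∈ range N, ∑ e ∈ A, a k e ^ 2 / 2 := by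
      rw [← Finset.sum_product' (range N) A (fun k e => a k e ^ 2 / 2)]
      rw [← Finset.sum_subset hsub]
      · refine Finset.sum_congr rfl fun p hp => ?_
        simp only [a]
        have : (p.1, p.2) = p := rfl
        rw [this, if_pos hp]
      · intro p _ hp
        simp only [a]
        have : (p.1, p.2) = p := rfl
        rw [this, if_neg hp]
        simp
    rw [h2]
    rw [← char_gex μ ν Bs hg hmono hex a A J N]
    refine integral_congr_ae (Eventually.of_forall fun ω => ?_)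
    simp only []
    rw [h1 (fun p => gex μ Bs g J p.1 p.2 ω)]
  exact ⟨measurable_gex μ Bs hg.meas, gex_refine μ Bs, fun J => (key J).1,
    fun J k e => (key J).2 (k, e)⟩

end

end Vale.Agent.Lib.P143
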