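import Mathlib

/-!
Module task for P143: Kirchhoff's theorem consequences for weighted spanning trees.
-/

set_option linter.unusedSectionVars false
set_option linter.unusedVariables false

open Finset

namespace Vale.Agent.Lib.P143

variable {V F : Type*} [Fintype V] [DecidableEq V] [Fintype F] [DecidableEq F]

/-- `T` is the edge set of a spanning tree of the finite multigraph with edge ends `u v`. -/
def IsSpanTree (u v : F → V) (T : Finset F) : Prop :=
  T.card + 1 = Fintype.card V ∧
    ∀ x y : V, Relation.ReflTransGen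
      (fun a b => ∃ f ∈ T, (u f = a ∧ v f = b) ∨ (u f = b ∧ v f = a)) x y

open Classical in
/-- Total weight of the spanning trees with property `P`, for edge weights `c`. -/
noncomputable def treeSum (u v : F → V) (c : F → ℝ) (P : Finset F → Prop) : ℝ :=
  ∑ T ∈ Finset.univ.filter (fun T => IsSpanTree u v T ∧ P T), ∏ f ∈ T, c f

/-! ### Connectivity through a set of edges -/

/-- One step along an edge of `T`. -/
def Stp (u v : F → V) (T : Finset F) (a b : V) : Prop :=
  ∃ f ∈ T, (u f = a ∧ v f = b) ∨ (u f = b ∧ v f = a)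

/-- Connectivity through the edges of `T`. -/
def Conn (u v : F → V) (T : Finset F) : V → V → Prop := Relation.ReflTransGen (Stp u v T)

variable {u v : F → V} {T : Finset F}

lemma Stp.symm {a b : V} (h : Stp u v T a b) : Stp u v T b a := by
  obtain ⟨f, hf, h⟩ := h
  exact ⟨f, hf, h.symm⟩

lemma Conn.refl (a : V) : Conn u v T a a := Relation.ReflTransGen.refl

lemma Conn.trans {a b c : V} (h : Conn u v T a b) (h' : Conn u v T b c) : Conn u v T a c :=
  Relation.ReflTransGen.trans h h'

lemma Conn.symm {a b : V} (h : Conn u v T a b) : Conn u v T b a := by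
  induction h with
  | refl => exact Conn.refl _
  | tail _ hs ih => exact Conn.trans (Relation.ReflTransGen.single hs.symm) ih

lemma Conn.mono {T' : Finset F} (hT : T ⊆ T') {a b : V} (h : Conn u v T a b) : Conn u v T' a b := by
  induction h with
  | refl => exact Conn.refl _
  | tail _ hs ih =>
    obtain ⟨f, hf, h⟩ := hs
    exact Relation.ReflTransGen.tail ih ⟨f, hT hf, h⟩

lemma Conn.of_mem {f : F} (hf : f ∈ T) : Conn u v T (u f) (v f) :=
  Relation.ReflTransGen.single ⟨f, hf, Or.inl ⟨rfl, rfl⟩⟩

/-- Any two ends of an edge of `T` are connected through `T`. -/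
lemma Conn.ends {f : F} (hf : f ∈ T) {x y : V} (hx : u f = x ∨ v f = x) (hy : y = u f ∨ y = v f) :
    Conn u v T x y := by
  rcases hx with rfl | rfl <;> rcases hy with rfl | rfl
  · exact Conn.refl _
  · exact Conn.of_mem hf
  · exact (Conn.of_mem hf).symm
  · exact Conn.refl _

/-- A connected spanning edge set has at least `|V| - 1` edges. -/
lemma card_le_of_conn (T : Finset F) (h : ∀ x y, Conn u v T x y) :
    Fintype.card V ≤ T.card + 1 := by
  classical
  rcases isEmpty_or_nonempty V with hV | hV
  · simp [Fintype.card_eq_zero]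
  let E : Finset (Sym2 V) := T.image (fun f => s(u f, v f))
  let G : SimpleGraph V := SimpleGraph.fromEdgeSet (E : Set (Sym2 V))
  have hG : G.Preconnected := by
    intro x y
    have hxy := h x y
    induction hxy with
    | refl => exact SimpleGraph.Reachable.refl _
    | @tail b c _ hs ih =>
      refine ih.trans ?_
      by_cases hbc : b = c
      · subst hbc; exact SimpleGraph.Reachable.refl _
      · obtain ⟨f, hf, hf'⟩ := hs
        have hmem : s(b, c) ∈ (E : Set (Sym2 V)) := by
          simp only [E, Finset.coe_image, Set.mem_image, Finset.mem_coe]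
          rcases hf' with ⟨rfl, rfl⟩ | ⟨rfl, rfl⟩
          · exact ⟨f, hf, rfl⟩
          · exact ⟨f, hf, Sym2.eq_swap⟩
        have : G.Adj b c := (SimpleGraph.fromEdgeSet_adj _).2 ⟨hmem, hbc⟩
        exact this.reachable
  have hG' : G.Connected := { preconnected := hG, nonempty := hV }
  have h1 := hG'.card_vert_le_card_edgeSet_add_one
  have h2 : Nat.card G.edgeSet ≤ T.card := by
    have hsub : G.edgeSet ⊆ (E : Set (Sym2 V)) := by
      intro e he
      simp only [G, SimpleGraph.edgeSet_fromEdgeSet] at he
      exact he.1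
    have hle : G.edgeSet.ncard ≤ (E : Set (Sym2 V)).ncard :=
      Set.ncard_le_ncard hsub (Finset.finite_toSet E)
    rw [Set.ncard_coe_finset] at hle
    have : Nat.card G.edgeSet = G.edgeSet.ncard := by
      rw [Set.ncard_eq_toFinset_card', Nat.card_eq_fintype_card, Set.toFinset_card]
    rw [this]
    exact hle.trans Finset.card_image_le
  rw [Nat.card_eq_fintype_card] at h1
  omega

lemma IsSpanTree.conn (hT : IsSpanTree u v T) (x y : V) : Conn u v T x y := hT.2 x y

/-- An edge of a spanning tree is a bridge. -/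
lemma IsSpanTree.not_conn_erase (hT : IsSpanTree u v T) {f : F} (hf : f ∈ T) :
    ¬ Conn u v (T.erase f) (u f) (v f) := by
  intro h
  have hall : ∀ x y, Conn u v (T.erase f) x y := by
    intro x y
    have hxy := hT.conn x y
    induction hxy with
    | refl => exact Conn.refl _
    | @tail b c _ hs ih =>
      refine ih.trans ?_
      obtain ⟨g, hg, hg'⟩ := hs
      by_cases hgf : g = f
      · subst hgf
        rcases hg' with ⟨rfl, rfl⟩ | ⟨rfl, rfl⟩
        · exact h
        · exact h.symm
      · exact Relation.ReflTransGen.single ⟨g, Finset.mem_erase.2 ⟨hgf, hg⟩, hg'⟩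
  have h1 := card_le_of_conn _ hall
  rw [Finset.card_erase_of_mem hf] at h1
  have h2 := hT.1
  have h3 : 0 < T.card := Finset.card_pos.2 ⟨f, hf⟩
  omega

/-- Removing an edge of a spanning tree leaves every vertex connected to one of its ends. -/
lemma IsSpanTree.conn_split (hT : IsSpanTree u v T) {f : F} (hf : f ∈ T) (z : V) :
    Conn u v (T.erase f) (u f) z ∨ Conn u v (T.erase f) (v f) z := by
  have hxy := hT.conn (u f) z
  induction hxy with
  | refl => exact Or.inl (Conn.refl _)
  | @tail b c _ hs ih =>
    obtain ⟨g, hg, hg'⟩ := hs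
    by_cases hgf : g = f
    · subst hgf
      rcases hg' with ⟨rfl, rfl⟩ | ⟨rfl, rfl⟩
      · exact Or.inr (Conn.refl _)
      · exact Or.inl (Conn.refl _)
    · have hst : Conn u v (T.erase f) b c :=
        Relation.ReflTransGen.single ⟨g, Finset.mem_erase.2 ⟨hgf, hg⟩, hg'⟩
      exact ih.imp (fun h => h.trans hst) (fun h => h.trans hst)

/-- Exactly one end of an edge of a spanning tree reaches a given vertex after its removal. -/
lemma IsSpanTree.conn_v_iff (hT : IsSpanTree u v T) {f : F} (hf : f ∈ T) (z : V) :
    Conn u v (T.erase f) (v f) z ↔ ¬ Conn u v (T.erase f) (u f) z := by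
  constructor
  · intro h h'
    exact hT.not_conn_erase hf (h'.trans h.symm)
  · intro h
    exact (hT.conn_split hf z).resolve_left h

/-- Two different tree edges at `x` cannot both separate `x` from `z`. -/
lemma IsSpanTree.sep_unique (hT : IsSpanTree u v T) {f₁ f₂ : F} (hf₁ : f₁ ∈ T) (hf₂ : f₂ ∈ T)
    (h12 : f₁ ≠ f₂) {x : V} (hx₁ : u f₁ = x ∨ v f₁ = x) (hx₂ : u f₂ = x ∨ v f₂ = x) (z : V) :
    Conn u v (T.erase f₁) x z ∨ Conn u v (T.erase f₂) x z := by
  have hmem₂ : f₂ ∈ T.erase f₁ := Finset.mem_erase.2 ⟨h12.symm, hf₂⟩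
  have hmem₁ : f₁ ∈ T.erase f₂ := Finset.mem_erase.2 ⟨h12, hf₁⟩
  have key : ∀ y₀, Conn u v (T.erase f₁) x y₀ → ∀ y, Conn u v (T.erase f₂) y₀ y →
      Conn u v (T.erase f₁) x y ∨ Conn u v (T.erase f₂) x y := by
    intro y₀ hy₀ y hy
    induction hy with
    | refl => exact Or.inl hy₀
    | @tail b c _ hs ih =>
      obtain ⟨g, hg, hg'⟩ := hs
      have hg₂ := Finset.mem_erase.1 hg
      by_cases hgf : g = f₁
      · subst hgf
        refine Or.inr (Conn.ends hmem₁ hx₁ ?_)
        rcases hg' with ⟨_, rfl⟩ | ⟨rfl, _⟩
        · exact Or.inr rfl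
        · exact Or.inl rfl
      · have hst₁ : Conn u v (T.erase f₁) b c :=
          Relation.ReflTransGen.single ⟨g, Finset.mem_erase.2 ⟨hgf, hg₂.2⟩, hg'⟩
        have hst₂ : Conn u v (T.erase f₂) b c := Relation.ReflTransGen.single ⟨g, hg, hg'⟩
        exact ih.imp (fun h => h.trans hst₁) (fun h => h.trans hst₂)
  rcases hT.conn_split hf₂ z with h | h
  · exact key _ (Conn.ends hmem₂ hx₂ (Or.inl rfl)) _ h
  · exact key _ (Conn.ends hmem₂ hx₂ (Or.inr rfl)) _ h

/-- Some tree edge at `x` separates `x` from any other vertex. -/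
lemma IsSpanTree.sep_exists (hT : IsSpanTree u v T) {x z : V} (hz : z ≠ x) :
    ∃ f ∈ T, (u f = x ∨ v f = x) ∧ ¬ Conn u v (T.erase f) x z := by
  have key : ∀ z, Conn u v T x z →
      z = x ∨ ∃ f ∈ T, (u f = x ∨ v f = x) ∧ ¬ Conn u v (T.erase f) x z := by
    intro z hxz
    induction hxz with
    | refl => exact Or.inl rfl
    | @tail b c _ hs ih =>
      obtain ⟨g, hg, hg'⟩ := hs
      rcases ih with rfl | ⟨f, hf, hfx, hn⟩
      · -- `b` is the start vertex
        by_cases hcb : c = b
        · exact Or.inl hcb
        · refine Or.inr ⟨g, hg, ?_, ?_⟩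
          · rcases hg' with ⟨h, _⟩ | ⟨_, h⟩
            · exact Or.inl h
            · exact Or.inr h
          · have := hT.not_conn_erase hg
            rcases hg' with ⟨rfl, rfl⟩ | ⟨rfl, rfl⟩
            · exact this
            · exact fun h => this h.symm
      · by_cases hgf : g = f
        · subst hgf
          -- `b` is an end of `g`, different from the start
          have hbx : b ≠ x := by
            rintro rfl
            exact hn (Conn.refl _)
          left
          rcases hg' with ⟨rfl, rfl⟩ | ⟨rfl, rfl⟩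
          · rcases hfx with h | h
            · exact absurd h hbx
            · exact h
          · rcases hfx with h | h
            · exact h
            · exact absurd h hbx
        · refine Or.inr ⟨f, hf, hfx, fun h => hn ?_⟩
          have hst : Conn u v (T.erase f) c b :=
            Relation.ReflTransGen.single ⟨g, Finset.mem_erase.2 ⟨hgf, hg⟩, by tauto⟩
          exact h.trans hst
  exact (key z (hT.conn x z)).resolve_left hz


/-! ### Indicator values -/

open Classical in
/-- Real indicator of a proposition. -/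
noncomputable def ind (P : Prop) : ℝ := if P then 1 else 0

lemma ind_true {P : Prop} (h : P) : ind P = 1 := by simp [ind, h]
lemma ind_false {P : Prop} (h : ¬ P) : ind P = 0 := by simp [ind, h]
lemma ind_not (P : Prop) : ind (¬ P) = 1 - ind P := by
  by_cases h : P <;> simp [ind, h]
lemma ind_congr {P Q : Prop} (h : P ↔ Q) : ind P = ind Q := by
  rw [propext h]

/-- The incidence number of the edge `f` at `x`, oriented from `u f` to `v f`. -/
noncomputable def inc (u v : F → V) (x : V) (f : F) : ℝ := ind (u f = x) - ind (v f = x)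

/-- Indicator of the side of `u f` after removing `f` from `T`. -/
noncomputable def side (u v : F → V) (T : Finset F) (f : F) (z : V) : ℝ :=
  ind (Conn u v (T.erase f) (u f) z)

/-- The number of edges of the tree `T` at `x` that separate `x` from `z` is `1` or `0`. -/
lemma IsSpanTree.sum_sep (hT : IsSpanTree u v T) (x z : V) :
    ∑ f ∈ T, ind ((u f = x ∨ v f = x) ∧ ¬ Conn u v (T.erase f) x z) = ind (x ≠ z) := by
  classical
  by_cases hxz : x = z
  · subst hxz
    rw [ind_false (by simp)]
    refine Finset.sum_eq_zero fun f _ => ind_false ?_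
    exact fun h => h.2 (Conn.refl _)
  · rw [ind_true hxz]
    obtain ⟨f, hf, hfx, hn⟩ := hT.sep_exists (Ne.symm hxz)
    rw [Finset.sum_eq_single f]
    · exact ind_true ⟨hfx, hn⟩
    · intro g hg hgf
      refine ind_false ?_
      rintro ⟨hgx, hgn⟩
      rcases hT.sep_unique hg hf hgf hgx hfx z with h | h
      · exact hgn h
      · exact hn h
    · exact fun h => absurd hf h

/-- Divergence of the flow of a single spanning tree. -/
lemma IsSpanTree.tree_div (hne : ∀ f, u f ≠ v f) (hT : IsSpanTree u v T) (s t x : V) :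
    ∑ f ∈ T, (side u v T f s - side u v T f t) * inc u v x f = ind (x = s) - ind (x = t) := by
  have hterm : ∀ f ∈ T, (side u v T f s - side u v T f t) * inc u v x f
      = ind ((u f = x ∨ v f = x) ∧ ¬ Conn u v (T.erase f) x t)
        - ind ((u f = x ∨ v f = x) ∧ ¬ Conn u v (T.erase f) x s) := by
    intro f hf
    unfold side inc
    by_cases hu : u f = x
    · subst hu
      have hv : v f ≠ u f := (hne f).symm
      rw [ind_true rfl, ind_false hv]
      have e : ∀ z, ind ((u f = u f ∨ v f = u f) ∧ ¬ Conn u v (T.erase f) (u f) z)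
          = 1 - ind (Conn u v (T.erase f) (u f) z) := by
        intro z
        rw [← ind_not]
        exact ind_congr ⟨fun h => h.2, fun h => ⟨Or.inl rfl, h⟩⟩
      rw [e, e]; ring
    · by_cases hv : v f = x
      · subst hv
        rw [ind_false hu, ind_true rfl]
        have e : ∀ z, ind ((u f = v f ∨ v f = v f) ∧ ¬ Conn u v (T.erase f) (v f) z)
            = ind (Conn u v (T.erase f) (u f) z) := by
          intro z
          refine ind_congr ⟨fun h => ?_, fun h => ⟨Or.inr rfl, ?_⟩⟩
          · exact not_not.1 (fun h' => h.2 ((hT.conn_v_iff hf z).2 h'))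
          · exact fun h' => (hT.conn_v_iff hf z).1 h' h
        rw [e, e]; ring
      · rw [ind_false hu, ind_false hv]
        have e : ∀ z, ind ((u f = x ∨ v f = x) ∧ ¬ Conn u v (T.erase f) x z) = 0 :=
          fun z => ind_false (fun h => h.1.elim hu hv)
        rw [e, e]; ring
  rw [Finset.sum_congr rfl hterm, Finset.sum_sub_distrib, hT.sum_sep, hT.sum_sep]
  rw [ind_congr (P := x ≠ t) (Q := ¬ (x = t)) Iff.rfl, ind_congr (P := x ≠ s) (Q := ¬ (x = s)) Iff.rfl,
    ind_not, ind_not]
  ring


/-! ### The current: tree average of tree flows, and its potential -/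

open Classical in
/-- Spanning trees, as a finset. -/
noncomputable def treeSet (u v : F → V) : Finset (Finset F) :=
  Finset.univ.filter (fun T => IsSpanTree u v T)

lemma mem_treeSet {T : Finset F} : T ∈ treeSet u v ↔ IsSpanTree u v T := by
  simp [treeSet]

/-- Weight of an edge set. -/
def wt (c : F → ℝ) (T : Finset F) : ℝ := ∏ f ∈ T, c f

lemma wt_pos {c : F → ℝ} (hc : ∀ f, 0 < c f) (T : Finset F) : 0 < wt c T :=
  Finset.prod_pos fun f _ => hc f

/-- Flow of the tree `T` from `s` to `t` along the edge `f`. -/
noncomputable def treeFlow (u v : F → V) (s t : V) (T : Finset F) (f : F) : ℝ :=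
  ind (f ∈ T) * (side u v T f s - side u v T f t)

/-- The edge sets with `|V| - 2` edges such that every vertex is connected to `s` or to `t`. -/
noncomputable def forestSet (u v : F → V) (s t : V) : Finset (Finset F) := by
  classical
  exact Finset.univ.filter
    (fun A => A.card + 2 = Fintype.card V ∧ ∀ z, Conn u v A s z ∨ Conn u v A t z)

lemma mem_forestSet {s t : V} {A : Finset F} : A ∈ forestSet u v s t ↔
    A.card + 2 = Fintype.card V ∧ ∀ z, Conn u v A s z ∨ Conn u v A t z := by
  classical
  simp [forestSet]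

/-- Ohm's law in combinatorial form. -/
lemma ohm_sum (c : F → ℝ) (s t : V) (f : F) :
    ∑ T ∈ treeSet u v, wt c T * treeFlow u v s t T f
      = c f * ∑ A ∈ forestSet u v s t,
          wt c A * (ind (Conn u v A s (u f)) - ind (Conn u v A s (v f))) := by
  classical
  -- restrict to nonzero terms on both sides
  let L : Finset (Finset F) := (treeSet u v).filter (fun T => f ∈ T ∧ 
      ¬ (Conn u v (T.erase f) (u f) s ↔ Conn u v (T.erase f) (u f) t))
  let R : Finset (Finset F) := (forestSet u v s t).filter (fun A =>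
      ¬ (Conn u v A s (u f) ↔ Conn u v A s (v f)))
  have hL : ∑ T ∈ treeSet u v, wt c T * treeFlow u v s t T f
      = ∑ T ∈ L, wt c T * treeFlow u v s t T f := by
    symm
    refine Finset.sum_subset (Finset.filter_subset _ _) ?_
    intro T hT hTL
    have hnot : ¬ (f ∈ T ∧ ¬ (Conn u v (T.erase f) (u f) s ↔ Conn u v (T.erase f) (u f) t)) :=
      fun h => hTL (Finset.mem_filter.2 ⟨hT, h⟩)
    unfold treeFlow side
    by_cases hf : f ∈ T
    · have hiff : Conn u v (T.erase f) (u f) s ↔ Conn u v (T.erase f) (u f) t := by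
        by_contra h; exact hnot ⟨hf, h⟩
      rw [ind_congr hiff]; ring
    · rw [ind_false hf]; ring
  have hR : ∑ A ∈ forestSet u v s t,
        wt c A * (ind (Conn u v A s (u f)) - ind (Conn u v A s (v f)))
      = ∑ A ∈ R, wt c A * (ind (Conn u v A s (u f)) - ind (Conn u v A s (v f))) := by
    symm
    refine Finset.sum_subset (Finset.filter_subset _ _) ?_
    intro A hA hAR
    have hiff : Conn u v A s (u f) ↔ Conn u v A s (v f) := by
      by_contra h; exact hAR (Finset.mem_filter.2 ⟨hA, h⟩)
    rw [ind_congr hiff]; ring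
  rw [hL, hR, Finset.mul_sum]
  refine Finset.sum_nbij' (fun T => T.erase f) (fun A => insert f A) ?_ ?_ ?_ ?_ ?_
  · -- erasing maps `L` to `R`
    intro T hT
    obtain ⟨hT1, hfT, hsep⟩ := Finset.mem_filter.1 hT
    have hT' := mem_treeSet.1 hT1
    have hc := Finset.card_erase_of_mem hfT
    have hpos : 0 < T.card := Finset.card_pos.2 ⟨f, hfT⟩
    have hcard := hT'.1
    have hsplit := hT'.conn_split hfT
    have hbr := hT'.not_conn_erase hfT
    refine Finset.mem_filter.2 ⟨mem_forestSet.2 ⟨by omega, ?_⟩, ?_⟩
    · intro z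
      by_cases h1 : Conn u v (T.erase f) (u f) s
      · have h2 : ¬ Conn u v (T.erase f) (u f) t := fun h => hsep ⟨fun _ => h, fun _ => h1⟩
        have h3 : Conn u v (T.erase f) (v f) t := (hT'.conn_v_iff hfT t).2 h2
        rcases hsplit z with h | h
        · exact Or.inl (h1.symm.trans h)
        · exact Or.inr (h3.symm.trans h)
      · have h2 : Conn u v (T.erase f) (u f) t := by
          by_contra h
          exact hsep ⟨fun h' => absurd h' h1, fun h' => absurd h' h⟩
        have h3 : Conn u v (T.erase f) (v f) s := (hT'.conn_v_iff hfT s).2 h1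
        rcases hsplit z with h | h
        · exact Or.inr (h2.symm.trans h)
        · exact Or.inl (h3.symm.trans h)
    · intro hiff
      by_cases h1 : Conn u v (T.erase f) (u f) s
      · exact hbr (h1.trans (hiff.1 h1.symm))
      · have h3 : Conn u v (T.erase f) (v f) s := (hT'.conn_v_iff hfT s).2 h1
        exact h1 (hiff.2 h3.symm).symm
  · -- inserting maps `R` to `L`
    intro A hA
    obtain ⟨hA1, hsep⟩ := Finset.mem_filter.1 hA
    obtain ⟨hcard, hcov⟩ := mem_forestSet.1 hA1
    have hfA : f ∉ A := by
      intro hf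
      apply hsep
      have hst : Conn u v A (u f) (v f) := Conn.of_mem hf
      exact ⟨fun h => h.trans hst, fun h => h.trans hst.symm⟩
    have herase : (insert f A).erase f = A := Finset.erase_insert hfA
    have hfm : Conn u v (insert f A) (u f) (v f) := Conn.of_mem (Finset.mem_insert_self f A)
    have hsub : A ⊆ insert f A := Finset.subset_insert f A
    have hconn_st : Conn u v (insert f A) s t := by
      by_cases h1 : Conn u v A s (u f)
      · have h2 : ¬ Conn u v A s (v f) := fun h => hsep ⟨fun _ => h, fun _ => h1⟩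
        have h3 : Conn u v A t (v f) := (hcov (v f)).resolve_left h2
        exact (h1.mono hsub).trans (hfm.trans (h3.mono hsub).symm)
      · have h2 : Conn u v A s (v f) := by
          by_contra h
          exact hsep ⟨fun h' => absurd h' h1, fun h' => absurd h' h⟩
        have h3 : Conn u v A t (u f) := (hcov (u f)).resolve_left h1
        exact (h2.mono hsub).trans (hfm.symm.trans (h3.mono hsub).symm)
    have hTree : IsSpanTree u v (insert f A) := by
      refine ⟨by rw [Finset.card_insert_of_notMem hfA]; omega, ?_⟩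
      have hs : ∀ z, Conn u v (insert f A) s z := by
        intro z
        rcases hcov z with h | h
        · exact h.mono hsub
        · exact hconn_st.trans (h.mono hsub)
      intro x y
      exact (hs x).symm.trans (hs y)
    refine Finset.mem_filter.2 ⟨mem_treeSet.2 hTree, Finset.mem_insert_self f A, ?_⟩
    rw [herase]
    intro hiff
    by_cases h1 : Conn u v A s (u f)
    · have h2 : ¬ Conn u v A s (v f) := fun h => hsep ⟨fun _ => h, fun _ => h1⟩
      have h3 : Conn u v A t (v f) := (hcov (v f)).resolve_left h2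
      exact h2 (h1.trans ((hiff.1 h1.symm).trans h3))
    · have h3 : Conn u v A t (u f) := (hcov (u f)).resolve_left h1
      exact h1 (hiff.2 h3.symm).symm
  · -- left inverse
    intro T hT
    obtain ⟨_, hfT, _⟩ := Finset.mem_filter.1 hT
    exact Finset.insert_erase hfT
  · -- right inverse
    intro A hA
    obtain ⟨hA1, hsep⟩ := Finset.mem_filter.1 hA
    have hfA : f ∉ A := by
      intro hf
      apply hsep
      have hst : Conn u v A (u f) (v f) := Conn.of_mem hf
      exact ⟨fun h => h.trans hst, fun h => h.trans hst.symm⟩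
    exact Finset.erase_insert hfA
  · -- values
    intro T hT
    obtain ⟨hT1, hfT, hsep⟩ := Finset.mem_filter.1 hT
    have hT' := mem_treeSet.1 hT1
    have hw : wt c T = c f * wt c (T.erase f) := by
      unfold wt
      rw [Finset.mul_prod_erase T c hfT]
    have hbr := hT'.not_conn_erase hfT
    unfold treeFlow side
    rw [ind_true hfT, hw]
    have hval : ind (Conn u v (T.erase f) (u f) s) - ind (Conn u v (T.erase f) (u f) t)
        = ind (Conn u v (T.erase f) s (u f)) - ind (Conn u v (T.erase f) s (v f)) := by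
      by_cases h1 : Conn u v (T.erase f) (u f) s
      · have h2 : ¬ Conn u v (T.erase f) (u f) t := fun h => hsep ⟨fun _ => h, fun _ => h1⟩
        have h3 : ¬ Conn u v (T.erase f) s (v f) := fun h => hbr (h1.trans h)
        rw [ind_true h1, ind_false h2, ind_true h1.symm, ind_false h3]
      · have h2 : Conn u v (T.erase f) (u f) t := by
          by_contra h
          exact hsep ⟨fun h' => absurd h' h1, fun h' => absurd h' h⟩
        have h3 : Conn u v (T.erase f) (v f) s := (hT'.conn_v_iff hfT s).2 h1
        have h4 : ¬ Conn u v (T.erase f) s (u f) := fun h => h1 h.symm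
        rw [ind_false h1, ind_true h2, ind_false h4, ind_true h3.symm]
    rw [hval]
    ring


/-! ### The current -/

section Current

variable (u v) (c : F → ℝ)

/-- The total weight of the spanning trees. -/
noncomputable def Ztot : ℝ := ∑ T ∈ treeSet u v, wt c T

/-- The current from `s` to `t` along `f`. -/
noncomputable def curr (s t : V) (f : F) : ℝ :=
  (∑ T ∈ treeSet u v, wt c T * treeFlow u v s t T f) / Ztot u v c

/-- The potential of the current from `s` to `t`. -/
noncomputable def pot (s t : V) (x : V) : ℝ :=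
  (∑ A ∈ forestSet u v s t, wt c A * ind (Conn u v A s x)) / Ztot u v c

/-- Divergence of an edge function at `x`. -/
noncomputable def dvg (ψ : F → ℝ) (x : V) : ℝ := ∑ f, ψ f * inc u v x f

variable {u v c}

lemma Ztot_pos (hex : ∃ T, IsSpanTree u v T) (hc : ∀ f, 0 < c f) : 0 < Ztot u v c := by
  obtain ⟨T, hT⟩ := hex
  exact Finset.sum_pos (fun T _ => wt_pos hc T) ⟨T, mem_treeSet.2 hT⟩

/-- Ohm's law. -/
lemma curr_eq (hex : ∃ T, IsSpanTree u v T) (hc : ∀ f, 0 < c f) (s t : V) (f : F) :
    curr u v c s t f = c f * (pot u v c s t (u f) - pot u v c s t (v f)) := by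
  unfold curr pot
  rw [ohm_sum c s t f, ← sub_div, ← Finset.sum_sub_distrib, mul_div_assoc]
  congr 2
  exact Finset.sum_congr rfl fun A _ => by ring

/-- The current is a unit flow from `s` to `t`. -/
lemma dvg_curr (hne : ∀ f, u f ≠ v f) (hex : ∃ T, IsSpanTree u v T) (hc : ∀ f, 0 < c f)
    (s t x : V) : dvg u v (curr u v c s t) x = ind (x = s) - ind (x = t) := by
  have hZ := Ztot_pos hex hc
  unfold dvg curr
  have h1 : ∀ f, (∑ T ∈ treeSet u v, wt c T * treeFlow u v s t T f) / Ztot u v c * inc u v x f
      = (∑ T ∈ treeSet u v, wt c T * (treeFlow u v s t T f * inc u v x f)) / Ztot u v c := by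
    intro f
    rw [div_mul_eq_mul_div, Finset.sum_mul]
    congr 1
    exact Finset.sum_congr rfl fun T _ => by ring
  simp_rw [h1]
  rw [← Finset.sum_div, Finset.sum_comm]
  have h2 : ∀ T ∈ treeSet u v, ∑ f, wt c T * (treeFlow u v s t T f * inc u v x f)
      = wt c T * (ind (x = s) - ind (x = t)) := by
    intro T hT
    have hT' := mem_treeSet.1 hT
    rw [← Finset.mul_sum, ← hT'.tree_div hne s t x]
    congr 1
    unfold treeFlow
    have : ∑ f, ind (f ∈ T) * (side u v T f s - side u v T f t) * inc u v x f
        = ∑ f ∈ T, ind (f ∈ T) * (side u v T f s - side u v T f t) * inc u v x f := by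
      symm
      refine Finset.sum_subset (Finset.subset_univ T) fun f _ hf => ?_
      rw [ind_false hf]; ring
    rw [this]
    exact Finset.sum_congr rfl fun f hf => by rw [ind_true hf]; ring
  rw [Finset.sum_congr rfl h2, ← Finset.sum_mul]
  unfold Ztot at hZ ⊢
  field_simp

/-- Value of the current on the edge from `s` to `t`: the edge probability. -/
lemma curr_self (hex : ∃ T, IsSpanTree u v T) (e : F) :
    curr u v c (u e) (v e) e = treeSum u v c (fun T => e ∈ T) / treeSum u v c (fun _ => True) := by
  classical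
  have hZ : treeSum u v c (fun _ => True) = Ztot u v c := by
    unfold treeSum Ztot treeSet wt
    simp
  rw [hZ]
  unfold curr
  congr 1
  have hf : treeSum u v c (fun T => e ∈ T)
      = ∑ T ∈ (treeSet u v).filter (fun T => e ∈ T), wt c T := by
    unfold treeSum wt
    refine Finset.sum_congr ?_ (fun _ _ => rfl)
    ext T; simp [treeSet]
  rw [hf, Finset.sum_filter]
  refine Finset.sum_congr rfl fun T hT => ?_
  have hT' := mem_treeSet.1 hT
  by_cases he : e ∈ T
  · rw [if_pos he]
    unfold treeFlow side
    rw [ind_true he, ind_true (Conn.refl _), ind_false (hT'.not_conn_erase he)]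
    unfold wt
    ring
  · rw [if_neg he]
    unfold treeFlow
    rw [ind_false he]
    ring

/-- Summation by parts against a potential. -/
lemma sum_mul_grad (ψ : F → ℝ) (φ : V → ℝ) :
    ∑ f, ψ f * (φ (u f) - φ (v f)) = ∑ x, φ x * dvg u v ψ x := by
  unfold dvg inc
  simp_rw [Finset.mul_sum]
  rw [Finset.sum_comm]
  refine Finset.sum_congr rfl fun f _ => ?_
  have h1 : ∑ x, φ x * (ψ f * (ind (u f = x) - ind (v f = x))) = ψ f * (∑ x, φ x * ind (u f = x)
      - ∑ x, φ x * ind (v f = x)) := by
    rw [← Finset.sum_sub_distrib, Finset.mul_sum]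
    exact Finset.sum_congr rfl fun x _ => by ring
  rw [h1]
  have h2 : ∀ a : V, ∑ x, φ x * ind (a = x) = φ a := by
    intro a
    rw [Finset.sum_eq_single a]
    · rw [ind_true rfl, mul_one]
    · intro b _ hb
      rw [ind_false (Ne.symm hb), mul_zero]
    · exact fun h => absurd (Finset.mem_univ a) h
  rw [h2, h2]

/-- Against a unit flow, a gradient pairs to the potential difference. -/
lemma sum_mul_grad_of_flow {ψ : F → ℝ} {s t : V} (hψ : ∀ x, dvg u v ψ x = ind (x = s) - ind (x = t))
    (φ : V → ℝ) : ∑ f, ψ f * (φ (u f) - φ (v f)) = φ s - φ t := by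
  rw [sum_mul_grad]
  simp_rw [hψ]
  simp_rw [mul_sub]
  rw [Finset.sum_sub_distrib]
  have h2 : ∀ a : V, ∑ x, φ x * ind (x = a) = φ a := by
    intro a
    rw [Finset.sum_eq_single a]
    · rw [ind_true rfl, mul_one]
    · intro b _ hb
      rw [ind_false hb, mul_zero]
    · exact fun h => absurd (Finset.mem_univ a) h
  rw [h2, h2]

/-- The energy of an edge function. -/
noncomputable def energy (c : F → ℝ) (ψ : F → ℝ) : ℝ := ∑ f, ψ f ^ 2 / c f

/-- The effective resistance between `s` and `t`. -/
noncomputable def resist (u v : F → V) (c : F → ℝ) (s t : V) : ℝ := pot u v c s t s - pot u v c s t t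

/-- Pairing of a unit flow with the current. -/
lemma pair_curr (hex : ∃ T, IsSpanTree u v T) (hc : ∀ f, 0 < c f) {s t : V} {ψ : F → ℝ}
    (hψ : ∀ x, dvg u v ψ x = ind (x = s) - ind (x = t)) :
    ∑ f, ψ f * curr u v c s t f / c f = resist u v c s t := by
  unfold resist
  rw [← sum_mul_grad_of_flow hψ]
  refine Finset.sum_congr rfl fun f _ => ?_
  rw [curr_eq hex hc]
  have := (hc f).ne'
  field_simp

/-- Energy of the current. -/
lemma energy_curr (hne : ∀ f, u f ≠ v f) (hex : ∃ T, IsSpanTree u v T) (hc : ∀ f, 0 < c f)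
    (s t : V) : energy c (curr u v c s t) = resist u v c s t := by
  rw [← pair_curr hex hc (dvg_curr hne hex hc s t)]
  unfold energy
  exact Finset.sum_congr rfl fun f _ => by ring

/-- Cauchy-Schwarz for the energy pairing. -/
lemma pair_sq_le (hc : ∀ f, 0 < c f) (a b : F → ℝ) :
    (∑ f, a f * b f / c f) ^ 2 ≤ energy c a * energy c b := by
  unfold energy
  have := Finset.sum_mul_sq_le_sq_mul_sq Finset.univ (fun f => a f / Real.sqrt (c f))
    (fun f => b f / Real.sqrt (c f))
  have hs : ∀ f, Real.sqrt (c f) ^ 2 = c f := fun f => Real.sq_sqrt (hc f).le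
  have hs' : ∀ f, Real.sqrt (c f) ≠ 0 := fun f => (Real.sqrt_pos.2 (hc f)).ne'
  have e1 : ∀ f, a f / Real.sqrt (c f) * (b f / Real.sqrt (c f)) = a f * b f / c f := by
    intro f
    rw [div_mul_div_comm, ← sq, hs]
  have e2 : ∀ (a : F → ℝ) f, (a f / Real.sqrt (c f)) ^ 2 = a f ^ 2 / c f := by
    intro a f
    rw [div_pow, hs]
  simp_rw [e1, e2] at this
  exact this

/-- Thomson's principle: the current minimises the energy among unit flows. -/
lemma thomson (hne : ∀ f, u f ≠ v f) (hex : ∃ T, IsSpanTree u v T) (hc : ∀ f, 0 < c f) {s t : V}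
    {ψ : F → ℝ} (hψ : ∀ x, dvg u v ψ x = ind (x = s) - ind (x = t)) :
    resist u v c s t ≤ energy c ψ := by
  have h1 := pair_sq_le hc ψ (curr u v c s t)
  rw [pair_curr hex hc hψ, energy_curr hne hex hc] at h1
  have h2 : 0 ≤ energy c ψ := Finset.sum_nonneg fun f _ => div_nonneg (sq_nonneg _) (hc f).le
  have h3 : 0 ≤ resist u v c s t := by
    rw [← energy_curr hne hex hc]
    exact Finset.sum_nonneg fun f _ => div_nonneg (sq_nonneg _) (hc f).le
  by_contra h
  push Not at h
  have h4 : 0 < resist u v c s t := lt_of_le_of_lt h2 h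
  nlinarith

/-- The edge probability is conductance times effective resistance. -/
lemma prob_eq (hne : ∀ f, u f ≠ v f) (hex : ∃ T, IsSpanTree u v T) (hc : ∀ f, 0 < c f) (e : F) :
    treeSum u v c (fun T => e ∈ T) / treeSum u v c (fun _ => True)
      = c e * resist u v c (u e) (v e) := by
  rw [← curr_self hex e, curr_eq hex hc]
  rfl

end Current

/-- Rayleigh-type bound in the sup norm of log conductances. -/
theorem rayleigh_lipschitz (u v : F → V) (hne : ∀ f, u f ≠ v f) (hex : ∃ T, IsSpanTree u v T)
    {c c' : F → ℝ} (hc : ∀ f, 0 < c f) (hc' : ∀ f, 0 < c' f) {κ : ℝ}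
    (h1 : ∀ f, c' f ≤ κ * c f) (h2 : ∀ f, c f ≤ κ * c' f) (e : F) :
    treeSum u v c' (fun T => e ∈ T) / treeSum u v c' (fun _ => True) ≤
      κ ^ 2 * (treeSum u v c (fun T => e ∈ T) / treeSum u v c (fun _ => True)) := by
  rw [prob_eq hne hex hc', prob_eq hne hex hc]
  have hκ : 0 < κ := by
    by_contra h
    push Not at h
    have := h2 e
    have h3 : κ * c' e ≤ 0 := mul_nonpos_of_nonpos_of_nonneg h (hc' e).le
    linarith [hc e]
  have hR : resist u v c' (u e) (v e) ≤ κ * resist u v c (u e) (v e) := by
    have hflow := dvg_curr (c := c) hne hex hc (u e) (v e)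
    have h3 := thomson hne hex hc' hflow
    refine h3.trans ?_
    rw [← energy_curr hne hex hc]
    unfold energy
    rw [Finset.mul_sum]
    refine Finset.sum_le_sum fun f _ => ?_
    rw [div_le_iff₀ (hc' f)]
    have := h2 f
    have h4 : curr u v c (u e) (v e) f ^ 2 / c f * c f ≤ curr u v c (u e) (v e) f ^ 2 / c f * (κ * c' f) :=
      mul_le_mul_of_nonneg_left this (div_nonneg (sq_nonneg _) (hc f).le)
    have h5 : curr u v c (u e) (v e) f ^ 2 / c f * c f = curr u v c (u e) (v e) f ^ 2 :=
      div_mul_cancel₀ _ (hc f).ne'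
    rw [h5] at h4
    calc curr u v c (u e) (v e) f ^ 2 ≤ curr u v c (u e) (v e) f ^ 2 / c f * (κ * c' f) := h4
      _ = κ * (curr u v c (u e) (v e) f ^ 2 / c f) * c' f := by ring
  have hR0 : 0 ≤ resist u v c' (u e) (v e) := by
    rw [← energy_curr hne hex hc']
    exact Finset.sum_nonneg fun f _ => div_nonneg (sq_nonneg _) (hc' f).le
  calc c' e * resist u v c' (u e) (v e) ≤ (κ * c e) * (κ * resist u v c (u e) (v e)) :=
        mul_le_mul (h1 e) hR hR0 (mul_pos hκ (hc e)).le
    _ = κ ^ 2 * (c e * resist u v c (u e) (v e)) := by ring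

end Vale.Agent.Lib.P143
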