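import Vale.Agent.Lib.P143.Solver

/-!
Exponential tilts of a measure on `I → Bool`, and the sup-norm Lipschitz drift they define.
-/

set_option linter.unusedSimpArgs false
set_option linter.unusedVariables false
set_option linter.unusedSectionVars false

open Filter MeasureTheory Finset Topology

namespace Vale.Agent.Lib.P143

noncomputable section

/-- The spin value attached to a Boolean. -/
def spin (b : Bool) : ℝ := if b then 1 else -1

lemma spin_sq (b : Bool) : spin b * spin b = 1 := by cases b <;> simp [spin]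

lemma abs_spin (b : Bool) : |spin b| = 1 := by cases b <;> simp [spin]

variable {I : Type*}

/-- The spin at `e`, as a measurable function. -/
lemma measurable_spin_apply (e : I) : Measurable fun σ : I → Bool => spin (σ e) := by
  have : Measurable spin := measurable_of_countable _ 
  exact this.comp (measurable_pi_apply e)

/-- Exponent of the tilt by `x` on `B`. -/
def tiltExp (B : Finset I) (x : I → ℝ) (σ : I → Bool) : ℝ := ∑ f ∈ B, x f * spin (σ f)

/-- Numerator of the tilted mean. -/
def tiltN (μ : Measure (I → Bool)) (B : Finset I) (e : I) (x : I → ℝ) : ℝ :=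
  ∫ σ, spin (σ e) * Real.exp (tiltExp B x σ) ∂μ

/-- Denominator of the tilted mean. -/
def tiltD (μ : Measure (I → Bool)) (B : Finset I) (x : I → ℝ) : ℝ :=
  ∫ σ, Real.exp (tiltExp B x σ) ∂μ

/-- The tilted mean of the spin at `e`, for the tilt by `x` on the finite set `B`. -/
def tiltM (μ : Measure (I → Bool)) (B : Finset I) (e : I) (x : I → ℝ) : ℝ :=
  tiltN μ B e x / tiltD μ B x

/-- All tilted means are `K`-Lipschitz in the sup norm. -/
def SupLip (μ : Measure (I → Bool)) (K : ℝ) : Prop :=
  ∀ (B : Finset I) (e : I) (x x' : I → ℝ) (a : ℝ), 0 ≤ a → (∀ f ∈ B, |x f - x' f| ≤ a) →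
    |tiltM μ B e x - tiltM μ B e x'| ≤ K * a

/-- The infinite-volume drift: the limsup of the tilted means along `Bs e`. -/
def drift (μ : Measure (I → Bool)) (Bs : I → ℕ → Finset I) (x : I → ℝ) (e : I) : ℝ :=
  limsup (fun R => tiltM μ (Bs e R) e x) atTop

lemma measurable_tiltExp (B : Finset I) : Measurable fun p : (I → ℝ) × (I → Bool) => tiltExp B p.1 p.2 := by
  unfold tiltExp
  refine Finset.measurable_sum _ fun f _ => ?_
  have h1 : Measurable fun p : (I → ℝ) × (I → Bool) => p.1 f :=
    (measurable_pi_apply f).comp measurable_fst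
  have h2 : Measurable fun p : (I → ℝ) × (I → Bool) => spin (p.2 f) :=
    (measurable_spin_apply f).comp measurable_snd
  exact h1.mul h2

lemma measurable_tiltExp_right (B : Finset I) (x : I → ℝ) : Measurable (tiltExp B x) :=
  (measurable_tiltExp B).comp (measurable_const.prodMk measurable_id)

lemma abs_tiltExp_le (B : Finset I) (x : I → ℝ) (σ : I → Bool) :
    |tiltExp B x σ| ≤ ∑ f ∈ B, |x f| := by
  unfold tiltExp
  refine (abs_sum_le_sum_abs _ _).trans (sum_le_sum fun f _ => ?_)
  rw [abs_mul, abs_spin, mul_one]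

lemma integrable_exp_tilt (μ : Measure (I → Bool)) [IsFiniteMeasure μ] (B : Finset I) (x : I → ℝ) :
    Integrable (fun σ => Real.exp (tiltExp B x σ)) μ := by
  refine Integrable.of_bound (C := Real.exp (∑ f ∈ B, |x f|))
    (Real.measurable_exp.comp (measurable_tiltExp_right B x)).aestronglyMeasurable ?_
  refine Eventually.of_forall fun σ => ?_
  rw [Real.norm_eq_abs, abs_of_pos (Real.exp_pos _)]
  exact Real.exp_le_exp.2 ((le_abs_self _).trans (abs_tiltExp_le B x σ))

lemma integrable_spin_exp_tilt (μ : Measure (I → Bool)) [IsFiniteMeasure μ] (B : Finset I) (e : I)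
    (x : I → ℝ) : Integrable (fun σ => spin (σ e) * Real.exp (tiltExp B x σ)) μ := by
  refine (integrable_exp_tilt μ B x).bdd_mul (c := 1) (measurable_spin_apply e).aestronglyMeasurable ?_
  exact Eventually.of_forall fun σ => by rw [Real.norm_eq_abs, abs_spin]

lemma tiltD_pos (μ : Measure (I → Bool)) [IsProbabilityMeasure μ] (B : Finset I) (x : I → ℝ) :
    0 < tiltD μ B x := by
  unfold tiltD
  have h := integral_exp_pos (μ := μ) (f := tiltExp B x) (integrable_exp_tilt μ B x)
  exact h

lemma abs_tiltN_le (μ : Measure (I → Bool)) [IsProbabilityMeasure μ] (B : Finset I) (e : I)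
    (x : I → ℝ) : |tiltN μ B e x| ≤ tiltD μ B x := by
  unfold tiltN tiltD
  rw [← Real.norm_eq_abs]
  refine (norm_integral_le_integral_norm _).trans (le_of_eq ?_)
  refine integral_congr_ae (Eventually.of_forall fun σ => ?_)
  simp [abs_spin, abs_of_pos (Real.exp_pos _)]

lemma abs_tiltM_le (μ : Measure (I → Bool)) [IsProbabilityMeasure μ] (B : Finset I) (e : I)
    (x : I → ℝ) : |tiltM μ B e x| ≤ 1 := by
  unfold tiltM
  rw [abs_div, abs_of_pos (tiltD_pos μ B x)]
  exact div_le_one_of_le₀ (abs_tiltN_le μ B e x) (tiltD_pos μ B x).le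

lemma tiltExp_congr {B : Finset I} {x x' : I → ℝ} (h : ∀ f ∈ B, x f = x' f) (σ : I → Bool) :
    tiltExp B x σ = tiltExp B x' σ := by
  unfold tiltExp
  exact sum_congr rfl fun f hf => by rw [h f hf]

lemma tiltM_congr (μ : Measure (I → Bool)) {B : Finset I} (e : I) {x x' : I → ℝ}
    (h : ∀ f ∈ B, x f = x' f) : tiltM μ B e x = tiltM μ B e x' := by
  unfold tiltM tiltN tiltD
  simp_rw [tiltExp_congr h]

lemma tiltM_mul_tiltD (μ : Measure (I → Bool)) [IsProbabilityMeasure μ] (B : Finset I) (e : I)
    (x : I → ℝ) : tiltM μ B e x * tiltD μ B x = tiltN μ B e x := by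
  unfold tiltM
  exact div_mul_cancel₀ _ (tiltD_pos μ B x).ne'

lemma measurable_tiltM (μ : Measure (I → Bool)) [IsProbabilityMeasure μ] (B : Finset I) (e : I) :
    Measurable (tiltM μ B e) := by
  have hD : Measurable fun x : I → ℝ => tiltD μ B x := by
    have : StronglyMeasurable (fun p : (I → ℝ) × (I → Bool) => Real.exp (tiltExp B p.1 p.2)) :=
      (Real.measurable_exp.comp (measurable_tiltExp B)).stronglyMeasurable
    exact (this.integral_prod_right' (ν := μ)).measurable
  have hN : Measurable fun x : I → ℝ => tiltN μ B e x := by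
    have : StronglyMeasurable (fun p : (I → ℝ) × (I → Bool) =>
        spin (p.2 e) * Real.exp (tiltExp B p.1 p.2)) :=
      (((measurable_spin_apply e).comp measurable_snd).mul
        (Real.measurable_exp.comp (measurable_tiltExp B))).stronglyMeasurable
    exact (this.integral_prod_right' (ν := μ)).measurable
  exact hN.div hD

variable (μ : Measure (I → Bool)) [IsProbabilityMeasure μ] (Bs : I → ℕ → Finset I)

lemma measurable_drift (e : I) : Measurable fun x => drift μ Bs x e :=
  Measurable.limsup fun R => measurable_tiltM μ _ e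

lemma drift_isDrift {K : ℝ} (hK : 0 < K) (hL : SupLip μ K) : IsDrift (drift μ Bs) K where
  pos := hK
  bdd := fun x e => abs_limsup_le fun R => abs_tiltM_le μ _ e x
  lip := fun x x' a h e =>
    limsup_sub_le (C := 1) (fun R => abs_tiltM_le μ _ e x) (fun R => abs_tiltM_le μ _ e x')
      fun R => hL _ e x x' a ((abs_nonneg _).trans (h e)) fun f _ => h f

/-- Invariance of tilts under a symmetry of the measure. -/
lemma tiltM_map (π : I ≃ I) (hμ : μ.map (fun σ => σ ∘ π) = μ) (B : Finset I) (e : I) (x : I → ℝ) :
    tiltM μ (B.map π.toEmbedding) (π e) x = tiltM μ B e (x ∘ π) := by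
  have hπ : Measurable fun σ : I → Bool => σ ∘ π := by
    refine measurable_pi_lambda _ fun f => measurable_pi_apply (π f)
  have hexp : ∀ σ : I → Bool, tiltExp (B.map π.toEmbedding) x σ = tiltExp B (x ∘ π) (σ ∘ π) := by
    intro σ
    unfold tiltExp
    rw [Finset.sum_map]
    rfl
  unfold tiltM tiltN tiltD
  congr 1
  · conv_rhs => rw [← hμ]
    rw [integral_map hπ.aemeasurable]
    · refine integral_congr_ae (Eventually.of_forall fun σ => ?_)
      simp only [hexp, Function.comp]
    · exact ((measurable_spin_apply e).mul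
        (Real.measurable_exp.comp (measurable_tiltExp_right B _))).aestronglyMeasurable
  · conv_rhs => rw [← hμ]
    rw [integral_map hπ.aemeasurable]
    · refine integral_congr_ae (Eventually.of_forall fun σ => ?_)
      simp only [hexp, Function.comp]
    · exact (Real.measurable_exp.comp (measurable_tiltExp_right B _)).aestronglyMeasurable

/-- Equivariance of the drift. -/
lemma drift_equivariant (π : I ≃ I) (hμ : μ.map (fun σ => σ ∘ π) = μ)
    (hBs : ∀ e R, Bs (π e) R = (Bs e R).map π.toEmbedding) (x : I → ℝ) (e : I) :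
    drift μ Bs x (π e) = drift μ Bs (x ∘ π) e := by
  unfold drift
  simp_rw [hBs, tiltM_map μ π hμ]

end

end Vale.Agent.Lib.P143
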