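import Vale.Agent.Lib.P143.Exhaust
import Vale.Agent.Lib.P143.Tilt

set_option linter.unusedSectionVars false
set_option linter.unusedVariables false
set_option linter.unusedSimpArgs false

/-!
The law of the uniform spanning tree of a finite connected subgraph, as a probability measure on
`G.edgeSet → Bool`: the determinantal formula for avoidance and the tilted means.
-/

open Finset MeasureTheory Filter Topology Matrix
open scoped ENNReal

namespace Vale.Agent.Lib.P143

noncomputable section

variable {V : Type*} {G : SimpleGraph V}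

namespace FS

variable (S : FS G)

open Classical in
/-- The spanning trees of `S`, in multigraph coordinates. -/
def trees : Finset (Finset S.H.edgeSet) := Finset.univ.filter (IsSpanTree (uH S.H) (vH S.H))

lemma mem_trees {T' : Finset S.H.edgeSet} : T' ∈ S.trees ↔ IsSpanTree (uH S.H) (vH S.H) T' := by
  simp [trees]

lemma trees_nonempty : S.trees.Nonempty := by
  obtain ⟨T', hT'⟩ := S.hex
  exact ⟨T', S.mem_trees.2 hT'⟩

lemma card_trees_pos : 0 < S.trees.card := Finset.card_pos.2 S.trees_nonempty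

/-- The ambient edge set of a tree. -/
def amb (T' : Finset S.H.edgeSet) : Finset (Sym2 V) := T'.map (Function.Embedding.subtype _)

lemma mem_amb {T' : Finset S.H.edgeSet} {e : Sym2 V} :
    e ∈ S.amb T' ↔ ∃ h : e ∈ S.H.edgeSet, (⟨e, h⟩ : S.H.edgeSet) ∈ T' := by
  simp [amb]

lemma amb_injective : Function.Injective S.amb := by
  intro T T' h
  exact Finset.map_injective _ h

lemma amb_sub (T' : Finset S.H.edgeSet) : ((S.amb T' : Finset (Sym2 V)) : Set (Sym2 V)) ⊆ S.H.edgeSet := by
  intro e he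
  obtain ⟨h, _⟩ := S.mem_amb.1 (Finset.mem_coe.1 he)
  exact h

lemma isSpanningTreeOf_amb (T' : Finset S.H.edgeSet) :
    IsSpanningTreeOf S.H (S.amb T') ↔ T' ∈ S.trees := by
  rw [S.mem_trees, isSpanTree_iff]
  rfl

open Classical in
/-- Trees of `S` in the sense of the definitions, counted with a property. -/
lemma ncard_trees (Q : Finset (Sym2 V) → Prop) :
    Set.ncard {T : Finset (Sym2 V) | IsSpanningTreeOf S.H T ∧ Q T} =
      (S.trees.filter (fun T' => Q (S.amb T'))).card := by
  classical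
  have himg : {T : Finset (Sym2 V) | IsSpanningTreeOf S.H T ∧ Q T} =
      S.amb '' (↑(S.trees.filter (fun T' => Q (S.amb T'))) : Set (Finset S.H.edgeSet)) := by
    ext T
    simp only [Set.mem_ofPred_eq, Set.mem_image, Finset.coe_filter, Finset.mem_coe]
    constructor
    · rintro ⟨hT, hQ⟩
      refine ⟨T.subtype (· ∈ S.H.edgeSet), ?_, ?_⟩
      all_goals
        have heq : S.amb (T.subtype (· ∈ S.H.edgeSet)) = T := by
          unfold amb
          rw [Finset.subtype_map]
          exact Finset.filter_true_of_mem fun e he => hT.1 (Finset.mem_coe.2 he)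
      · refine ⟨(S.isSpanningTreeOf_amb _).1 (by rw [heq]; exact hT), by rw [heq]; exact hQ⟩
      · exact heq
    · rintro ⟨T', ⟨hT', hQ⟩, rfl⟩
      exact ⟨(S.isSpanningTreeOf_amb T').2 hT', hQ⟩
  rw [himg, Set.ncard_image_of_injective _ S.amb_injective, Set.ncard_coe_finset]

open Classical in
/-- The uniform spanning tree probabilities in terms of the trees of `S`. -/
lemma ustProb_eq (F P : Finset (Sym2 V)) :
    ustProb S.H F P =
      ((S.trees.filter (fun T' => S.amb T' ∩ F = P)).card : ℝ) / (S.trees.card : ℝ) := by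
  classical
  unfold ustProb
  rw [S.ncard_trees (fun T => T ∩ F = P)]
  have := S.ncard_trees (fun _ => True)
  simp only [and_true, Finset.filter_true] at this
  rw [this]
  congr!

open Classical in
/-- The configuration of a tree. -/
def cfg (T' : Finset S.H.edgeSet) : G.edgeSet → Bool := fun e => decide (e.1 ∈ S.amb T')

lemma cfg_eq_true {T' : Finset S.H.edgeSet} {e : G.edgeSet} : S.cfg T' e = true ↔ e.1 ∈ S.amb T' := by
  simp [cfg]

/-- The law of the uniform spanning tree of `S`. -/
def law : Measure (G.edgeSet → Bool) :=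
  ((S.trees.card : ℝ≥0∞)⁻¹) • ∑ T' ∈ S.trees, Measure.dirac (S.cfg T')

instance isProbabilityMeasure_law : IsProbabilityMeasure S.law := by
  constructor
  have hN : (S.trees.card : ℝ≥0∞) ≠ 0 := by exact_mod_cast S.card_trees_pos.ne'
  have hT : (S.trees.card : ℝ≥0∞) ≠ ⊤ := ENNReal.natCast_ne_top _
  simp only [law, Measure.smul_apply, Measure.finsetSum_apply, measure_univ, smul_eq_mul,
    Finset.sum_const, nsmul_eq_mul, mul_one]
  exact ENNReal.inv_mul_cancel hN hT

variable [Countable V]

instance : Countable (Sym2 V) := by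
  unfold Sym2; infer_instance

/-- Integration against the law. -/
lemma integral_law (φ : (G.edgeSet → Bool) → ℝ) :
    ∫ σ, φ σ ∂S.law = (S.trees.card : ℝ)⁻¹ * ∑ T' ∈ S.trees, φ (S.cfg T') := by
  unfold law
  rw [integral_smul_measure, integral_finsetSum_measure]
  · simp only [integral_dirac]
    simp
  · intro T' _
    exact integrable_dirac (by simp)

open Classical in
/-- The probability of a measurable event. -/
lemma law_real (s : Set (G.edgeSet → Bool)) (hs : MeasurableSet s) :
    (S.law s).toReal =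
      ((S.trees.filter (fun T' => S.cfg T' ∈ s)).card : ℝ) / (S.trees.card : ℝ) := by
  classical
  have h1 : (S.law s).toReal = ∫ σ, s.indicator (fun _ => (1 : ℝ)) σ ∂S.law := by
    rw [integral_indicator hs]
    simp [Measure.real]
  rw [h1, integral_law]
  have : ∑ T' ∈ S.trees, s.indicator (fun _ => (1 : ℝ)) (S.cfg T') =
      ((S.trees.filter (fun T' => S.cfg T' ∈ s)).card : ℝ) := by
    rw [Finset.card_filter]
    push_cast
    refine Finset.sum_congr rfl fun T' _ => ?_
    simp [Set.indicator_apply]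
  rw [this]
  ring

/-- Avoiding a finite set of edges. -/
def _root_.Vale.Agent.Lib.P143.avoidSet (A : Finset G.edgeSet) : Set (G.edgeSet → Bool) :=
  {σ | ∀ a ∈ A, σ a = false}

omit [Countable V] in
lemma _root_.Vale.Agent.Lib.P143.measurableSet_avoidSet (A : Finset G.edgeSet) :
    MeasurableSet (avoidSet A) := by
  have : avoidSet A = ⋂ a ∈ A, (fun σ : G.edgeSet → Bool => σ a) ⁻¹' {false} := by
    ext σ; simp [avoidSet]
  rw [this]
  exact Finset.measurableSet_biInter _ fun a _ => (measurable_pi_apply a) (measurableSet_singleton _)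

open Classical in
lemma treeSum_one (P : Finset S.H.edgeSet → Prop) :
    treeSum (uH S.H) (vH S.H) (fun _ => 1) P = ((S.trees.filter P).card : ℝ) := by
  rw [treeSum_eq_filter, Finset.card_eq_sum_ones]
  push_cast
  refine Finset.sum_congr rfl fun T' _ => ?_
  simp

open Classical in
/-- The determinantal formula for the law of `S`. -/
theorem law_avoid (A : Finset G.edgeSet) (hA : ∀ a ∈ A, a.1 ∈ S.H.edgeSet) :
    (S.law (avoidSet A)).toReal = (Matrix.of fun a b : A => S.x a.1.1 b.1.1).det := by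
  classical
  let ι : A → S.H.edgeSet := fun a => ⟨a.1.1, hA a.1 a.2⟩
  have hι : Function.Injective ι := fun a b h =>
    Subtype.ext (Subtype.ext (congrArg (fun f : S.H.edgeSet => f.1) h))
  let A' : Finset S.H.edgeSet := Finset.univ.image ι
  have hdet := avoid_det (uH S.H) (vH S.H) S.root S.hex A'
  let e : A ≃ A' := Equiv.ofBijective (fun a => ⟨ι a, Finset.mem_image_of_mem ι (Finset.mem_univ a)⟩)
    ⟨fun a b h => hι (congrArg Subtype.val h), fun b => by
      obtain ⟨a, _, ha⟩ := Finset.mem_image.1 b.2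
      exact ⟨a, Subtype.ext ha⟩⟩
  have hM : (Matrix.of fun a b : A => S.x a.1.1 b.1.1) =
      (Matrix.of fun a b : A' => xf (uH S.H) (vH S.H) S.root (a : S.H.edgeSet) (b : S.H.edgeSet)).submatrix e e := by
    ext a b
    simp only [Matrix.of_apply, Matrix.submatrix_apply]
    exact S.x_eq (hA a.1 a.2) (hA b.1 b.2)
  rw [hM, Matrix.det_submatrix_equiv_self, ← hdet, S.treeSum_one, S.treeSum_one, S.law_real _ (measurableSet_avoidSet A)]
  have hN : ∀ inst : DecidablePred (fun _ : Finset S.H.edgeSet => True),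
      (@Finset.filter _ (fun _ => True) inst S.trees).card = S.trees.card := by
    intro inst
    exact congrArg Finset.card (Finset.ext fun x => by simp)
  have hcard : ∀ (i₁ : DecidablePred fun T' => S.cfg T' ∈ avoidSet A)
      (i₂ : DecidablePred fun T' => Disjoint T' A'),
      (@Finset.filter _ _ i₁ S.trees).card = (@Finset.filter _ _ i₂ S.trees).card := by
    intro i₁ i₂
    refine congrArg Finset.card (Finset.ext fun T' => ?_)
    rw [Finset.mem_filter, Finset.mem_filter]
    refine and_congr_right fun _ => ?_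
    simp only [avoidSet, Set.mem_ofPred_eq]
    constructor
    · intro h
      rw [Finset.disjoint_right]
      intro f hf hfT
      obtain ⟨a, -, rfl⟩ := Finset.mem_image.1 hf
      have h1 := h a.1 a.2
      have h2 : S.cfg T' a.1 = true := by
        rw [S.cfg_eq_true, S.mem_amb]
        exact ⟨hA a.1 a.2, hfT⟩
      rw [h1] at h2
      exact absurd h2 (by simp)
    · intro h a ha
      rw [Bool.eq_false_iff, Ne, S.cfg_eq_true, S.mem_amb]
      rintro ⟨h1, h2⟩
      have h3 : (⟨a.1, h1⟩ : S.H.edgeSet) ∈ A' :=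
        Finset.mem_image.2 ⟨⟨a, ha⟩, Finset.mem_univ _, rfl⟩
      exact (Finset.disjoint_right.1 h h3) h2
  rw [hN, hcard _ (fun a => Classical.propDecidable _)]

/-! ### Tilted means -/

/-- An edge of `S` as an edge of `G`. -/
def ιE (f : S.H.edgeSet) : G.edgeSet := ⟨f.1, SimpleGraph.Subgraph.edgeSet_subset _ f.2⟩

lemma ιE_injective : Function.Injective S.ιE := fun f f' h =>
  Subtype.ext (congrArg (fun g : G.edgeSet => g.1) h)

open Classical in
/-- The weights of the tilt by `x` on `B`. -/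
def cw (B : Finset G.edgeSet) (x : G.edgeSet → ℝ) (f : S.H.edgeSet) : ℝ :=
  if S.ιE f ∈ B then Real.exp (2 * x (S.ιE f)) else 1

lemma cw_pos (B : Finset G.edgeSet) (x : G.edgeSet → ℝ) (f : S.H.edgeSet) : 0 < S.cw B x f := by
  unfold cw; split_ifs
  · exact Real.exp_pos _
  · exact one_pos

open Classical in
lemma spin_cfg (T' : Finset S.H.edgeSet) (b : G.edgeSet) :
    spin (S.cfg T' b) = if b.1 ∈ S.amb T' then 1 else -1 := by
  classical
  by_cases h : b.1 ∈ S.amb T'
  · have : S.cfg T' b = true := S.cfg_eq_true.2 h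
    simp [this, h, spin]
  · have : S.cfg T' b = false := by rw [Bool.eq_false_iff, Ne, S.cfg_eq_true]; exact h
    simp [this, h, spin]

/-- The tilt of a tree as a product of weights. -/
lemma exp_tiltExp_cfg (B : Finset G.edgeSet) (hB : ∀ b ∈ B, b.1 ∈ S.H.edgeSet) (x : G.edgeSet → ℝ)
    (T' : Finset S.H.edgeSet) :
    Real.exp (tiltExp B x (S.cfg T')) =
      Real.exp (-∑ b ∈ B, x b) * ∏ f ∈ T', S.cw B x f := by
  classical
  have h1 : ∏ f ∈ T', S.cw B x f = Real.exp (∑ f ∈ T', if S.ιE f ∈ B then 2 * x (S.ιE f) else 0) := by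
    rw [Real.exp_sum]
    refine Finset.prod_congr rfl fun f _ => ?_
    unfold cw
    split_ifs <;> simp
  rw [h1, ← Real.exp_add]
  congr 1
  have h2 : ∑ f ∈ T', (if S.ιE f ∈ B then 2 * x (S.ιE f) else 0) =
      ∑ b ∈ B, if b.1 ∈ S.amb T' then 2 * x b else 0 := by
    rw [← Finset.sum_filter, ← Finset.sum_filter]
    refine Finset.sum_bij (fun f _ => S.ιE f) ?_ ?_ ?_ ?_
    · intro f hf
      rw [Finset.mem_filter] at hf ⊢
      refine ⟨hf.2, S.mem_amb.2 ⟨f.2, hf.1⟩⟩
    · intro f _ f' _ h
      exact S.ιE_injective h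
    · intro b hb
      rw [Finset.mem_filter] at hb
      obtain ⟨h1, h2⟩ := S.mem_amb.1 hb.2
      refine ⟨⟨b.1, h1⟩, Finset.mem_filter.2 ⟨h2, hb.1⟩, rfl⟩
    · intro f _
      rfl
  rw [h2, tiltExp, ← Finset.sum_neg_distrib, ← Finset.sum_add_distrib]
  refine Finset.sum_congr rfl fun b _ => ?_
  rw [S.spin_cfg]
  split_ifs <;> ring

open Classical in
lemma treeSum_true_eq (c : S.H.edgeSet → ℝ) :
    treeSum (uH S.H) (vH S.H) c (fun _ => True) = ∑ T' ∈ S.trees, ∏ f ∈ T', c f := by
  rw [treeSum_eq_sum_ite]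
  refine Finset.sum_congr rfl fun T' _ => ?_
  rw [if_pos trivial]

open Classical in
lemma treeSum_mem_eq (c : S.H.edgeSet → ℝ) (e : S.H.edgeSet) :
    treeSum (uH S.H) (vH S.H) c (fun T' => e ∈ T') =
      ∑ T' ∈ S.trees, if e ∈ T' then ∏ f ∈ T', c f else 0 := by
  rw [treeSum_eq_sum_ite]
  refine Finset.sum_congr rfl fun T' _ => ?_
  congr!

/-- The tilted denominator of the law. -/
lemma tiltD_law (B : Finset G.edgeSet) (hB : ∀ b ∈ B, b.1 ∈ S.H.edgeSet) (x : G.edgeSet → ℝ) :
    tiltD S.law B x = (S.trees.card : ℝ)⁻¹ * Real.exp (-∑ b ∈ B, x b) *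
      treeSum (uH S.H) (vH S.H) (S.cw B x) (fun _ => True) := by
  rw [tiltD, integral_law, S.treeSum_true_eq, mul_assoc, Finset.mul_sum (a := Real.exp _)]
  congr 1
  exact Finset.sum_congr rfl fun T' _ => S.exp_tiltExp_cfg B hB x T'

/-- The tilted numerator of the law. -/
lemma tiltN_law (B : Finset G.edgeSet) (hB : ∀ b ∈ B, b.1 ∈ S.H.edgeSet) (x : G.edgeSet → ℝ)
    (e : S.H.edgeSet) :
    tiltN S.law B (S.ιE e) x = (S.trees.card : ℝ)⁻¹ * Real.exp (-∑ b ∈ B, x b) *
      (2 * treeSum (uH S.H) (vH S.H) (S.cw B x) (fun T' => e ∈ T') -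
        treeSum (uH S.H) (vH S.H) (S.cw B x) (fun _ => True)) := by
  classical
  rw [tiltN, integral_law, S.treeSum_true_eq, S.treeSum_mem_eq, mul_assoc, Finset.mul_sum (a := (2 : ℝ)),
    ← Finset.sum_sub_distrib, Finset.mul_sum (a := Real.exp _)]
  congr 1
  refine Finset.sum_congr rfl fun T' _ => ?_
  rw [S.exp_tiltExp_cfg B hB x T', S.spin_cfg]
  have hiff : (S.ιE e).1 ∈ S.amb T' ↔ e ∈ T' := by
    rw [S.mem_amb]
    constructor
    · rintro ⟨_, h⟩; exact h
    · intro h; exact ⟨e.2, h⟩
  by_cases h : e ∈ T'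
  · rw [if_pos (hiff.2 h), if_pos h]; ring
  · rw [if_neg (fun h2 => h (hiff.1 h2)), if_neg h]; ring

/-- The tilted mean of the law in terms of the weighted marginal. -/
lemma tiltM_law (B : Finset G.edgeSet) (hB : ∀ b ∈ B, b.1 ∈ S.H.edgeSet) (x : G.edgeSet → ℝ)
    (e : S.H.edgeSet) :
    tiltM S.law B (S.ιE e) x =
      2 * (treeSum (uH S.H) (vH S.H) (S.cw B x) (fun T' => e ∈ T') /
        treeSum (uH S.H) (vH S.H) (S.cw B x) (fun _ => True)) - 1 := by
  rw [tiltM, S.tiltD_law B hB, S.tiltN_law B hB]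
  have hZ : treeSum (uH S.H) (vH S.H) (S.cw B x) (fun _ => True) ≠ 0 := by
    rw [S.treeSum_true_eq]
    refine (Finset.sum_pos (fun T' _ => Finset.prod_pos fun f _ => S.cw_pos B x f) S.trees_nonempty).ne'
  have hN : (S.trees.card : ℝ) ≠ 0 := by exact_mod_cast S.card_trees_pos.ne'
  have hE := (Real.exp_pos (-∑ b ∈ B, x b)).ne'
  field_simp

lemma exp_le_one_add_two {t : ℝ} (h0 : 0 ≤ t) (h1 : t ≤ 1 / 2) : Real.exp t ≤ 1 + 2 * t := by
  have h2 := Real.add_one_le_exp (-t)
  have h3 : Real.exp t * Real.exp (-t) = 1 := by rw [← Real.exp_add]; simp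
  have h4 : 0 < -t + 1 := by linarith
  have h5 : Real.exp t * (-t + 1) ≤ 1 :=
    (mul_le_mul_of_nonneg_left h2 (Real.exp_pos _).le).trans_eq h3
  have h6 : 1 ≤ (1 + 2 * t) * (-t + 1) := by nlinarith
  exact le_of_mul_le_mul_right (h5.trans h6) h4

/-- The tilted means of the law are Lipschitz in the sup norm. -/
theorem tilt_lip (B : Finset G.edgeSet) (hB : ∀ b ∈ B, b.1 ∈ S.H.edgeSet) (e : S.H.edgeSet)
    (x x' : G.edgeSet → ℝ) {a : ℝ} (ha : 0 ≤ a) (h : ∀ f ∈ B, |x f - x' f| ≤ a) :
    |tiltM S.law B (S.ιE e) x - tiltM S.law B (S.ιE e) x'| ≤ 16 * a := by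
  classical
  have h1 := abs_tiltM_le S.law B (S.ιE e) x
  have h2 := abs_tiltM_le S.law B (S.ιE e) x'
  by_cases hbig : 1 / 8 ≤ a
  · have := abs_sub (tiltM S.law B (S.ιE e) x) (tiltM S.law B (S.ιE e) x')
    linarith
  · have hsmall : a < 1 / 8 := not_le.1 hbig
    rw [S.tiltM_law B hB] at h1 h2 ⊢
    rw [S.tiltM_law B hB]
    set P := treeSum (uH S.H) (vH S.H) (S.cw B x) (fun T' => e ∈ T') /
        treeSum (uH S.H) (vH S.H) (S.cw B x) (fun _ => True) with hP
    set P' := treeSum (uH S.H) (vH S.H) (S.cw B x') (fun T' => e ∈ T') /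
        treeSum (uH S.H) (vH S.H) (S.cw B x') (fun _ => True) with hP'
    set κ := Real.exp (2 * a) with hκ
    have hκpos : 0 < κ := Real.exp_pos _
    have hκ1 : 1 ≤ κ := Real.one_le_exp (by positivity)
    have hcomp : ∀ (y y' : G.edgeSet → ℝ), (∀ f ∈ B, |y f - y' f| ≤ a) →
        ∀ f, S.cw B y' f ≤ κ * S.cw B y f := by
      intro y y' hy f
      unfold cw
      split_ifs with hf
      · rw [hκ, ← Real.exp_add]
        apply Real.exp_le_exp.2
        have := abs_le.1 (hy _ hf)
        linarith [this.1, this.2]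
      · linarith
    have h3 := rayleigh_lipschitz (uH S.H) (vH S.H) (uH_ne_vH S.H) S.hex (fun f => S.cw_pos B x f)
      (fun f => S.cw_pos B x' f) (hcomp x x' h)
      (hcomp x' x (fun f hf => by rw [abs_sub_comm]; exact h f hf)) e
    have h4 := rayleigh_lipschitz (uH S.H) (vH S.H) (uH_ne_vH S.H) S.hex (fun f => S.cw_pos B x' f)
      (fun f => S.cw_pos B x f) (hcomp x' x (fun f hf => by rw [abs_sub_comm]; exact h f hf))
      (hcomp x x' h) e
    rw [← hP, ← hP'] at h3 h4
    have hκ2 : κ ^ 2 ≤ 1 + 8 * a := by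
      have : κ ^ 2 = Real.exp (4 * a) := by
        rw [hκ, ← Real.exp_nat_mul]; congr 1; push_cast; ring
      rw [this]
      have := exp_le_one_add_two (t := 4 * a) (by positivity) (by linarith)
      linarith
    have hP1 : P ≤ 1 := by have := (abs_le.1 h1).2; linarith
    have hP0 : 0 ≤ P := by have := (abs_le.1 h1).1; linarith
    have hP1' : P' ≤ 1 := by have := (abs_le.1 h2).2; linarith
    have hP0' : 0 ≤ P' := by have := (abs_le.1 h2).1; linarith
    rw [abs_le]
    constructor <;> nlinarith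

end FS

end

end Vale.Agent.Lib.P143
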