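import Vale.Agent.Lib.P143.Bayes

/-!
Levy upward: the infinite-volume drift at the observation path is the conditional mean of the spin
given all observations up to the current step.
-/

set_option linter.unusedSimpArgs false
set_option linter.unusedVariables false
set_option linter.unusedSectionVars false
set_option warn.classDefReducibility false

open Filter MeasureTheory Finset Topology ProbabilityTheory

namespace Vale.Agent.Lib.P143

noncomputable section

variable {I Ω₂ : Type*} [MeasurableSpace Ω₂]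

/-- The sigma-algebra of all observations before step `k`. -/
def FF (g : ℕ → ℕ → I → Ω₂ → ℝ) (j k : ℕ) : MeasurableSpace ((I → Bool) × Ω₂) :=
  MeasurableSpace.comap (fun ω (p : Fin k × I) => obs g j p.1 p.2 ω) inferInstance

/-- Measurability into a product, for a non-instance sigma-algebra on the source. -/
lemma meas_pi {α ι : Type*} (m : MeasurableSpace α) {f : α → ι → ℝ}
    (h : ∀ i, Measurable[m] (fun a => f a i)) : Measurable[m] f :=
  @measurable_pi_lambda α ι (fun _ => ℝ) m _ f h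

variable (μ : Measure (I → Bool)) [IsProbabilityMeasure μ] (ν : Measure Ω₂) [IsProbabilityMeasure ν]
  {g : ℕ → ℕ → I → Ω₂ → ℝ} (Bs : I → ℕ → Finset I)

lemma measurable_FF_obs {j k l : ℕ} (hl : l < k) (f : I) : Measurable[FF g j k] (obs g j l f) := by
  have h : Measurable[FF g j k] (fun ω (p : Fin k × I) => obs g j p.1 p.2 ω) :=
    comap_measurable _
  exact (measurable_pi_apply ((⟨l, hl⟩ : Fin k), f)).comp h

lemma measurable_FF_yl {j k l : ℕ} (hl : l ≤ k) (f : I) : Measurable[FF g j k] (yl g j l f) := by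
  unfold yl
  refine @Finset.measurable_sum _ _ _ _ _ _ (FF g j k) _ _ ?_
  intro m hm
  exact measurable_FF_obs (lt_of_lt_of_le (Finset.mem_range.1 hm) hl) f

lemma measurable_FF_drift {j k l : ℕ} (hl : l ≤ k) (e : I) :
    Measurable[FF g j k] (fun ω => drift μ Bs (fun f => yl g j l f ω) e) := by
  refine (measurable_drift μ Bs e).comp ?_
  exact meas_pi _ fun f => measurable_FF_yl hl f

lemma FF_le (hg : ∀ j k e, Measurable (g j k e)) (j k : ℕ) :
    FF g j k ≤ (inferInstance : MeasurableSpace ((I → Bool) × Ω₂)) := by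
  refine Measurable.comap_le ?_
  exact measurable_pi_lambda _ fun p => measurable_obs hg j _ _

lemma FF_mono {j k k' : ℕ} (h : k ≤ k') : FF g j k ≤ FF g j k' := by
  refine Measurable.comap_le ?_
  exact meas_pi _ fun p => measurable_FF_obs (lt_of_lt_of_le p.1.2 h) p.2

lemma FB_mono {j k : ℕ} {B B' : Finset I} (h : B ⊆ B') : FB g j k B ≤ FB g j k B' := by
  refine Measurable.comap_le ?_
  refine meas_pi _ fun p => ?_
  have hm : Measurable[FB g j k B'] (obsVec g j k B') := comap_measurable _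
  exact (measurable_pi_apply (p.1, (⟨p.2.1, h p.2.2⟩ : B'))).comp hm

lemma FB_le_FF {j k : ℕ} {B : Finset I} : FB g j k B ≤ FF g j k := by
  refine Measurable.comap_le ?_
  exact meas_pi _ fun p => measurable_FF_obs p.1.2 p.2.1

lemma iSup_window_eq {j k : ℕ} {B : ℕ → Finset I} (hB : ∀ f, ∃ R, f ∈ B R) :
    (⨆ R, FB g j k (B R)) = FF g j k := by
  refine le_antisymm (iSup_le fun R => FB_le_FF) ?_
  refine Measurable.comap_le ?_
  refine meas_pi _ fun p => ?_
  obtain ⟨R, hR⟩ := hB p.2
  have hm : Measurable[FB g j k (B R)] (obsVec g j k (B R)) := comap_measurable _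
  have h1 : Measurable[FB g j k (B R)] (obs g j p.1 p.2) :=
    (measurable_pi_apply (p.1, (⟨p.2, hR⟩ : B R))).comp hm
  exact h1.mono (le_iSup (fun R => FB g j k (B R)) R) le_rfl

/-- Levy upward along the windows: the drift is the conditional mean given the whole past. -/
theorem drift_ae_eq_condExp (hg : IsNoiseArray ν g) (e : I) (hmono : Monotone (Bs e))
    (hex : ∀ f, ∃ R, f ∈ Bs e R) (j k : ℕ) :
    (fun ω => drift μ Bs (fun f => yl g j k f ω) e) =ᵐ[μ.prod ν]
      (μ.prod ν)[fun ω : (I → Bool) × Ω₂ => spin (ω.1 e) | FF g j k] := by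
  have hT : ∀ R, (fun ω => tiltM μ (Bs e R) e (fun f => yl g j k f ω)) =ᵐ[μ.prod ν]
      (μ.prod ν)[fun ω : (I → Bool) × Ω₂ => spin (ω.1 e) | FB g j k (Bs e R)] :=
    fun R => tilt_ae_eq_condExp μ ν hg j k (Bs e R) e
  have hT' : ∀ᵐ ω ∂(μ.prod ν), ∀ R, tiltM μ (Bs e R) e (fun f => yl g j k f ω) =
      ((μ.prod ν)[fun ω : (I → Bool) × Ω₂ => spin (ω.1 e) | FB g j k (Bs e R)]) ω :=
    ae_all_iff.2 hT
  let ℱ : Filtration ℕ (inferInstance : MeasurableSpace ((I → Bool) × Ω₂)) :=
    { seq := fun R => FB g j k (Bs e R)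
      mono' := fun _ _ h => FB_mono (hmono h)
      le' := fun R => FB_le hg.meas j k (Bs e R) }
  have hL := tendsto_ae_condExp (μ := μ.prod ν) (ℱ := ℱ) (fun ω : (I → Bool) × Ω₂ => spin (ω.1 e))
  have hsup : (⨆ R, ℱ R) = FF g j k := iSup_window_eq hex
  rw [hsup] at hL
  filter_upwards [hT', hL] with ω h1 h2
  have h3 : Tendsto (fun R => tiltM μ (Bs e R) e (fun f => yl g j k f ω)) atTop
      (𝓝 (((μ.prod ν)[fun ω : (I → Bool) × Ω₂ => spin (ω.1 e) | FF g j k]) ω)) := by
    refine h2.congr fun R => (h1 R).symm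
  exact h3.limsup_eq

lemma integrable_spin_fst (e : I) :
    Integrable (fun ω : (I → Bool) × Ω₂ => spin (ω.1 e)) (μ.prod ν) :=
  Integrable.of_bound (C := 1) (measurable_spin_fst e).aestronglyMeasurable
    (Eventually.of_forall fun ω => by rw [Real.norm_eq_abs, abs_spin])

/-- Martingale property in integrated form: real bounded test functions. -/
theorem integral_mul_spin_eq (hg : IsNoiseArray ν g) (e : I) (hmono : Monotone (Bs e))
    (hex : ∀ f, ∃ R, f ∈ Bs e R) (j k : ℕ) {Q : (I → Bool) × Ω₂ → ℝ}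
    (hQ : Measurable[FF g j k] Q) {C : ℝ} (hb : ∀ ω, |Q ω| ≤ C) :
    ∫ ω, Q ω * spin (ω.1 e) ∂(μ.prod ν) =
      ∫ ω, Q ω * drift μ Bs (fun f => yl g j k f ω) e ∂(μ.prod ν) := by
  have hm := FF_le (g := g) hg.meas j k
  have h1 := condExp_stronglyMeasurable_mul_of_bound hm (μ := μ.prod ν) hQ.stronglyMeasurable
    (integrable_spin_fst μ ν e) C (Eventually.of_forall fun ω => by rw [Real.norm_eq_abs]; exact hb ω)
  have h2 := integral_condExp (μ := μ.prod ν) (f := Q * fun ω : (I → Bool) × Ω₂ => spin (ω.1 e)) hm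
  have h3 := drift_ae_eq_condExp μ ν Bs hg e hmono hex j k
  calc ∫ ω, Q ω * spin (ω.1 e) ∂(μ.prod ν) = ∫ ω, (Q * fun ω : (I → Bool) × Ω₂ => spin (ω.1 e)) ω ∂(μ.prod ν) := rfl
    _ = ∫ ω, ((μ.prod ν)[Q * fun ω : (I → Bool) × Ω₂ => spin (ω.1 e) | FF g j k]) ω ∂(μ.prod ν) := h2.symm
    _ = _ := by
      refine integral_congr_ae ?_
      filter_upwards [h1, h3] with ω h4 h5
      rw [h4, Pi.mul_apply, h5]

end

end Vale.Agent.Lib.P143
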