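import Vale.Agent.Lib.P143.Innovation
import Vale.Agent.Lib.P161.Noise

/-!
The abstract theorem: a measure on `I → Bool` with sup-norm Lipschitz tilts is a factor of any noise
array, by a universal measurable map, equivariant under the symmetries of the measure.
-/

set_option linter.unusedSimpArgs false
set_option linter.unusedVariables false
set_option linter.unusedSectionVars false
set_option warn.classDefReducibility false

open Filter MeasureTheory Finset Topology ProbabilityTheory

namespace Vale.Agent.Lib.P143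

noncomputable section

variable {I : Type*}

/-! ### Uniqueness of the law of a noise array -/

/-- Going down `m` levels in a dyadic refinement: the normalized sum over a block. -/
def downL (a : ℕ × I → ℝ) : ℕ → ℕ → I → ℝ
  | 0, k, e => a (k, e)
  | m + 1, k, e => (downL a m (2 * k) e + downL a m (2 * k + 1) e) / Real.sqrt 2

lemma measurable_downL (m k : ℕ) (e : I) : Measurable fun a : ℕ × I → ℝ => downL a m k e := by
  induction m generalizing k with
  | zero => exact measurable_pi_apply _
  | succ m ih =>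
    simp only [downL]
    exact ((ih _).add (ih _)).div_const _

lemma eq_downL {Ω : Type*} {γ : ℕ → ℕ → I → Ω → ℝ}
    (h : ∀ j k e ω, γ j k e ω = (γ (j + 1) (2 * k) e ω + γ (j + 1) (2 * k + 1) e ω) / Real.sqrt 2)
    (m j k : ℕ) (e : I) (ω : Ω) :
    γ j k e ω = downL (fun q : ℕ × I => γ (j + m) q.1 q.2 ω) m k e := by
  induction m generalizing j k with
  | zero => rfl
  | succ m ih =>
    simp only [downL]
    rw [h j k e ω, ih (j + 1) (2 * k), ih (j + 1) (2 * k + 1)]
    have : j + 1 + m = j + (m + 1) := by omega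
    rw [this]

lemma restrict_eq_downL {Ω : Type*} {γ : ℕ → ℕ → I → Ω → ℝ}
    (href : ∀ j k e ω, γ j k e ω = (γ (j + 1) (2 * k) e ω + γ (j + 1) (2 * k + 1) e ω) / Real.sqrt 2)
    (S : Finset (ℕ × ℕ × I)) (J : ℕ) (hJ : ∀ p ∈ S, p.1 ≤ J) (ω : Ω) :
    S.restrict (fun p : ℕ × ℕ × I => γ p.1 p.2.1 p.2.2 ω) =
      fun p : S => downL (fun q : ℕ × I => γ J q.1 q.2 ω) (J - p.1.1) p.1.2.1 p.1.2.2 := by
  funext p
  have h1 := eq_downL href (J - p.1.1) p.1.1 p.1.2.1 p.1.2.2 ω
  have h2 : p.1.1 + (J - p.1.1) = J := Nat.add_sub_cancel' (hJ p.1 p.2)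
  rw [h2] at h1
  exact h1

/-- Two noise arrays have the same law. -/
theorem noiseArray_law_unique {Ω Ω' : Type*} [MeasurableSpace Ω] [MeasurableSpace Ω']
    {P : Measure Ω} {P' : Measure Ω'} [IsProbabilityMeasure P] [IsProbabilityMeasure P']
    {γ : ℕ → ℕ → I → Ω → ℝ} {γ' : ℕ → ℕ → I → Ω' → ℝ}
    (h : IsNoiseArray P γ) (h' : IsNoiseArray P' γ') :
    P.map (fun ω j k e => γ j k e ω) = P'.map (fun ω j k e => γ' j k e ω) := by
  classical
  -- uncurried arrays
  let U : Ω → (ℕ × ℕ × I → ℝ) := fun ω p => γ p.1 p.2.1 p.2.2 ω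
  let U' : Ω' → (ℕ × ℕ × I → ℝ) := fun ω p => γ' p.1 p.2.1 p.2.2 ω
  have hU : Measurable U := measurable_pi_lambda _ fun p => h.meas _ _ _
  have hU' : Measurable U' := measurable_pi_lambda _ fun p => h'.meas _ _ _
  -- the level laws
  have hlev : ∀ J, P.map (fun ω (q : ℕ × I) => γ J q.1 q.2 ω) =
      P'.map (fun ω (q : ℕ × I) => γ' J q.1 q.2 ω) := by
    intro J
    have h1 := (iIndepFun_iff_map_fun_eq_infinitePi_map (fun q : ℕ × I => h.meas J q.1 q.2)).1 (h.indep J)
    have h2 := (iIndepFun_iff_map_fun_eq_infinitePi_map (fun q : ℕ × I => h'.meas J q.1 q.2)).1 (h'.indep J)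
    rw [h1, h2]
    simp_rw [h.law, h'.law]
  have hUU : P.map U = P'.map U' := by
    have hproj : IsProjectiveLimit (P'.map U') (fun S : Finset (ℕ × ℕ × I) => (P'.map U').map S.restrict) :=
      fun S => rfl
    refine IsProjectiveLimit.unique (P := fun S : Finset (ℕ × ℕ × I) => (P'.map U').map S.restrict) ?_ hproj
    intro S
    -- a common level
    let J : ℕ := S.sup Prod.fst
    have hJ : ∀ p ∈ S, p.1 ≤ J := fun p hp => Finset.le_sup (f := Prod.fst) hp
    let L : (ℕ × I → ℝ) → (S → ℝ) := fun a p => downL a (J - p.1.1) p.1.2.1 p.1.2.2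
    have hL : Measurable L := measurable_pi_lambda _ fun p => measurable_downL _ _ _
    have hres1 : S.restrict ∘ U = L ∘ fun ω (q : ℕ × I) => γ J q.1 q.2 ω := by
      funext ω
      exact restrict_eq_downL h.refine S J hJ ω
    have hres2 : S.restrict ∘ U' = L ∘ fun ω (q : ℕ × I) => γ' J q.1 q.2 ω := by
      funext ω
      exact restrict_eq_downL h'.refine S J hJ ω
    have hV : Measurable fun ω (q : ℕ × I) => γ J q.1 q.2 ω :=
      measurable_pi_lambda _ fun q => h.meas _ _ _
    have hV' : Measurable fun ω (q : ℕ × I) => γ' J q.1 q.2 ω :=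
      measurable_pi_lambda _ fun q => h'.meas _ _ _
    change (P.map U).map S.restrict = (P'.map U').map S.restrict
    rw [Measure.map_map (Finset.measurable_restrict _) hU, Measure.map_map (Finset.measurable_restrict _) hU',
      hres1, hres2, ← Measure.map_map hL hV, ← Measure.map_map hL hV', hlev J]
  -- back to curried arrays
  let c : (ℕ × ℕ × I → ℝ) → (ℕ → ℕ → I → ℝ) := fun a j k e => a (j, k, e)
  have hc : Measurable c :=
    measurable_pi_lambda _ fun j => measurable_pi_lambda _ fun k => measurable_pi_lambda _ fun e =>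
      measurable_pi_apply _
  have e1 : (fun ω j k e => γ j k e ω) = c ∘ U := rfl
  have e2 : (fun ω j k e => γ' j k e ω) = c ∘ U' := rfl
  rw [e1, e2, ← Measure.map_map hc hU, ← Measure.map_map hc hU', hUU]

/-! ### The factor map -/

variable (μ : Measure (I → Bool)) (Bs : I → ℕ → Finset I)

/-- The factor map: solve the equation with the forcing of the array, and read off the signs of
the limiting slopes. -/
def Psi (a : ℕ → ℕ → I → ℝ) (e : I) : Bool :=
  open Classical in decide (0 < limsup (fun n : ℕ =>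
    sol (drift μ Bs) (forc a) ((n : ℝ) * hs 0) e / n) atTop)

lemma measurable_forc_all : Measurable fun (a : ℕ → ℕ → I → ℝ) => (forc a : ℝ → I → ℝ) :=
  measurable_pi_lambda _ fun t => measurable_pi_lambda _ fun e => forc_measurable t e

lemma measurable_Psi [IsProbabilityMeasure μ] : Measurable (Psi μ Bs) := by
  classical
  refine measurable_pi_lambda _ fun e => ?_
  have h1 : ∀ n : ℕ, Measurable fun a : ℕ → ℕ → I → ℝ =>
      sol (drift μ Bs) (forc a) ((n : ℝ) * hs 0) e / n := by
    intro n
    have h2 := (sol_measurable (M := drift μ Bs) (measurable_drift μ Bs) ((n : ℝ) * hs 0) e).comp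
      (measurable_forc_all (I := I))
    exact h2.div_const _
  have h3 : Measurable fun a : ℕ → ℕ → I → ℝ => limsup (fun n : ℕ =>
      sol (drift μ Bs) (forc a) ((n : ℝ) * hs 0) e / n) atTop := Measurable.limsup h1
  refine measurable_to_bool ?_
  have h4 : (fun a => Psi μ Bs a e) ⁻¹' {true} = {a | 0 < limsup (fun n : ℕ =>
      sol (drift μ Bs) (forc a) ((n : ℝ) * hs 0) e / n) atTop} := by
    ext a
    simp [Psi]
  rw [h4]
  exact measurableSet_lt measurable_const h3

lemma forc_equivariant (π : I → I) (a : ℕ → ℕ → I → ℝ) :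
    forc (fun j k e => a j k (π e)) = fun t e => forc a t (π e) := rfl

/-- Equivariance of the factor map. -/
theorem Psi_equivariant [IsProbabilityMeasure μ] (π : I ≃ I) (hμ : μ.map (fun σ => σ ∘ π) = μ)
    (hBs : ∀ e R, Bs (π e) R = (Bs e R).map π.toEmbedding) (a : ℕ → ℕ → I → ℝ) (e : I) :
    Psi μ Bs (fun j k e => a j k (π e)) e = Psi μ Bs a (π e) := by
  unfold Psi
  have h1 : ∀ t, sol (drift μ Bs) (forc a) t (π e) =
      sol (drift μ Bs) (forc fun j k e => a j k (π e)) t e := by
    intro t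
    rw [sol_equivariant π (drift_equivariant μ Bs π hμ hBs) (forc a) t e, forc_equivariant]
    rfl
  simp_rw [h1]

/-! ### The exact process: the factor map recovers the signal -/

section Exact

variable {Ω₂ : Type*} [MeasurableSpace Ω₂] (μ : Measure (I → Bool)) [IsProbabilityMeasure μ]
  (ν : Measure Ω₂) [IsProbabilityMeasure ν] {g : ℕ → ℕ → I → Ω₂ → ℝ} (Bs : I → ℕ → Finset I)

/-- The law of large numbers for the noise at level zero. -/
lemma noise_lln (hg : IsNoiseArray ν g) (e : I) :
    ∀ᵐ w ∂ν, Tendsto (fun n : ℕ => (∑ l ∈ range n, g 0 l e w) / n) atTop (𝓝 0) := by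
  have hlaw := hg.law 0
  have hmeas := hg.meas 0
  have hint : Integrable (g 0 0 e) ν := by
    have h1 : Integrable id (ν.map (g 0 0 e)) := by
      rw [hlaw]
      exact (memLp_id_gaussianReal 1).integrable le_rfl
    exact (integrable_map_measure aestronglyMeasurable_id (hmeas 0 e).aemeasurable).1 h1
  have hmean : ν[g 0 0 e] = 0 := by
    have h1 : ∫ x, id x ∂(ν.map (g 0 0 e)) = ∫ w, id (g 0 0 e w) ∂ν :=
      integral_map (hmeas 0 e).aemeasurable aestronglyMeasurable_id
    simp only [id] at h1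
    rw [← h1, hlaw]
    simp
  have hind : iIndepFun (fun l : ℕ => g 0 l e) ν :=
    (hg.indep 0).precomp (g := fun l : ℕ => (l, e)) (fun a b h => congrArg Prod.fst h)
  have := strong_law_ae_real (fun l => g 0 l e) hint
    (fun i j hij => hind.indepFun hij) (fun i => ?_)
  · rw [hmean] at this
    exact this
  · refine ⟨(hmeas i e).aemeasurable, (hmeas 0 e).aemeasurable, ?_⟩
    rw [hlaw, hlaw]

lemma spin_pos_iff (b : Bool) [Decidable (0 < spin b)] : decide (0 < spin b) = b := by
  cases b <;> simp [spin]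

lemma hs_zero : hs 0 = 1 := by simp [hs]

lemma rs_zero : rs 0 = 1 := by simp [rs, hs]

/-- The slope of the exact process converges to the signal. -/
lemma yy_slope_tendsto (hg : IsNoiseArray ν g) (e : I) :
    ∀ᵐ ω ∂(μ.prod ν), Tendsto (fun n : ℕ => yy g ω ((n : ℝ) * hs 0) e / n) atTop (𝓝 (spin (ω.1 e))) := by
  have h1 := Measure.quasiMeasurePreserving_snd (μ := μ) (ν := ν) |>.ae (noise_lln ν hg e)
  filter_upwards [h1] with ω hω
  have h2 : Tendsto (fun n : ℕ => spin (ω.1 e) + (∑ l ∈ range n, g 0 l e ω.2) / n) atTop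
      (𝓝 (spin (ω.1 e) + 0)) := tendsto_const_nhds.add hω
  rw [add_zero] at h2
  refine h2.congr' ?_
  filter_upwards [eventually_ne_atTop 0] with n hn
  have h3 : yy g ω ((n : ℝ) * hs 0) e = yl g 0 n e ω := congrFun (yy_dyadic hg.refine 0 n ω) e
  rw [h3, yl_eq, hs_zero, rs_zero]
  have h4 : (n : ℝ) ≠ 0 := by exact_mod_cast hn
  field_simp

/-- The factor map applied to the innovations recovers the signal almost surely. -/
theorem Psi_gex_eq [Countable I] {K : ℝ} (hK : 0 < K) (hL : SupLip μ K) (hg : IsNoiseArray ν g) :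
    ∀ᵐ ω ∂(μ.prod ν), Psi μ Bs (fun j k e => gex μ Bs g j k e ω) = ω.1 := by
  have h1 : ∀ᵐ ω ∂(μ.prod ν), ∀ e, Tendsto (fun n : ℕ => yy g ω ((n : ℝ) * hs 0) e / n) atTop
      (𝓝 (spin (ω.1 e))) := ae_all_iff.2 fun e => yy_slope_tendsto μ ν hg e
  filter_upwards [h1] with ω hω
  funext e
  unfold Psi
  have h2 : ∀ n : ℕ, sol (drift μ Bs) (forc fun j k e => gex μ Bs g j k e ω) ((n : ℝ) * hs 0) e =
      yy g ω ((n : ℝ) * hs 0) e :=
    fun n => (yy_eq_sol μ Bs hK hL hg.refine ω (isDyadicTime_mk 0 n) e).symm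
  simp_rw [h2]
  rw [(hω e).limsup_eq]
  exact spin_pos_iff _

/-- The abstract theorem: the image of any noise array under the factor map has law `μ`. -/
theorem Psi_law [Countable I] {K : ℝ} (hK : 0 < K) (hL : SupLip μ K)
    (hmono : ∀ e, Monotone (Bs e)) (hex : ∀ e f, ∃ R, f ∈ Bs e R)
    {Ω' : Type*} [MeasurableSpace Ω'] (P' : Measure Ω') [IsProbabilityMeasure P']
    {γ' : ℕ → ℕ → I → Ω' → ℝ} (hγ' : IsNoiseArray P' γ') :
    P'.map (fun ω => Psi μ Bs (fun j k e => γ' j k e ω)) = μ := by
  classical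
  -- a noise array exists
  obtain ⟨γ, hγm, hγr, hγn⟩ := Vale.Agent.Lib.P161.exists_noise I
  let ν : Measure (I → unitInterval) := Vale.Agent.Lib.P161.uniformField I
  haveI : IsProbabilityMeasure ν := by
    unfold ν Vale.Agent.Lib.P161.uniformField
    infer_instance
  let g : ℕ → ℕ → I → (I → unitInterval) → ℝ := fun j k e u => γ j k (u e)
  have hg : IsNoiseArray ν g :=
    { meas := fun j k e => (hγn j).meas k e
      refine := fun j k e ω => hγr j k (ω e)
      indep := fun j => (hγn j).indep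
      law := fun j k e => (hγn j).law k e }
  have hex' := gex_isNoiseArray μ ν Bs hg hmono hex
  have h1 := noiseArray_law_unique hγ' hex'
  have hPsi := measurable_Psi μ Bs
  have harr' : Measurable fun ω j k e => γ' j k e ω :=
    measurable_pi_lambda _ fun j => measurable_pi_lambda _ fun k => measurable_pi_lambda _ fun e => hγ'.meas j k e
  have harr : Measurable fun ω j k e => gex μ Bs g j k e ω :=
    measurable_pi_lambda _ fun j => measurable_pi_lambda _ fun k => measurable_pi_lambda _ fun e => hex'.meas j k e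
  have h2 : P'.map (fun ω => Psi μ Bs (fun j k e => γ' j k e ω)) =
      (μ.prod ν).map (fun ω => Psi μ Bs (fun j k e => gex μ Bs g j k e ω)) := by
    have e1 : (fun ω => Psi μ Bs (fun j k e => γ' j k e ω)) =
        Psi μ Bs ∘ fun ω j k e => γ' j k e ω := rfl
    have e2 : (fun ω => Psi μ Bs (fun j k e => gex μ Bs g j k e ω)) =
        Psi μ Bs ∘ fun ω j k e => gex μ Bs g j k e ω := rfl
    rw [e1, e2, ← Measure.map_map hPsi harr', ← Measure.map_map hPsi harr, h1]
  rw [h2]
  have h3 := Psi_gex_eq μ ν Bs hK hL hg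
  rw [Measure.map_congr h3]
  rw [Measure.map_fst_prod]
  simp

end Exact

end

end Vale.Agent.Lib.P143
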