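import Vale.Agent.Lib.P143.CauchyBinet
import Vale.Agent.Lib.P143.Kirchhoff

set_option linter.unusedSectionVars false
set_option linter.unusedVariables false
set_option linter.unusedSimpArgs false

/-!
The weighted matrix-tree theorem for a finite multigraph with edge ends `u v : F → V`.
-/

open Finset Matrix

namespace Vale.Agent.Lib.P143

noncomputable section

variable {V F : Type*} [Fintype V] [DecidableEq V] [Fintype F] [DecidableEq F]

/-- One step along an edge of `T`. -/
def StepIn (u v : F → V) (T : Finset F) (a b : V) : Prop :=
  ∃ f ∈ T, (u f = a ∧ v f = b) ∨ (u f = b ∧ v f = a)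

/-- Integer incidence vector of the edge `f`, on all vertices. -/
def incZ (u v : F → V) (f : F) (x : V) : ℤ :=
  (if u f = x then 1 else 0) - (if v f = x then 1 else 0)

/-- Reduced real incidence vector of the edge `f`, on the vertices other than the root. -/
def incR (u v : F → V) (r : V) (f : F) (x : {x // x ≠ r}) : ℝ :=
  ((incZ u v f x : ℤ) : ℝ)

/-- Every vertex reachable from the root in `T` is an integer combination of the edges of `T`. -/
lemma exists_int_flow (u v : F → V) (r : V) (T : Finset F) {w : V}
    (hw : Relation.ReflTransGen (StepIn u v T) r w) :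
    ∃ x : F → ℤ, ∀ a : {a // a ≠ r},
      ∑ f ∈ T, incZ u v f a * x f = if (a : V) = w then 1 else 0 := by
  classical
  induction hw with
  | refl =>
    refine ⟨0, fun a => ?_⟩
    simp [a.2]
  | @tail b c _ hstep ih =>
    obtain ⟨x, hx⟩ := ih
    obtain ⟨f, hf, hfe⟩ := hstep
    rcases hfe with ⟨h1, h2⟩ | ⟨h1, h2⟩
    · -- `f` goes from `b` to `c`: `δ_c = δ_b - inc f`
      refine ⟨x + fun g => if g = f then -1 else 0, fun a => ?_⟩
      have : ∑ g ∈ T, incZ u v g a * (x + fun g => if g = f then (-1 : ℤ) else 0) g
          = ∑ g ∈ T, incZ u v g a * x g - incZ u v f a := by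
        simp only [Pi.add_apply, mul_add, Finset.sum_add_distrib]
        congr 1
        rw [Finset.sum_eq_single f]
        · simp
        · intro g _ hg; simp [hg]
        · intro h; exact absurd hf h
      rw [this, hx a]
      have e3 : ((a : V) = b) ↔ (b = (a : V)) := eq_comm
      have e4 : ((a : V) = c) ↔ (c = (a : V)) := eq_comm
      simp only [incZ, h1, h2, e3, e4]
      split_ifs <;> simp
    · refine ⟨x + fun g => if g = f then 1 else 0, fun a => ?_⟩
      have : ∑ g ∈ T, incZ u v g a * (x + fun g => if g = f then (1 : ℤ) else 0) g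
          = ∑ g ∈ T, incZ u v g a * x g + incZ u v f a := by
        simp only [Pi.add_apply, mul_add, Finset.sum_add_distrib]
        congr 1
        rw [Finset.sum_eq_single f]
        · simp
        · intro g _ hg; simp [hg]
        · intro h; exact absurd hf h
      rw [this, hx a]
      have e3 : ((a : V) = b) ↔ (b = (a : V)) := eq_comm
      have e4 : ((a : V) = c) ↔ (c = (a : V)) := eq_comm
      simp only [incZ, h1, h2, e3, e4]
      split_ifs <;> simp

/-- If `T` is connected with the right number of edges, the reduced incidence matrix is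
unimodular. -/
lemma det_sq_of_connected (u v : F → V) (r : V) {g : {x // x ≠ r} → F}
    (hg : Function.Injective g)
    (hconn : ∀ w : V, Relation.ReflTransGen (StepIn u v (Finset.univ.image g)) r w) :
    (colM (incR u v r) g).det ^ 2 = 1 := by
  classical
  set T := Finset.univ.image g with hT
  -- integer matrix
  let A : Matrix {x // x ≠ r} {x // x ≠ r} ℤ := Matrix.of fun a b => incZ u v (g b) a
  have hflow : ∀ w : {x // x ≠ r}, ∃ x : F → ℤ, ∀ a : {a // a ≠ r},
      ∑ f ∈ T, incZ u v f a * x f = if (a : V) = w then 1 else 0 :=
    fun w => exists_int_flow u v r T (hconn w)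
  choose x hx using hflow
  let X : Matrix {x // x ≠ r} {x // x ≠ r} ℤ := Matrix.of fun b w => x w (g b)
  have hAX : A * X = 1 := by
    ext a w
    rw [Matrix.mul_apply]
    have h1 : ∑ b, A a b * X b w = ∑ f ∈ T, incZ u v f a * x w f := by
      rw [hT, Finset.sum_image (fun _ _ _ _ h => hg h)]
      rfl
    rw [h1, hx w a, Matrix.one_apply]
    simp [Subtype.ext_iff]
  have hdet : A.det * X.det = 1 := by rw [← Matrix.det_mul, hAX, Matrix.det_one]
  have hunit : IsUnit A.det := IsUnit.of_mul_eq_one _ hdet
  have hA2 : A.det ^ 2 = 1 := by
    rcases Int.isUnit_iff.1 hunit with h | h <;> simp [h]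
  have hcast : colM (incR u v r) g = A.map (Int.castRingHom ℝ) := by
    ext a b
    simp [colM, incR, A]
  rw [hcast, ← RingHom.mapMatrix_apply, ← RingHom.map_det, ← map_pow, hA2, map_one]

/-- If `T` does not connect all vertices to the root, then the reduced incidence matrix is
singular. -/
lemma det_eq_zero_of_not_connected (u v : F → V) (r : V) {g : {x // x ≠ r} → F}
    {w₀ : V} (hw₀ : ¬ Relation.ReflTransGen (StepIn u v (Finset.univ.image g)) r w₀) :
    (colM (incR u v r) g).det = 0 := by
  classical
  set R : V → Prop := fun w => Relation.ReflTransGen (StepIn u v (Finset.univ.image g)) r w with hR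
  have hw₀r : w₀ ≠ r := by
    rintro rfl
    exact hw₀ Relation.ReflTransGen.refl
  rw [← Matrix.exists_vecMul_eq_zero_iff]
  refine ⟨fun a => if R a then 0 else 1, ?_, ?_⟩
  · intro h
    have := congrFun h ⟨w₀, hw₀r⟩
    simp [hR, hw₀] at this
  · ext w
    simp only [Matrix.vecMul, dotProduct, colM, Matrix.of_apply, Pi.zero_apply]
    set f := g w with hf
    have hfT : f ∈ Finset.univ.image g := Finset.mem_image_of_mem g (Finset.mem_univ _)
    -- the endpoints of `f` are on the same side
    have hiff : R (u f) ↔ R (v f) := by
      constructor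
      · intro h
        exact Relation.ReflTransGen.tail h ⟨f, hfT, Or.inl ⟨rfl, rfl⟩⟩
      · intro h
        exact Relation.ReflTransGen.tail h ⟨f, hfT, Or.inr ⟨rfl, rfl⟩⟩
    have hRr : R r := Relation.ReflTransGen.refl
    -- sum over all vertices
    have hsum : ∑ a : {x // x ≠ r}, (if R a then (0 : ℝ) else 1) * incR u v r f a
        = ∑ a : V, (if R a then (0 : ℝ) else 1) * ((incZ u v f a : ℤ) : ℝ) := by
      have : ∑ a : V, (if R a then (0 : ℝ) else 1) * ((incZ u v f a : ℤ) : ℝ)
          = ∑ a ∈ Finset.univ.filter (fun a => a ≠ r),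
              (if R a then (0 : ℝ) else 1) * ((incZ u v f a : ℤ) : ℝ) := by
        rw [Finset.sum_filter]
        refine Finset.sum_congr rfl fun a _ => ?_
        by_cases h : a = r
        · subst h; simp [hRr]
        · simp [h]
      rw [this, ← Finset.sum_subtype_eq_sum_filter]
      simp [incR, Finset.sum_subtype]
    rw [hsum]
    simp only [incZ, Int.cast_sub, Int.cast_ite, Int.cast_one, Int.cast_zero, mul_sub]
    rw [Finset.sum_sub_distrib]
    simp [Finset.sum_ite_eq', hiff]

/-- The weighted matrix-tree theorem. -/
theorem matrix_tree (u v : F → V) (r : V) (c : F → ℝ) :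
    (lap (incR u v r) c Finset.univ).det = treeSum u v c (fun _ => True) := by
  classical
  have hcardV : 0 < Fintype.card V := Fintype.card_pos_iff.2 ⟨r⟩
  have hcardW : Fintype.card {x // x ≠ r} + 1 = Fintype.card V := by
    rw [Fintype.card_subtype_compl]
    simp
    omega
  rw [det_lap_eq_sum (incR u v r) c Finset.univ (fun S => if IsSpanTree u v S then 1 else 0)]
  · unfold treeSum
    have h1 : ∀ S ∈ (Finset.univ : Finset F).powersetCard (Fintype.card {x // x ≠ r}),
        (∏ e ∈ S, c e) * (if IsSpanTree u v S then (1 : ℝ) else 0)
          = if IsSpanTree u v S then ∏ e ∈ S, c e else 0 := by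
      intro S _
      split_ifs <;> simp
    rw [Finset.sum_congr rfl h1, ← Finset.sum_filter]
    refine Finset.sum_congr ?_ fun _ _ => rfl
    ext S
    simp only [Finset.mem_filter, Finset.mem_powersetCard, Finset.mem_univ, true_and, and_true,
      Finset.subset_univ]
    constructor
    · exact fun h => h.2
    · exact fun h => ⟨by have := h.1; omega, h⟩
  · intro S hS g hg himg
    have hScard := (Finset.mem_powersetCard.1 hS).2
    by_cases h : IsSpanTree u v S
    · simp only [h, if_true]
      subst himg
      refine det_sq_of_connected u v r hg (fun w => h.2 r w)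
    · simp only [h, if_false]
      have hnot : ¬ ∀ w : V, Relation.ReflTransGen (StepIn u v S) r w := by
        intro hall
        apply h
        refine ⟨by omega, fun x y => ?_⟩
        have hsymm : ∀ {a b : V}, Relation.ReflTransGen (StepIn u v S) a b →
            Relation.ReflTransGen (StepIn u v S) b a := by
          intro a b hab
          induction hab with
          | refl => exact Relation.ReflTransGen.refl
          | tail _ hs ih =>
            obtain ⟨f, hf, hfe⟩ := hs
            refine Relation.ReflTransGen.head ⟨f, hf, ?_⟩ ih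
            tauto
        exact (hsymm (hall x)).trans (hall y)
      obtain ⟨w₀, hw₀⟩ := not_forall.1 hnot
      subst himg
      rw [det_eq_zero_of_not_connected u v r hw₀]
      simp

end

end Vale.Agent.Lib.P143
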