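import Vale.Agent.Lib.P143.Levy

/-!
One-step characteristic functions of the innovations, and their telescoping along a level.
-/

set_option linter.unusedSimpArgs false
set_option linter.unusedVariables false
set_option linter.unusedSectionVars false
set_option warn.classDefReducibility false

open Filter MeasureTheory Finset Topology ProbabilityTheory

namespace Vale.Agent.Lib.P143

noncomputable section

variable {I Ω₂ : Type*} [MeasurableSpace Ω₂]

/-- The noise before step `K`, padded by zero. -/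
def pastVec (g : ℕ → ℕ → I → Ω₂ → ℝ) (j K : ℕ) (w : Ω₂) : ℕ × I → ℝ :=
  open Classical in fun p => if p.1 < K then g j p.1 p.2 w else 0

/-- The noise at step `K`. -/
def nowVec (g : ℕ → ℕ → I → Ω₂ → ℝ) (j K : ℕ) (w : Ω₂) : I → ℝ := fun e => g j K e w

/-- The sigma-algebra of the signal and of the noise before step `K`. -/
def GG (g : ℕ → ℕ → I → Ω₂ → ℝ) (j K : ℕ) : MeasurableSpace ((I → Bool) × Ω₂) :=
  MeasurableSpace.comap (fun ω => (ω.1, pastVec g j K ω.2)) inferInstance

variable (μ : Measure (I → Bool)) [IsProbabilityMeasure μ] (ν : Measure Ω₂) [IsProbabilityMeasure ν]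
  {g : ℕ → ℕ → I → Ω₂ → ℝ} (Bs : I → ℕ → Finset I)

/-- Independence lifts to a product with a further factor on the left. -/
lemma indepFun_prod_left {Ω₁ α β : Type*} [MeasurableSpace Ω₁] [MeasurableSpace α] [MeasurableSpace β]
    (μ₁ : Measure Ω₁) [IsProbabilityMeasure μ₁] {U : Ω₂ → α} {V : Ω₂ → β}
    (hU : Measurable U) (hV : Measurable V) (h : IndepFun U V ν) :
    IndepFun (fun ω : Ω₁ × Ω₂ => (ω.1, U ω.2)) (fun ω : Ω₁ × Ω₂ => V ω.2) (μ₁.prod ν) := by
  have hX : Measurable fun ω : Ω₁ × Ω₂ => (ω.1, U ω.2) :=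
    measurable_fst.prodMk (hU.comp measurable_snd)
  have hY : Measurable fun ω : Ω₁ × Ω₂ => V ω.2 := hV.comp measurable_snd
  rw [indepFun_iff_map_prod_eq_prod_map_map hX.aemeasurable hY.aemeasurable]
  have h1 : (μ₁.prod ν).map (fun ω : Ω₁ × Ω₂ => (ω.1, U ω.2)) = μ₁.prod (ν.map U) := by
    have := Measure.map_prod_map (μa := μ₁) (μc := ν) (f := id) (g := U) measurable_id hU
    rw [Measure.map_id] at this
    rw [this]
    rfl
  have h2 : (μ₁.prod ν).map (fun ω : Ω₁ × Ω₂ => V ω.2) = ν.map V := by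
    have : (fun ω : Ω₁ × Ω₂ => V ω.2) = V ∘ Prod.snd := rfl
    rw [this, ← Measure.map_map hV measurable_snd, Measure.map_snd_prod]
    simp
  rw [h1, h2]
  have h3 := (indepFun_iff_map_prod_eq_prod_map_map hU.aemeasurable hV.aemeasurable).1 h
  have hUV : Measurable fun w => (U w, V w) := hU.prodMk hV
  have h4 : (μ₁.prod ν).map (fun ω : Ω₁ × Ω₂ => (ω.1, (U ω.2, V ω.2))) =
      μ₁.prod ((ν.map U).prod (ν.map V)) := by
    rw [← h3]
    have := Measure.map_prod_map (μa := μ₁) (μc := ν) (f := id) (g := fun w => (U w, V w))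
      measurable_id hUV
    rw [Measure.map_id] at this
    rw [this]
    rfl
  have h5 : (fun ω : Ω₁ × Ω₂ => ((ω.1, U ω.2), V ω.2)) =
      (MeasurableEquiv.prodAssoc (α := Ω₁) (β := α) (γ := β)).symm ∘
        (fun ω : Ω₁ × Ω₂ => (ω.1, (U ω.2, V ω.2))) := rfl
  change (μ₁.prod ν).map (fun ω : Ω₁ × Ω₂ => ((ω.1, U ω.2), V ω.2)) = _
  have h6 : Measurable (fun ω : Ω₁ × Ω₂ => (ω.1, (U ω.2, V ω.2))) :=
    measurable_fst.prodMk (hUV.comp measurable_snd)
  rw [h5, ← Measure.map_map (MeasurableEquiv.measurable _) h6, h4]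
  rw [← Measure.prodAssoc_prod]
  rw [Measure.map_map (MeasurableEquiv.measurable _) (MeasurableEquiv.measurable _)]
  simp

lemma measurable_pastVec (hg : ∀ j k e, Measurable (g j k e)) (j K : ℕ) :
    Measurable (pastVec g j K) := by
  classical
  refine measurable_pi_lambda _ fun p => ?_
  unfold pastVec
  by_cases h : p.1 < K
  · simp only [h, if_true]; exact hg _ _ _
  · simp only [h, if_false]; exact measurable_const

lemma measurable_nowVec (hg : ∀ j k e, Measurable (g j k e)) (j K : ℕ) :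
    Measurable (nowVec g j K) :=
  measurable_pi_lambda _ fun e => hg _ _ _

lemma indepFun_past_now (hg : IsNoiseArray ν g) (j K : ℕ) :
    IndepFun (pastVec g j K) (nowVec g j K) ν := by
  classical
  have hI := hg.indep j
  have hle : ∀ p : ℕ × I, MeasurableSpace.comap (g j p.1 p.2) inferInstance ≤
      (inferInstance : MeasurableSpace Ω₂) := fun p => (hg.meas j p.1 p.2).comap_le
  have hdis : Disjoint {p : ℕ × I | p.1 < K} {p : ℕ × I | p.1 = K} := by
    rw [Set.disjoint_left]
    intro p h1 h2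
    have h3 : p.1 < K := h1
    have h4 : p.1 = K := h2
    omega
  have key := indep_iSup_of_disjoint hle hI hdis
  rw [IndepFun_iff_Indep]
  refine indep_of_indep_of_le_left (indep_of_indep_of_le_right key ?_) ?_
  · refine Measurable.comap_le ?_
    refine meas_pi _ fun e => ?_
    have h1 : Measurable[MeasurableSpace.comap (g j K e) inferInstance] (g j K e) :=
      comap_measurable _
    refine h1.mono ?_ le_rfl
    exact le_iSup₂_of_le (K, e) rfl le_rfl
  · refine Measurable.comap_le ?_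
    refine meas_pi _ fun p => ?_
    unfold pastVec
    by_cases h : p.1 < K
    · simp only [h, if_true]
      have h1 : Measurable[MeasurableSpace.comap (g j p.1 p.2) inferInstance] (g j p.1 p.2) :=
        comap_measurable _
      refine h1.mono ?_ le_rfl
      exact le_iSup₂_of_le p h le_rfl
    · simp only [h, if_false]
      exact @measurable_const _ _ _ (_) _

lemma indepFun_GG_now (hg : IsNoiseArray ν g) (j K : ℕ) :
    IndepFun (fun ω : (I → Bool) × Ω₂ => (ω.1, pastVec g j K ω.2))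
      (fun ω : (I → Bool) × Ω₂ => nowVec g j K ω.2) (μ.prod ν) :=
  indepFun_prod_left ν μ (measurable_pastVec hg.meas j K) (measurable_nowVec hg.meas j K)
    (indepFun_past_now ν hg j K)

lemma measurable_GG_spin (j K : ℕ) (e : I) :
    Measurable[GG g j K] fun ω : (I → Bool) × Ω₂ => spin (ω.1 e) := by
  have h : Measurable[GG g j K] (fun ω : (I → Bool) × Ω₂ => (ω.1, pastVec g j K ω.2)) :=
    comap_measurable _
  have h2 : Measurable (fun x : (I → Bool) × (ℕ × I → ℝ) => spin (x.1 e)) :=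
    (measurable_spin_apply e).comp measurable_fst
  exact h2.comp h

lemma FF_le_GG (j K : ℕ) : FF g j K ≤ GG g j K := by
  classical
  refine Measurable.comap_le ?_
  refine meas_pi _ fun p => ?_
  have h : Measurable[GG g j K] (fun ω : (I → Bool) × Ω₂ => (ω.1, pastVec g j K ω.2)) :=
    comap_measurable _
  have h2 : Measurable[GG g j K] (fun ω : (I → Bool) × Ω₂ => g j p.1 p.2 ω.2) := by
    have h4 : Measurable (fun x : (I → Bool) × (ℕ × I → ℝ) => x.2 ((p.1 : ℕ), p.2)) :=
      (measurable_pi_apply ((p.1 : ℕ), p.2)).comp measurable_snd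
    have h3 : Measurable[GG g j K] (fun ω : (I → Bool) × Ω₂ => pastVec g j K ω.2 ((p.1 : ℕ), p.2)) :=
      h4.comp h
    have e : (fun ω : (I → Bool) × Ω₂ => g j p.1 p.2 ω.2) =
        (fun ω : (I → Bool) × Ω₂ => pastVec g j K ω.2 ((p.1 : ℕ), p.2)) := by
      funext ω
      simp [pastVec, p.1.2]
    rw [e]
    exact h3
  unfold obs
  exact ((measurable_GG_spin j K p.2).const_mul _).add (h2.const_mul _)


/-! ### Gaussian characteristic function of a finite combination -/

lemma integral_cexp_gaussian {P : Measure Ω₂} {X : Ω₂ → ℝ} (hX : Measurable X)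
    (hl : P.map X = gaussianReal 0 1) (a : ℝ) :
    ∫ w, Complex.exp (Complex.I * (a * X w : ℝ)) ∂P = (Real.exp (-(a ^ 2 / 2)) : ℝ) := by
  have h1 := charFun_gaussianReal (μ := (0 : ℝ)) (v := (1 : NNReal)) a
  rw [charFun_apply_real, ← hl, integral_map hX.aemeasurable (by fun_prop)] at h1
  have h2 : ∀ w, Complex.exp (Complex.I * (a * X w : ℝ)) = Complex.exp ((a : ℂ) * (X w : ℂ) * Complex.I) := by
    intro w
    congr 1
    push_cast
    ring
  simp_rw [h2]
  rw [h1]
  push_cast
  congr 1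
  simp

/-- Characteristic function of a finite combination of an independent Gaussian family. -/
lemma integral_cexp_sum_gaussian {κ : Type*} {P : Measure Ω₂} {X : κ → Ω₂ → ℝ}
    (hX : ∀ e, Measurable (X e)) (hi : iIndepFun X P)
    (hl : ∀ e, P.map (X e) = gaussianReal 0 1) (A : Finset κ) (a : κ → ℝ) :
    ∫ w, Complex.exp (Complex.I * (∑ e ∈ A, a e * X e w : ℝ)) ∂P =
      (Real.exp (-(∑ e ∈ A, a e ^ 2 / 2)) : ℝ) := by
  classical
  have hA : iIndepFun (fun e : A => X e) P := hi.precomp (g := fun e : A => (e : κ)) Subtype.val_injective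
  have h1 : ∀ w, Complex.exp (Complex.I * (∑ e ∈ A, a e * X e w : ℝ)) =
      ∏ e : A, Complex.exp (Complex.I * (a e * X e w : ℝ)) := by
    intro w
    rw [← Complex.exp_sum]
    congr 1
    rw [← Finset.mul_sum, ← Complex.ofReal_sum, ← Finset.sum_coe_sort A]
  simp_rw [h1]
  have h2 := hA.integral_fun_prod_comp (𝕜 := ℂ) (f := fun (e : A) (x : ℝ) => Complex.exp (Complex.I * (a e * x : ℝ)))
    (fun e => (hX e).aemeasurable) (fun e => by
      apply Measurable.aestronglyMeasurable
      fun_prop)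
  rw [h2]
  simp_rw [integral_cexp_gaussian (hX _) (hl _)]
  rw [← Complex.ofReal_prod, ← Real.exp_sum]
  congr 2
  rw [← Finset.sum_neg_distrib, ← Finset.sum_coe_sort A (fun e => - (a e ^ 2 / 2))]

/-! ### The second-order bound for the complex exponential -/

lemma norm_cexp_sub_one_sub_le (u : ℝ) :
    ‖Complex.exp (Complex.I * u) - 1 - Complex.I * u‖ ≤ 3 * u ^ 2 := by
  have hnorm : ‖Complex.I * (u : ℂ)‖ = |u| := by simp
  by_cases hu : |u| ≤ 1
  · have := Complex.norm_exp_sub_one_sub_id_le (x := Complex.I * u) (by rw [hnorm]; exact hu)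
    rw [hnorm, sq_abs] at this
    nlinarith [sq_nonneg u]
  · have hu' : 1 < |u| := not_le.1 hu
    have h1 : ‖Complex.exp (Complex.I * u)‖ = 1 := Complex.norm_exp_I_mul_ofReal u
    calc ‖Complex.exp (Complex.I * u) - 1 - Complex.I * u‖
        ≤ ‖Complex.exp (Complex.I * u)‖ + ‖(1 : ℂ)‖ + ‖Complex.I * (u : ℂ)‖ :=
          (norm_sub_le _ _).trans (add_le_add_left (norm_sub_le _ _) _)
      _ = 2 + |u| := by rw [h1, hnorm]; simp; ring
      _ ≤ 3 * u ^ 2 := by
          rw [← sq_abs]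
          nlinarith

/-! ### Innovations -/

/-- The drift along the path at level `j`, step `l`. -/
def pp (μ : Measure (I → Bool)) (Bs : I → ℕ → Finset I) (g : ℕ → ℕ → I → Ω₂ → ℝ) (j l : ℕ) (e : I)
    (ω : (I → Bool) × Ω₂) : ℝ := drift μ Bs (fun f => yl g j l f ω) e

/-- The innovation increment at level `j`, step `l`. -/
def xi (μ : Measure (I → Bool)) (Bs : I → ℕ → Finset I) (g : ℕ → ℕ → I → Ω₂ → ℝ) (j l : ℕ) (e : I)
    (ω : (I → Bool) × Ω₂) : ℝ := obs g j l e ω - hs j * pp μ Bs g j l e ω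

/-- Weighted sum of innovations before step `K`. -/
def SK (μ : Measure (I → Bool)) (Bs : I → ℕ → Finset I) (g : ℕ → ℕ → I → Ω₂ → ℝ) (A : Finset I)
    (Λ : ℕ → I → ℝ) (j K : ℕ) (ω : (I → Bool) × Ω₂) : ℝ :=
  ∑ l ∈ range K, ∑ e ∈ A, Λ l e * xi μ Bs g j l e ω

lemma abs_pp_le (j l : ℕ) (e : I) (ω : (I → Bool) × Ω₂) : |pp μ Bs g j l e ω| ≤ 1 :=
  abs_limsup_le fun R => abs_tiltM_le μ _ e _

lemma measurable_FF_pp {j K l : ℕ} (hl : l ≤ K) (e : I) : Measurable[FF g j K] (pp μ Bs g j l e) :=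
  measurable_FF_drift μ Bs hl e

lemma measurable_FF_xi {j K l : ℕ} (hl : l < K) (e : I) : Measurable[FF g j K] (xi μ Bs g j l e) := by
  unfold xi
  exact (measurable_FF_obs hl e).sub ((measurable_FF_pp μ Bs hl.le e).const_mul _)

lemma measurable_FF_SK (A : Finset I) (Λ : ℕ → I → ℝ) (j K : ℕ) :
    Measurable[FF g j K] (SK μ Bs g A Λ j K) := by
  unfold SK
  refine Finset.measurable_sum _ fun l hl => ?_
  refine Finset.measurable_sum _ fun e _ => ?_
  exact (measurable_FF_xi μ Bs (Finset.mem_range.1 hl) e).const_mul _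

/-- The signal part of the increment. -/
def uu (μ : Measure (I → Bool)) (Bs : I → ℕ → Finset I) (g : ℕ → ℕ → I → Ω₂ → ℝ) (A : Finset I)
    (Λ : ℕ → I → ℝ) (j K : ℕ) (ω : (I → Bool) × Ω₂) : ℝ :=
  hs j * ∑ e ∈ A, Λ K e * (spin (ω.1 e) - pp μ Bs g j K e ω)

/-- The noise part of the increment. -/
def wwi (g : ℕ → ℕ → I → Ω₂ → ℝ) (A : Finset I)
    (Λ : ℕ → I → ℝ) (j K : ℕ) (w : Ω₂) : ℝ :=
  ∑ e ∈ A, (rs j * Λ K e) * g j K e w

lemma SK_succ (A : Finset I) (Λ : ℕ → I → ℝ) (j K : ℕ) (ω : (I → Bool) × Ω₂) :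
    SK μ Bs g A Λ j (K + 1) ω = SK μ Bs g A Λ j K ω + uu μ Bs g A Λ j K ω + wwi g A Λ j K ω.2 := by
  unfold SK uu wwi
  rw [Finset.sum_range_succ, add_assoc]
  congr 1
  rw [Finset.mul_sum, ← Finset.sum_add_distrib]
  refine Finset.sum_congr rfl fun e _ => ?_
  unfold xi obs
  ring

lemma measurable_GG_uu (A : Finset I) (Λ : ℕ → I → ℝ) (j K : ℕ) :
    Measurable[GG g j K] (uu μ Bs g A Λ j K) := by
  unfold uu
  refine Measurable.const_mul ?_ _
  refine Finset.measurable_sum _ fun e _ => ?_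
  refine Measurable.const_mul ?_ _
  exact (measurable_GG_spin j K e).sub ((measurable_FF_pp μ Bs le_rfl e).mono (FF_le_GG j K) le_rfl)

lemma abs_uu_le (A : Finset I) (Λ : ℕ → I → ℝ) (j K : ℕ) (ω : (I → Bool) × Ω₂) :
    |uu μ Bs g A Λ j K ω| ≤ 2 * hs j * ∑ e ∈ A, |Λ K e| := by
  unfold uu
  rw [abs_mul, abs_of_pos (hs_pos j), mul_comm 2, mul_assoc]
  refine mul_le_mul_of_nonneg_left ?_ (hs_pos j).le
  rw [Finset.mul_sum]
  refine (abs_sum_le_sum_abs _ _).trans (Finset.sum_le_sum fun e _ => ?_)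
  rw [abs_mul, mul_comm]
  refine mul_le_mul_of_nonneg_right ?_ (abs_nonneg _)
  have h1 := abs_pp_le μ Bs (g := g) j K e ω
  have h2 := abs_spin (ω.1 e)
  calc |spin (ω.1 e) - pp μ Bs g j K e ω| ≤ |spin (ω.1 e)| + |pp μ Bs g j K e ω| := abs_sub _ _
    _ ≤ 2 := by rw [h2]; linarith

/-- The martingale property against complex test functions. -/
lemma integral_mul_sub_eq_zero (hg : IsNoiseArray ν g) (e : I) (hmono : Monotone (Bs e))
    (hex : ∀ f, ∃ R, f ∈ Bs e R) (j k : ℕ) {Q : (I → Bool) × Ω₂ → ℂ}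
    (hQ : Measurable[FF g j k] Q) {C : ℝ} (hb : ∀ ω, ‖Q ω‖ ≤ C) :
    ∫ ω, Q ω * ((spin (ω.1 e) - pp μ Bs g j k e ω : ℝ) : ℂ) ∂(μ.prod ν) = 0 := by
  have hm := FF_le (g := g) hg.meas j k
  obtain ⟨ω₀⟩ : Nonempty ((I → Bool) × Ω₂) := (μ.prod ν).nonempty_of_neZero
  have hreal : ∀ {R : (I → Bool) × Ω₂ → ℝ}, Measurable[FF g j k] R → (∀ ω, |R ω| ≤ C) →
      ∫ ω, R ω * (spin (ω.1 e) - pp μ Bs g j k e ω) ∂(μ.prod ν) = 0 := by
    intro R hR hRb
    have hRm : Measurable R := hR.mono hm le_rfl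
    have hC0 : 0 ≤ C := (abs_nonneg _).trans (hRb ω₀)
    have h1 := integral_mul_spin_eq μ ν Bs hg e hmono hex j k hR hRb
    have hppm : Measurable (pp μ Bs g j k e) := (measurable_FF_pp μ Bs le_rfl e).mono hm le_rfl
    have hi1 : Integrable (fun ω : (I → Bool) × Ω₂ => R ω * spin (ω.1 e)) (μ.prod ν) := by
      refine Integrable.of_bound (C := C * 1) (hRm.mul (measurable_spin_fst e)).aestronglyMeasurable
        (Eventually.of_forall fun ω => ?_)
      rw [Real.norm_eq_abs, abs_mul, abs_spin]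
      simpa using hRb ω
    have hi2 : Integrable (fun ω : (I → Bool) × Ω₂ => R ω * pp μ Bs g j k e ω) (μ.prod ν) := by
      refine Integrable.of_bound (C := C * 1) (hRm.mul hppm).aestronglyMeasurable
        (Eventually.of_forall fun ω => ?_)
      rw [Real.norm_eq_abs, abs_mul]
      exact mul_le_mul (hRb ω) (abs_pp_le μ Bs j k e ω) (abs_nonneg _) hC0
    simp_rw [mul_sub]
    rw [integral_sub hi1 hi2, h1]
    simp only [pp, sub_self]
  have hre : Measurable[FF g j k] (fun ω => (Q ω).re) := Complex.measurable_re.comp hQ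
  have him : Measurable[FF g j k] (fun ω => (Q ω).im) := Complex.measurable_im.comp hQ
  have h1 := hreal hre (fun ω => (Complex.abs_re_le_norm _).trans (hb ω))
  have h2 := hreal him (fun ω => (Complex.abs_im_le_norm _).trans (hb ω))
  have hsplit : ∀ ω : (I → Bool) × Ω₂, Q ω * ((spin (ω.1 e) - pp μ Bs g j k e ω : ℝ) : ℂ) =
      (((Q ω).re * (spin (ω.1 e) - pp μ Bs g j k e ω) : ℝ) : ℂ) +
        (((Q ω).im * (spin (ω.1 e) - pp μ Bs g j k e ω) : ℝ) : ℂ) * Complex.I := by
    intro ω
    conv_lhs => rw [← Complex.re_add_im (Q ω)]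
    push_cast
    ring
  simp_rw [hsplit]
  have hbdd : ∀ {R : (I → Bool) × Ω₂ → ℝ}, Measurable[FF g j k] R → (∀ ω, |R ω| ≤ C) →
      Integrable (fun ω => R ω * (spin (ω.1 e) - pp μ Bs g j k e ω)) (μ.prod ν) := by
    intro R hR hRb
    have hRm : Measurable R := hR.mono hm le_rfl
    have hC0 : 0 ≤ C := (abs_nonneg _).trans (hRb ω₀)
    have hppm : Measurable (pp μ Bs g j k e) := (measurable_FF_pp μ Bs le_rfl e).mono hm le_rfl
    refine Integrable.of_bound (C := C * 2)
      (hRm.mul ((measurable_spin_fst e).sub hppm)).aestronglyMeasurable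
      (Eventually.of_forall fun ω => ?_)
    rw [Real.norm_eq_abs, abs_mul]
    refine mul_le_mul (hRb ω) ?_ (abs_nonneg _) hC0
    have h1 := abs_pp_le μ Bs (g := g) j k e ω
    have h2 := abs_spin (ω.1 e)
    calc |spin (ω.1 e) - pp μ Bs g j k e ω| ≤ |spin (ω.1 e)| + |pp μ Bs g j k e ω| := abs_sub _ _
      _ ≤ 2 := by rw [h2]; linarith
  have hi1 : Integrable (fun ω : (I → Bool) × Ω₂ =>
      (((Q ω).re * (spin (ω.1 e) - pp μ Bs g j k e ω) : ℝ) : ℂ)) (μ.prod ν) :=
    (hbdd hre (fun ω => (Complex.abs_re_le_norm _).trans (hb ω))).ofReal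
  have hi2' : Integrable (fun ω : (I → Bool) × Ω₂ =>
      (((Q ω).im * (spin (ω.1 e) - pp μ Bs g j k e ω) : ℝ) : ℂ)) (μ.prod ν) :=
    (hbdd him (fun ω => (Complex.abs_im_le_norm _).trans (hb ω))).ofReal
  have hi2 := hi2'.mul_const Complex.I
  rw [integral_add hi1 hi2, integral_mul_const]
  rw [integral_complex_ofReal, integral_complex_ofReal, h1, h2]
  simp

/-- The accumulated variance. -/
def varSum (A : Finset I) (Λ : ℕ → I → ℝ) (j K : ℕ) : ℝ :=
  (hs j / 2) * ∑ l ∈ range K, ∑ e ∈ A, Λ l e ^ 2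

/-- The accumulated error. -/
def errSum (A : Finset I) (Λ : ℕ → I → ℝ) (j K : ℕ) : ℝ :=
  ∑ l ∈ range K, 3 * (2 * hs j * ∑ e ∈ A, |Λ l e|) ^ 2

lemma norm_cexp_I_mul (x : ℝ) : ‖Complex.exp (Complex.I * (x : ℂ))‖ = 1 :=
  Complex.norm_exp_I_mul_ofReal x

/-- The characteristic function of weighted innovations: the Gaussian value up to second order. -/
theorem char_level (hg : IsNoiseArray ν g) (hmono : ∀ e, Monotone (Bs e))
    (hex : ∀ e f, ∃ R, f ∈ Bs e R) (A : Finset I) (Λ : ℕ → I → ℝ) (j K : ℕ) :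
    ‖∫ ω, Complex.exp (Complex.I * (SK μ Bs g A Λ j K ω : ℝ)) ∂(μ.prod ν) -
        ((Real.exp (-varSum A Λ j K) : ℝ) : ℂ)‖ ≤ errSum A Λ j K := by
  classical
  induction K with
  | zero =>
    simp [SK, varSum, errSum]
  | succ K ih =>
    have hm := FF_le (g := g) hg.meas j K
    have hmG : GG g j K ≤ (inferInstance : MeasurableSpace ((I → Bool) × Ω₂)) := by
      refine Measurable.comap_le ?_
      exact measurable_fst.prodMk ((measurable_pastVec hg.meas j K).comp measurable_snd)
    set Q : (I → Bool) × Ω₂ → ℂ := fun ω => Complex.exp (Complex.I * (SK μ Bs g A Λ j K ω : ℝ)) with hQdef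
    have hQF : Measurable[FF g j K] Q :=
      Complex.measurable_exp.comp
        (measurable_const.mul (Complex.measurable_ofReal.comp (measurable_FF_SK μ Bs A Λ j K)))
    have hQG : Measurable[GG g j K] Q := hQF.mono (FF_le_GG j K) le_rfl
    have hQm : Measurable Q := hQF.mono hm le_rfl
    have hQn : ∀ ω, ‖Q ω‖ = 1 := fun ω => norm_cexp_I_mul _
    have huG := measurable_GG_uu μ Bs (g := g) A Λ j K
    have hum : Measurable (uu μ Bs g A Λ j K) := huG.mono hmG le_rfl
    set U : (I → Bool) × Ω₂ → ℂ := fun ω => Complex.exp (Complex.I * (uu μ Bs g A Λ j K ω : ℝ)) with hUdef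
    have hUG : Measurable[GG g j K] U :=
      Complex.measurable_exp.comp (measurable_const.mul (Complex.measurable_ofReal.comp huG))
    have hUm : Measurable U := hUG.mono hmG le_rfl
    have hUn : ∀ ω, ‖U ω‖ = 1 := fun ω => norm_cexp_I_mul _
    set W : (I → Bool) × Ω₂ → ℂ := fun ω => Complex.exp (Complex.I * (wwi g A Λ j K ω.2 : ℝ)) with hWdef
    have hWc : Measurable[MeasurableSpace.comap (fun ω : (I → Bool) × Ω₂ => nowVec g j K ω.2) inferInstance] W := by
      have h1 : Measurable fun v : I → ℝ => Complex.exp (Complex.I * ((∑ e ∈ A, (rs j * Λ K e) * v e : ℝ) : ℂ)) := by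
        refine Complex.measurable_exp.comp (measurable_const.mul (Complex.measurable_ofReal.comp ?_))
        exact Finset.measurable_sum _ fun e _ => (measurable_pi_apply e).const_mul _
      exact h1.comp (comap_measurable (fun ω : (I → Bool) × Ω₂ => nowVec g j K ω.2))
    have hWm : Measurable W := by
      refine hWc.mono ?_ le_rfl
      exact ((measurable_nowVec hg.meas j K).comp measurable_snd).comap_le
    have hWn : ∀ ω, ‖W ω‖ = 1 := fun ω => norm_cexp_I_mul _
    -- independence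
    have hind := indepFun_GG_now μ ν hg j K
    have hind2 : IndepFun (fun ω => Q ω * U ω) W (μ.prod ν) := by
      rw [IndepFun_iff_Indep] at hind ⊢
      exact indep_of_indep_of_le_left (indep_of_indep_of_le_right hind hWc.comap_le)
        (hQG.mul hUG).comap_le
    have hfac : ∫ ω, Complex.exp (Complex.I * (SK μ Bs g A Λ j (K + 1) ω : ℝ)) ∂(μ.prod ν) =
        (∫ ω, Q ω * U ω ∂(μ.prod ν)) * ∫ ω, W ω ∂(μ.prod ν) := by
      rw [← hind2.integral_fun_mul_eq_mul_integral (hQm.mul hUm).aestronglyMeasurable hWm.aestronglyMeasurable]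
      refine integral_congr_ae (Eventually.of_forall fun ω => ?_)
      simp only [hQdef, hUdef, hWdef]
      rw [SK_succ]
      rw [← Complex.exp_add, ← Complex.exp_add]
      congr 1
      push_cast
      ring
    -- the Gaussian factor
    have hW : ∫ ω, W ω ∂(μ.prod ν) = ((Real.exp (-(hs j / 2 * ∑ e ∈ A, Λ K e ^ 2)) : ℝ) : ℂ) := by
      have h1 : ∫ ω, W ω ∂(μ.prod ν) = ∫ w, Complex.exp (Complex.I * (wwi g A Λ j K w : ℝ)) ∂ν := by
        have := integral_fun_snd (μ := μ) (ν := ν) (fun w => Complex.exp (Complex.I * (wwi g A Λ j K w : ℝ)))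
        simpa using this
      rw [h1]
      have hi : iIndepFun (fun e : I => g j K e) ν :=
        (hg.indep j).precomp (g := fun e : I => (K, e)) (fun a b h => congrArg Prod.snd h)
      have h4 := integral_cexp_sum_gaussian (hg.meas j K) hi (hg.law j K) A (fun e => rs j * Λ K e)
      unfold wwi
      rw [h4]
      congr 3
      rw [Finset.mul_sum]
      refine Finset.sum_congr rfl fun e _ => ?_
      rw [mul_pow, sq (rs j), rs_sq]
      ring
    -- zero mean
    have hsp : ∀ (e : I) (ω : (I → Bool) × Ω₂), |spin (ω.1 e) - pp μ Bs g j K e ω| ≤ 2 := by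
      intro e ω
      have h1 := abs_pp_le μ Bs (g := g) j K e ω
      have h2 := abs_spin (ω.1 e)
      calc |spin (ω.1 e) - pp μ Bs g j K e ω| ≤ |spin (ω.1 e)| + |pp μ Bs g j K e ω| := abs_sub _ _
        _ ≤ 2 := by rw [h2]; linarith
    have hppm : ∀ e, Measurable (pp μ Bs g j K e) := fun e =>
      (measurable_FF_pp μ Bs le_rfl e).mono hm le_rfl
    have hzero : ∫ ω, Q ω * (Complex.I * (uu μ Bs g A Λ j K ω : ℝ)) ∂(μ.prod ν) = 0 := by
      have h1 : ∀ ω, Q ω * (Complex.I * (uu μ Bs g A Λ j K ω : ℝ)) =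
          ∑ e ∈ A, (Complex.I * ((hs j * Λ K e : ℝ) : ℂ)) *
            (Q ω * ((spin (ω.1 e) - pp μ Bs g j K e ω : ℝ) : ℂ)) := by
        intro ω
        unfold uu
        rw [Complex.ofReal_mul, Complex.ofReal_sum, Finset.mul_sum, Finset.mul_sum, Finset.mul_sum]
        refine Finset.sum_congr rfl fun e _ => ?_
        push_cast
        ring
      simp_rw [h1]
      rw [integral_finsetSum]
      · refine Finset.sum_eq_zero fun e _ => ?_
        rw [integral_const_mul, integral_mul_sub_eq_zero μ ν Bs hg e (hmono e) (hex e) j K hQF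
          (C := 1) (fun ω => (hQn ω).le), mul_zero]
      · intro e _
        refine Integrable.const_mul ?_ _
        refine Integrable.of_bound (C := 2) ?_ (Eventually.of_forall fun ω => ?_)
        · refine (hQm.mul (Complex.measurable_ofReal.comp
            ((measurable_spin_fst e).sub (hppm e)))).aestronglyMeasurable
        · rw [norm_mul, hQn, one_mul, Complex.norm_real, Real.norm_eq_abs]
          exact hsp e ω
    -- remainder
    set b : ℝ := 2 * hs j * ∑ e ∈ A, |Λ K e| with hb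
    have hrem : ‖∫ ω, Q ω * U ω ∂(μ.prod ν) - ∫ ω, Q ω ∂(μ.prod ν)‖ ≤ 3 * b ^ 2 := by
      have hQU : Integrable (fun ω => Q ω * U ω) (μ.prod ν) := by
        refine Integrable.of_bound (C := 1) (hQm.mul hUm).aestronglyMeasurable
          (Eventually.of_forall fun ω => ?_)
        rw [norm_mul, hQn, hUn, one_mul]
      have hQi : Integrable Q (μ.prod ν) := by
        refine Integrable.of_bound (C := 1) hQm.aestronglyMeasurable
          (Eventually.of_forall fun ω => ?_)
        rw [hQn]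
      have huc : Measurable fun ω => ((uu μ Bs g A Λ j K ω : ℝ) : ℂ) :=
        Complex.measurable_ofReal.comp hum
      have hu2 : ∀ ω, (uu μ Bs g A Λ j K ω) ^ 2 ≤ b ^ 2 := by
        intro ω
        rw [← sq_abs (uu μ Bs g A Λ j K ω)]
        have h3 := abs_uu_le μ Bs (g := g) A Λ j K ω
        have h4 := abs_nonneg (uu μ Bs g A Λ j K ω)
        exact pow_le_pow_left₀ h4 h3 2
      have hR : Integrable (fun ω => Q ω * (U ω - 1 - Complex.I * (uu μ Bs g A Λ j K ω : ℝ))) (μ.prod ν) := by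
        refine Integrable.of_bound (C := 3 * b ^ 2)
          (hQm.mul ((hUm.sub measurable_const).sub (measurable_const.mul huc))).aestronglyMeasurable
          (Eventually.of_forall fun ω => ?_)
        rw [norm_mul, hQn, one_mul]
        refine (norm_cexp_sub_one_sub_le _).trans ?_
        have := hu2 ω
        linarith
      have hIu : Integrable (fun ω => Q ω * (Complex.I * (uu μ Bs g A Λ j K ω : ℝ))) (μ.prod ν) := by
        have h5 := (hQU.sub hQi).sub hR
        refine h5.congr (Eventually.of_forall fun ω => ?_)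
        simp only [Pi.sub_apply]
        ring
      rw [← integral_sub hQU hQi]
      have e1 : (fun ω => Q ω * U ω - Q ω) = fun ω =>
          Q ω * (U ω - 1 - Complex.I * (uu μ Bs g A Λ j K ω : ℝ)) +
            Q ω * (Complex.I * (uu μ Bs g A Λ j K ω : ℝ)) := by
        funext ω
        ring
      rw [e1, integral_add hR hIu, hzero, add_zero]
      refine (norm_integral_le_of_norm_le_const (C := 3 * b ^ 2) (Eventually.of_forall fun ω => ?_)).trans ?_
      · rw [norm_mul, hQn, one_mul]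
        refine (norm_cexp_sub_one_sub_le _).trans ?_
        have := hu2 ω
        linarith
      · simp
    -- conclusion
    have hvar : varSum A Λ j (K + 1) = varSum A Λ j K + hs j / 2 * ∑ e ∈ A, Λ K e ^ 2 := by
      unfold varSum
      rw [Finset.sum_range_succ, mul_add]
    have herr : errSum A Λ j (K + 1) = errSum A Λ j K + 3 * b ^ 2 := by
      unfold errSum
      rw [Finset.sum_range_succ]
    rw [hfac, hW, hvar, herr, neg_add, Real.exp_add, Complex.ofReal_mul]
    set E : ℝ := Real.exp (-(hs j / 2 * ∑ e ∈ A, Λ K e ^ 2)) with hE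
    set T : ℝ := Real.exp (-varSum A Λ j K) with hT
    have hE0 : 0 < E := Real.exp_pos _
    have hE1 : E ≤ 1 := by
      rw [hE, Real.exp_le_one_iff]
      have h1 : 0 ≤ ∑ e ∈ A, Λ K e ^ 2 := Finset.sum_nonneg fun e _ => sq_nonneg _
      have h2 := hs_pos j
      have : 0 ≤ hs j / 2 * ∑ e ∈ A, Λ K e ^ 2 := by positivity
      linarith
    have e2 : (∫ ω, Q ω * U ω ∂(μ.prod ν)) * (E : ℂ) - (T : ℂ) * (E : ℂ) =
        ((∫ ω, Q ω * U ω ∂(μ.prod ν)) - (T : ℂ)) * (E : ℂ) := by ring
    rw [e2, norm_mul, Complex.norm_real, Real.norm_eq_abs, abs_of_pos hE0]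
    have h6 : ‖(∫ ω, Q ω * U ω ∂(μ.prod ν)) - (T : ℂ)‖ ≤ errSum A Λ j K + 3 * b ^ 2 := by
      have h7 := norm_sub_le_norm_sub_add_norm_sub (∫ ω, Q ω * U ω ∂(μ.prod ν)) (∫ ω, Q ω ∂(μ.prod ν)) (T : ℂ)
      linarith
    have h8 : 0 ≤ ‖(∫ ω, Q ω * U ω ∂(μ.prod ν)) - (T : ℂ)‖ := norm_nonneg _
    nlinarith

end

end Vale.Agent.Lib.P143
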