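import Vale.Agent.Lib.P143.OneStep

/-!
Almost sure convergence of the Riemann sums of the drift along the observation path.
-/

set_option linter.unusedSimpArgs false
set_option linter.unusedVariables false
set_option linter.unusedSectionVars false
set_option warn.classDefReducibility false

open Filter MeasureTheory Finset Topology ProbabilityTheory

namespace Vale.Agent.Lib.P143

noncomputable section

/-- Geometrically small second moments give almost sure absolute summability. -/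
lemma ae_summable_of_sq {Ω : Type*} [MeasurableSpace Ω] {P : Measure Ω} [IsFiniteMeasure P]
    {X : ℕ → Ω → ℝ} (hX : ∀ n, Measurable (X n)) {C : ℝ} (hint : ∀ n, Integrable (fun ω => X n ω ^ 2) P)
    (hb : ∀ n, ∫ ω, X n ω ^ 2 ∂P ≤ C * (1 / 2) ^ n) :
    ∀ᵐ ω ∂P, Summable fun n => |X n ω| := by
  -- the weighted squares
  let Z : ℕ → Ω → ℝ := fun n ω => X n ω ^ 2 * (16 / 9) ^ n
  have hZm : ∀ n, Measurable (Z n) := fun n => ((hX n).pow_const 2).mul_const _
  have hZnn : ∀ n ω, 0 ≤ Z n ω := fun n ω => by positivity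
  have hZi : ∀ n, Integrable (Z n) P := fun n => (hint n).mul_const _
  have hZb : ∀ n, ∫ ω, Z n ω ∂P ≤ C * (8 / 9) ^ n := by
    intro n
    simp only [Z]
    rw [integral_mul_const]
    have h1 : (0 : ℝ) < (16 / 9) ^ n := by positivity
    calc (∫ ω, X n ω ^ 2 ∂P) * (16 / 9) ^ n ≤ (C * (1 / 2) ^ n) * (16 / 9) ^ n :=
          mul_le_mul_of_nonneg_right (hb n) h1.le
      _ = C * (8 / 9) ^ n := by
          rw [mul_assoc, ← mul_pow]
          norm_num
  have hlint : ∀ n, ∫⁻ ω, ENNReal.ofReal (Z n ω) ∂P ≤ ENNReal.ofReal (C * (8 / 9) ^ n) := by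
    intro n
    rw [← ofReal_integral_eq_lintegral_ofReal (hZi n) (Eventually.of_forall (hZnn n))]
    exact ENNReal.ofReal_le_ofReal (hZb n)
  have hsum : ∫⁻ ω, ∑' n, ENNReal.ofReal (Z n ω) ∂P ≠ ⊤ := by
    rw [lintegral_tsum (f := fun n ω => ENNReal.ofReal (Z n ω))
      fun n => (ENNReal.measurable_ofReal.comp (hZm n)).aemeasurable]
    have hgeo : Summable fun n : ℕ => |C| * (8 / 9 : ℝ) ^ n :=
      (summable_geometric_of_lt_one (by norm_num) (by norm_num)).mul_left _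
    refine ne_top_of_le_ne_top ?_ (ENNReal.tsum_le_tsum fun n => (hlint n).trans
      (ENNReal.ofReal_le_ofReal (mul_le_mul_of_nonneg_right (le_abs_self C) (by positivity))))
    exact hgeo.tsum_ofReal_ne_top
  have hae := ae_lt_top' (Measurable.tsum fun n =>
    (ENNReal.measurable_ofReal.comp (hZm n))).aemeasurable hsum
  filter_upwards [hae] with ω hω
  have h0 := ENNReal.tendsto_atTop_zero_of_tsum_ne_top hω.ne
  have hev : ∀ᶠ n in atTop, ENNReal.ofReal (Z n ω) < 1 := h0.eventually (gt_mem_nhds zero_lt_one)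
  have hgeo : Summable fun n : ℕ => (3 / 4 : ℝ) ^ n :=
    summable_geometric_of_lt_one (by norm_num) (by norm_num)
  refine Summable.of_norm_bounded_eventually_nat hgeo ?_
  filter_upwards [hev] with n hn
  rw [ENNReal.ofReal_lt_one] at hn
  rw [norm_abs_eq_norm, Real.norm_eq_abs]
  have h1 : X n ω ^ 2 * (16 / 9) ^ n = (|X n ω| * (4 / 3) ^ n) ^ 2 := by
    rw [mul_pow, sq_abs, ← pow_mul, mul_comm n 2, pow_mul]
    norm_num
  have h2 : (|X n ω| * (4 / 3) ^ n) ^ 2 < 1 := by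
    rw [← h1]
    exact hn
  have h3 : |X n ω| * (4 / 3) ^ n ≤ 1 := by
    have := abs_le_one_iff_mul_self_le_one.2 (le_of_lt (by rw [← sq]; exact h2) : (|X n ω| * (4 / 3) ^ n) * (|X n ω| * (4 / 3) ^ n) ≤ 1)
    exact (le_abs_self _).trans this
  have h4 : (3 / 4 : ℝ) ^ n * (4 / 3) ^ n = 1 := by
    rw [← mul_pow]; norm_num
  have h5 : (0 : ℝ) < (4 / 3) ^ n := by positivity
  have h6 : |X n ω| * (4 / 3) ^ n ≤ (3 / 4 : ℝ) ^ n * (4 / 3) ^ n := by rw [h4]; exact h3
  exact le_of_mul_le_mul_right h6 h5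

variable {I Ω₂ : Type*} [MeasurableSpace Ω₂]

variable (μ : Measure (I → Bool)) [IsProbabilityMeasure μ] (ν : Measure Ω₂) [IsProbabilityMeasure ν]
  {g : ℕ → ℕ → I → Ω₂ → ℝ} (Bs : I → ℕ → Finset I)

/-- The observation path in real time. -/
def yy (g : ℕ → ℕ → I → Ω₂ → ℝ) (ω : (I → Bool) × Ω₂) (t : ℝ) (e : I) : ℝ :=
  t * spin (ω.1 e) + forc (fun j l e => g j l e ω.2) t e

lemma yl_eq (j k : ℕ) (e : I) (ω : (I → Bool) × Ω₂) :
    yl g j k e ω = (k : ℝ) * hs j * spin (ω.1 e) + rs j * ∑ l ∈ range k, g j l e ω.2 := by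
  unfold yl obs
  rw [Finset.sum_add_distrib, Finset.sum_const, Finset.card_range, ← Finset.mul_sum, nsmul_eq_mul]
  ring

lemma yy_dyadic (hg : ∀ j k e ω, g j k e ω = (g (j + 1) (2 * k) e ω + g (j + 1) (2 * k + 1) e ω) / Real.sqrt 2)
    (j k : ℕ) (ω : (I → Bool) × Ω₂) :
    yy g ω ((k : ℝ) * hs j) = fun e => yl g j k e ω := by
  funext e
  unfold yy
  rw [yl_eq, forc_dyadic (a := fun j l e => g j l e ω.2) (fun j k e => hg j k e _)]

lemma yl_refine (hg : ∀ j k e ω, g j k e ω = (g (j + 1) (2 * k) e ω + g (j + 1) (2 * k + 1) e ω) / Real.sqrt 2)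
    (j k : ℕ) (e : I) (ω : (I → Bool) × Ω₂) :
    yl g (j + 1) (2 * k) e ω = yl g j k e ω := by
  have h1 : yy g ω ((k : ℝ) * hs j) e = yl g j k e ω := congrFun (yy_dyadic hg j k ω) e
  have h2 : yy g ω (((2 * k : ℕ) : ℝ) * hs (j + 1)) e = yl g (j + 1) (2 * k) e ω :=
    congrFun (yy_dyadic hg (j + 1) (2 * k) ω) e
  rw [← dyadic_refine] at h2
  rw [← h1, ← h2]

lemma pp_refine (hg : ∀ j k e ω, g j k e ω = (g (j + 1) (2 * k) e ω + g (j + 1) (2 * k + 1) e ω) / Real.sqrt 2)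
    (j k : ℕ) (e : I) (ω : (I → Bool) × Ω₂) :
    pp μ Bs g (j + 1) (2 * k) e ω = pp μ Bs g j k e ω := by
  unfold pp
  congr 2
  funext f
  exact yl_refine hg j k f ω

lemma drift_yy (hg : ∀ j k e ω, g j k e ω = (g (j + 1) (2 * k) e ω + g (j + 1) (2 * k + 1) e ω) / Real.sqrt 2)
    (j l : ℕ) (e : I) (ω : (I → Bool) × Ω₂) :
    drift μ Bs (yy g ω ((l : ℝ) * hs j)) e = pp μ Bs g j l e ω := by
  rw [yy_dyadic hg]
  rfl

/-- The increments of the martingale over odd steps. -/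
def dd (μ : Measure (I → Bool)) (Bs : I → ℕ → Finset I) (g : ℕ → ℕ → I → Ω₂ → ℝ) (j l : ℕ) (e : I)
    (ω : (I → Bool) × Ω₂) : ℝ :=
  pp μ Bs g j (2 * l + 1) e ω - pp μ Bs g j (2 * l) e ω

lemma abs_dd_le (j l : ℕ) (e : I) (ω : (I → Bool) × Ω₂) : |dd μ Bs g j l e ω| ≤ 2 := by
  unfold dd
  have h1 := abs_pp_le μ Bs (g := g) j (2 * l + 1) e ω
  have h2 := abs_pp_le μ Bs (g := g) j (2 * l) e ω
  calc _ ≤ |pp μ Bs g j (2 * l + 1) e ω| + |pp μ Bs g j (2 * l) e ω| := abs_sub _ _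
    _ ≤ 2 := by linarith

lemma measurable_FF_dd {j l K : ℕ} (h : 2 * l + 1 ≤ K) (e : I) :
    Measurable[FF g j K] (dd μ Bs g j l e) :=
  (measurable_FF_pp μ Bs h e).sub (measurable_FF_pp μ Bs (by omega) e)

/-- The second moment of a sum of martingale increments. -/
lemma integral_sum_dd_sq (hg : IsNoiseArray ν g) (e : I) (hmono : Monotone (Bs e))
    (hex : ∀ f, ∃ R, f ∈ Bs e R) (j L : ℕ) :
    ∫ ω, (∑ l ∈ range L, dd μ Bs g j l e ω) ^ 2 ∂(μ.prod ν) ≤ 4 * L := by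
  have hm : ∀ K, FF g j K ≤ (inferInstance : MeasurableSpace ((I → Bool) × Ω₂)) :=
    fun K => FF_le hg.meas j K
  have hddm : ∀ l, Measurable (dd μ Bs g j l e) := fun l =>
    (measurable_FF_dd μ Bs le_rfl e).mono (hm _) le_rfl
  have hSm : ∀ L, Measurable fun ω => ∑ l ∈ range L, dd μ Bs g j l e ω := fun L =>
    Finset.measurable_sum _ fun l _ => hddm l
  have hSb : ∀ L ω, |∑ l ∈ range L, dd μ Bs g j l e ω| ≤ 2 * L := by
    intro L ω
    refine (abs_sum_le_sum_abs _ _).trans ?_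
    calc _ ≤ ∑ l ∈ range L, (2 : ℝ) := Finset.sum_le_sum fun l _ => abs_dd_le μ Bs j l e ω
      _ = 2 * L := by simp; ring
  have hbdI : ∀ {f : (I → Bool) × Ω₂ → ℝ} {C : ℝ}, Measurable f → (∀ ω, |f ω| ≤ C) →
      Integrable f (μ.prod ν) := by
    intro f C hf hC
    exact Integrable.of_bound (C := C) hf.aestronglyMeasurable (Eventually.of_forall fun ω => by
      rw [Real.norm_eq_abs]; exact hC ω)
  induction L with
  | zero => simp
  | succ L ih =>
    simp_rw [Finset.sum_range_succ]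
    have hS := hSb L
    have hexpand : ∀ ω, (∑ l ∈ range L, dd μ Bs g j l e ω + dd μ Bs g j L e ω) ^ 2 =
        (∑ l ∈ range L, dd μ Bs g j l e ω) ^ 2 +
          2 * ((∑ l ∈ range L, dd μ Bs g j l e ω) * dd μ Bs g j L e ω) + dd μ Bs g j L e ω ^ 2 := by
      intro ω; ring
    simp_rw [hexpand]
    have hi1 : Integrable (fun ω => (∑ l ∈ range L, dd μ Bs g j l e ω) ^ 2) (μ.prod ν) := by
      refine hbdI (C := (2 * L) ^ 2) ((hSm L).pow_const 2) fun ω => ?_
      rw [abs_pow]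
      exact pow_le_pow_left₀ (abs_nonneg _) (hS ω) 2
    have hi2 : Integrable (fun ω => (∑ l ∈ range L, dd μ Bs g j l e ω) * dd μ Bs g j L e ω) (μ.prod ν) := by
      refine hbdI (C := (2 * L) * 2) ((hSm L).mul (hddm L)) fun ω => ?_
      rw [abs_mul]
      exact mul_le_mul (hS ω) (abs_dd_le μ Bs j L e ω) (abs_nonneg _) ((abs_nonneg _).trans (hS ω))
    have hi3 : Integrable (fun ω => dd μ Bs g j L e ω ^ 2) (μ.prod ν) := by
      refine hbdI (C := 2 ^ 2) ((hddm L).pow_const 2) fun ω => ?_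
      rw [abs_pow]
      exact pow_le_pow_left₀ (abs_nonneg _) (abs_dd_le μ Bs j L e ω) 2
    have hi12 : Integrable (fun ω => (∑ l ∈ range L, dd μ Bs g j l e ω) ^ 2 +
        2 * ((∑ l ∈ range L, dd μ Bs g j l e ω) * dd μ Bs g j L e ω)) (μ.prod ν) :=
      hi1.add (hi2.const_mul 2)
    rw [integral_add hi12 hi3, integral_add hi1 (hi2.const_mul 2), integral_const_mul]
    -- orthogonality
    have horth : ∫ ω, (∑ l ∈ range L, dd μ Bs g j l e ω) * dd μ Bs g j L e ω ∂(μ.prod ν) = 0 := by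
      have hQ : ∀ K, 2 * L ≤ K → Measurable[FF g j K] fun ω => ∑ l ∈ range L, dd μ Bs g j l e ω := by
        intro K hK
        refine Finset.measurable_sum _ fun l hl => ?_
        have := Finset.mem_range.1 hl
        exact measurable_FF_dd μ Bs (by omega) e
      have h1 := integral_mul_spin_eq μ ν Bs hg e hmono hex j (2 * L + 1) (hQ _ (by omega)) hS
      have h2 := integral_mul_spin_eq μ ν Bs hg e hmono hex j (2 * L) (hQ _ le_rfl) hS
      have hp1 : Integrable (fun ω => (∑ l ∈ range L, dd μ Bs g j l e ω) * pp μ Bs g j (2 * L + 1) e ω) (μ.prod ν) := by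
        refine hbdI (C := (2 * L) * 1) ((hSm L).mul ((measurable_FF_pp μ Bs le_rfl e).mono (hm _) le_rfl)) fun ω => ?_
        rw [abs_mul]
        exact mul_le_mul (hS ω) (abs_pp_le μ Bs j _ e ω) (abs_nonneg _) ((abs_nonneg _).trans (hS ω))
      have hp2 : Integrable (fun ω => (∑ l ∈ range L, dd μ Bs g j l e ω) * pp μ Bs g j (2 * L) e ω) (μ.prod ν) := by
        refine hbdI (C := (2 * L) * 1) ((hSm L).mul ((measurable_FF_pp μ Bs le_rfl e).mono (hm _) le_rfl)) fun ω => ?_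
        rw [abs_mul]
        exact mul_le_mul (hS ω) (abs_pp_le μ Bs j _ e ω) (abs_nonneg _) ((abs_nonneg _).trans (hS ω))
      have e1 : ∀ ω, (∑ l ∈ range L, dd μ Bs g j l e ω) * dd μ Bs g j L e ω =
          (∑ l ∈ range L, dd μ Bs g j l e ω) * pp μ Bs g j (2 * L + 1) e ω -
            (∑ l ∈ range L, dd μ Bs g j l e ω) * pp μ Bs g j (2 * L) e ω := by
        intro ω
        conv_lhs => unfold dd
        unfold dd
        ring
      simp_rw [e1]
      rw [integral_sub hp1 hp2]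
      unfold pp
      rw [← h1, ← h2]
      simp
    rw [horth]
    have h5 : ∫ ω, dd μ Bs g j L e ω ^ 2 ∂(μ.prod ν) ≤ 4 := by
      have : ∫ ω, dd μ Bs g j L e ω ^ 2 ∂(μ.prod ν) ≤ ∫ ω, (4 : ℝ) ∂(μ.prod ν) := by
        refine integral_mono hi3 (integrable_const _) fun ω => ?_
        have h6 := abs_dd_le μ Bs (g := g) j L e ω
        change dd μ Bs g j L e ω ^ 2 ≤ 4
        rw [← sq_abs]
        nlinarith [abs_nonneg (dd μ Bs g j L e ω)]
      simpa using this
    push_cast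
    linarith

/-- The drift along the real-time path, as a function of time. -/
def fD (μ : Measure (I → Bool)) (Bs : I → ℕ → Finset I) (g : ℕ → ℕ → I → Ω₂ → ℝ) (e : I)
    (ω : (I → Bool) × Ω₂) (s : ℝ) : ℝ := drift μ Bs (yy g ω s) e

lemma RS_fD (hg : ∀ j k e ω, g j k e ω = (g (j + 1) (2 * k) e ω + g (j + 1) (2 * k + 1) e ω) / Real.sqrt 2)
    (J m k : ℕ) (e : I) (ω : (I → Bool) × Ω₂) :
    RS (J + m) (fD μ Bs g e ω) ((k : ℝ) * hs J) =
      ∑ l ∈ range (k * 2 ^ m), hs (J + m) * pp μ Bs g (J + m) l e ω := by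
  rw [RS_dyadic]
  refine Finset.sum_congr rfl fun l _ => ?_
  unfold fD
  rw [drift_yy μ Bs hg]

/-- Consecutive Riemann sums differ by martingale increments. -/
lemma RS_succ_sub (hg : ∀ j k e ω, g j k e ω = (g (j + 1) (2 * k) e ω + g (j + 1) (2 * k + 1) e ω) / Real.sqrt 2)
    (J m k : ℕ) (e : I) (ω : (I → Bool) × Ω₂) :
    RS (J + (m + 1)) (fD μ Bs g e ω) ((k : ℝ) * hs J) - RS (J + m) (fD μ Bs g e ω) ((k : ℝ) * hs J) =
      hs (J + m + 1) * ∑ l ∈ range (k * 2 ^ m), dd μ Bs g (J + m + 1) l e ω := by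
  rw [RS_fD μ Bs hg, RS_fD μ Bs hg]
  have h2 : k * 2 ^ (m + 1) = 2 * (k * 2 ^ m) := by ring
  rw [h2, sum_range_two_mul, ← add_assoc J m 1]
  rw [Finset.mul_sum, ← Finset.sum_sub_distrib]
  refine Finset.sum_congr rfl fun l _ => ?_
  rw [← pp_refine μ Bs hg (J + m) l e ω, hs_succ (J + m)]
  unfold dd
  ring

lemma measurable_yy (hg : ∀ j k e, Measurable (g j k e)) (s : ℝ) (f : I) :
    Measurable fun ω : (I → Bool) × Ω₂ => yy g ω s f := by
  have h1 : Measurable fun ω : (I → Bool) × Ω₂ => s * spin (ω.1 f) :=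
    (measurable_spin_fst f).const_mul _
  have h2 : Measurable fun ω : (I → Bool) × Ω₂ => (fun (j l : ℕ) (e : I) => g j l e ω.2) := by
    refine measurable_pi_lambda _ fun j => measurable_pi_lambda _ fun l => measurable_pi_lambda _ fun e => ?_
    exact (hg j l e).comp measurable_snd
  have h3 := (forc_measurable (I := I) s f).comp h2
  exact h1.add h3

lemma measurable_fD (hg : ∀ j k e, Measurable (g j k e)) (e : I) (s : ℝ) :
    Measurable fun ω => fD μ Bs g e ω s := by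
  have h : Measurable fun ω : (I → Bool) × Ω₂ => yy g ω s :=
    measurable_pi_lambda _ fun f => measurable_yy hg s f
  exact (measurable_drift μ Bs e).comp h

/-- The Riemann sums of the drift converge almost surely at each dyadic time. -/
theorem riemann_tendsto (hg : IsNoiseArray ν g) (e : I) (hmono : Monotone (Bs e))
    (hex : ∀ f, ∃ R, f ∈ Bs e R) (J k : ℕ) :
    ∀ᵐ ω ∂(μ.prod ν), Tendsto (fun m => RS (J + m) (fD μ Bs g e ω) ((k : ℝ) * hs J)) atTop
      (𝓝 (dInt (fD μ Bs g e ω) ((k : ℝ) * hs J))) := by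
  let X : ℕ → (I → Bool) × Ω₂ → ℝ := fun m ω =>
    RS (J + (m + 1)) (fD μ Bs g e ω) ((k : ℝ) * hs J) - RS (J + m) (fD μ Bs g e ω) ((k : ℝ) * hs J)
  have hXm : ∀ m, Measurable (X m) := by
    intro m
    refine Measurable.sub ?_ ?_
    · exact RS_measurable (f := fun ω s => fD μ Bs g e ω s) (fun s => measurable_fD μ Bs hg.meas e s) _ _
    · exact RS_measurable (f := fun ω s => fD μ Bs g e ω s) (fun s => measurable_fD μ Bs hg.meas e s) _ _
  have hXe : ∀ m ω, X m ω = hs (J + m + 1) * ∑ l ∈ range (k * 2 ^ m), dd μ Bs g (J + m + 1) l e ω :=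
    fun m ω => RS_succ_sub μ Bs hg.refine J m k e ω
  have hbd : ∀ m ω, |X m ω| ≤ hs (J + m + 1) * (2 * ((k * 2 ^ m : ℕ) : ℝ)) := by
    intro m ω
    rw [hXe, abs_mul, abs_of_pos (hs_pos _)]
    refine mul_le_mul_of_nonneg_left ?_ (hs_pos _).le
    refine (abs_sum_le_sum_abs _ _).trans ?_
    calc _ ≤ ∑ l ∈ range (k * 2 ^ m), (2 : ℝ) := Finset.sum_le_sum fun l _ => abs_dd_le μ Bs _ l e ω
      _ = 2 * ((k * 2 ^ m : ℕ) : ℝ) := by simp; ring
  have hint : ∀ m, Integrable (fun ω => X m ω ^ 2) (μ.prod ν) := by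
    intro m
    refine Integrable.of_bound (C := (hs (J + m + 1) * (2 * ((k * 2 ^ m : ℕ) : ℝ))) ^ 2)
      ((hXm m).pow_const 2).aestronglyMeasurable (Eventually.of_forall fun ω => ?_)
    rw [Real.norm_eq_abs, abs_pow]
    exact pow_le_pow_left₀ (abs_nonneg _) (hbd m ω) 2
  have hb : ∀ m, ∫ ω, X m ω ^ 2 ∂(μ.prod ν) ≤ (hs J ^ 2 * k) * (1 / 2) ^ m := by
    intro m
    have h1 : ∀ ω, X m ω ^ 2 = hs (J + m + 1) ^ 2 *
        (∑ l ∈ range (k * 2 ^ m), dd μ Bs g (J + m + 1) l e ω) ^ 2 := by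
      intro ω
      rw [hXe, mul_pow]
    simp_rw [h1]
    rw [integral_const_mul]
    have h2 := integral_sum_dd_sq μ ν Bs hg e hmono hex (J + m + 1) (k * 2 ^ m)
    have h3 : 0 < hs (J + m + 1) ^ 2 := by have := hs_pos (J + m + 1); positivity
    refine (mul_le_mul_of_nonneg_left h2 h3.le).trans (le_of_eq ?_)
    unfold hs
    push_cast
    have h4 : ((1 / 2 : ℝ) ^ (J + m + 1)) ^ 2 * (4 * (k * 2 ^ m)) =
        ((1 / 2 : ℝ) ^ J) ^ 2 * k * ((1 / 2) ^ m * ((1 / 2) ^ m * 2 ^ m)) := by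
      rw [pow_add, pow_add]
      ring
    rw [h4, ← mul_pow (1 / 2 : ℝ) 2 m]
    norm_num
  filter_upwards [ae_summable_of_sq hXm hint hb] with ω hω
  have hs1 : Summable fun m => X m ω := hω.of_abs
  have h1 := hs1.hasSum.tendsto_sum_nat
  have h2 : ∀ n, ∑ m ∈ range n, X m ω =
      RS (J + n) (fD μ Bs g e ω) ((k : ℝ) * hs J) - RS (J + 0) (fD μ Bs g e ω) ((k : ℝ) * hs J) :=
    fun n => Finset.sum_range_sub (fun m => RS (J + m) (fD μ Bs g e ω) ((k : ℝ) * hs J)) n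
  simp_rw [h2] at h1
  have h3 : Tendsto (fun m => RS (J + m) (fD μ Bs g e ω) ((k : ℝ) * hs J)) atTop
      (𝓝 (∑' m, X m ω + RS (J + 0) (fD μ Bs g e ω) ((k : ℝ) * hs J))) := by
    refine (h1.add_const (RS (J + 0) (fD μ Bs g e ω) ((k : ℝ) * hs J))).congr fun n => ?_
    ring
  have h4 : Tendsto (fun j => RS j (fD μ Bs g e ω) ((k : ℝ) * hs J)) atTop
      (𝓝 (∑' m, X m ω + RS (J + 0) (fD μ Bs g e ω) ((k : ℝ) * hs J))) := by
    rw [← tendsto_add_atTop_iff_nat J]
    refine h3.congr fun n => ?_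
    rw [add_comm]
  have h5 : dInt (fD μ Bs g e ω) ((k : ℝ) * hs J) =
      ∑' m, X m ω + RS (J + 0) (fD μ Bs g e ω) ((k : ℝ) * hs J) := h4.limsup_eq
  rw [h5]
  exact h3

end

end Vale.Agent.Lib.P143
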