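import Mathlib

/-!
Deterministic dyadic solver for `y(t) = B(t) + ∫₀ᵗ M(y(s)) ds` with a drift `M` that is Lipschitz
in the sup norm (no probability here). Integrals are limsups of left Riemann sums on dyadic meshes.
-/

set_option linter.unusedSimpArgs false
set_option linter.unusedVariables false
set_option linter.unusedSectionVars false

open Filter MeasureTheory Finset Topology

namespace Vale.Agent.Lib.P143

noncomputable section

/-- Dyadic mesh `2^{-j}`. -/
def hs (j : ℕ) : ℝ := (1 / 2 : ℝ) ^ j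

/-- Square root of the dyadic mesh. -/
def rs (j : ℕ) : ℝ := Real.sqrt (hs j)

/-- Left Riemann sum over the mesh `2^{-j}`, up to time `t`. -/
def RS (j : ℕ) (f : ℝ → ℝ) (t : ℝ) : ℝ :=
  ∑ l ∈ range ⌊t * 2 ^ j⌋₊, hs j * f (l * hs j)

/-- Dyadic integral: the limsup of the left Riemann sums. -/
def dInt (f : ℝ → ℝ) (t : ℝ) : ℝ := limsup (fun j => RS j f t) atTop

lemma hs_pos (j : ℕ) : 0 < hs j := by unfold hs; positivity

lemma hs_mul_two_pow (j : ℕ) : hs j * 2 ^ j = 1 := by
  unfold hs
  rw [← mul_pow]; norm_num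

lemma hs_succ (j : ℕ) : hs j = 2 * hs (j + 1) := by
  unfold hs; rw [pow_succ]; ring

lemma rs_pos (j : ℕ) : 0 < rs j := Real.sqrt_pos.2 (hs_pos j)

lemma rs_sq (j : ℕ) : rs j * rs j = hs j := Real.mul_self_sqrt (hs_pos j).le

lemma rs_succ (j : ℕ) : rs j = rs (j + 1) * Real.sqrt 2 := by
  unfold rs
  rw [← Real.sqrt_mul (hs_pos _).le, hs_succ j]
  congr 1; ring

/-- Limsup comparison for bounded real sequences. -/
lemma limsup_sub_le {u v : ℕ → ℝ} {c C : ℝ} (hu : ∀ j, |u j| ≤ C) (hv : ∀ j, |v j| ≤ C)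
    (h : ∀ j, |u j - v j| ≤ c) :
    |limsup u atTop - limsup v atTop| ≤ c := by
  have hbu : IsBoundedUnder (· ≤ ·) atTop u :=
    isBoundedUnder_of ⟨C, fun j => (abs_le.1 (hu j)).2⟩
  have hbu' : IsBoundedUnder (· ≥ ·) atTop u :=
    isBoundedUnder_of ⟨-C, fun j => (abs_le.1 (hu j)).1⟩
  have hbv : IsBoundedUnder (· ≤ ·) atTop v :=
    isBoundedUnder_of ⟨C, fun j => (abs_le.1 (hv j)).2⟩
  have hbv' : IsBoundedUnder (· ≥ ·) atTop v :=
    isBoundedUnder_of ⟨-C, fun j => (abs_le.1 (hv j)).1⟩
  have key : ∀ {a b : ℕ → ℝ}, IsBoundedUnder (· ≥ ·) atTop a → IsBoundedUnder (· ≤ ·) atTop b →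
      IsBoundedUnder (· ≥ ·) atTop b →
      (∀ j, |a j - b j| ≤ c) → limsup a atTop ≤ limsup b atTop + c := by
    intro a b ha hb hb' hab
    refine le_of_forall_pos_le_add fun ε hε => ?_
    have h1 : limsup b atTop < limsup b atTop + ε := by linarith
    have h2 := eventually_lt_of_limsup_lt h1 hb
    have h3 : limsup a atTop ≤ limsup b atTop + ε + c := by
      refine limsup_le_of_le ha.isCoboundedUnder_le ?_
      filter_upwards [h2] with j hj
      have := (abs_le.1 (hab j)).2
      linarith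
    linarith
  rw [abs_le]
  constructor
  · have := key hbv' hbu hbu' (fun j => by rw [abs_sub_comm]; exact h j)
    linarith
  · have := key hbu' hbv hbv' h
    linarith

/-- A bound for a limsup. -/
lemma abs_limsup_le {u : ℕ → ℝ} {C : ℝ} (hu : ∀ j, |u j| ≤ C) : |limsup u atTop| ≤ C := by
  have h0 : ∀ j : ℕ, |(fun _ : ℕ => (0 : ℝ)) j| ≤ C := fun j => (abs_nonneg (u j)).trans' (by simp) |>.trans (hu j)
  have := limsup_sub_le (c := C) (C := C) hu h0 (fun j => by simpa using hu j)
  simpa [limsup_const] using this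

/-- The key estimate: the left Riemann sums of the exponential weight. -/
lemma riemann_exp {K : ℝ} (hK : 0 < K) (j : ℕ) (t : ℝ) :
    ∑ l ∈ range ⌊t * 2 ^ j⌋₊, hs j * Real.exp (2 * K * (l * hs j)) ≤ Real.exp (2 * K * t) / (2 * K) := by
  have hstep : ∀ l : ℕ, hs j * Real.exp (2 * K * (l * hs j)) ≤
      (Real.exp (2 * K * (((l + 1 : ℕ) : ℝ) * hs j)) - Real.exp (2 * K * (l * hs j))) / (2 * K) := by
    intro l
    rw [le_div_iff₀ (by positivity)]
    have e : 2 * K * (((l + 1 : ℕ) : ℝ) * hs j) = 2 * K * (l * hs j) + 2 * K * hs j := by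
      push_cast; ring
    rw [e, Real.exp_add]
    have := Real.add_one_le_exp (2 * K * hs j)
    have hp := Real.exp_pos (2 * K * (l * hs j))
    nlinarith
  calc _ ≤ ∑ l ∈ range ⌊t * 2 ^ j⌋₊, (Real.exp (2 * K * (((l + 1 : ℕ) : ℝ) * hs j)) - Real.exp (2 * K * (l * hs j))) / (2 * K) :=
        sum_le_sum fun l _ => hstep l
    _ = (Real.exp (2 * K * (((⌊t * 2 ^ j⌋₊ : ℕ) : ℝ) * hs j)) - Real.exp (2 * K * (((0 : ℕ) : ℝ) * hs j))) / (2 * K) := by
        rw [← Finset.sum_div]
        congr 1
        exact Finset.sum_range_sub (fun l : ℕ => Real.exp (2 * K * ((l : ℝ) * hs j))) _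
    _ ≤ Real.exp (2 * K * t) / (2 * K) := by
        refine div_le_div_of_nonneg_right ?_ (by positivity)
        have h0 : Real.exp (2 * K * (((0 : ℕ) : ℝ) * hs j)) = 1 := by simp
        rw [h0]
        by_cases ht : 0 ≤ t
        · have h1 : ((⌊t * 2 ^ j⌋₊ : ℕ) : ℝ) * hs j ≤ t := by
            have := Nat.floor_le (a := t * 2 ^ j) (by positivity)
            have h2 := hs_pos j
            have h3 := hs_mul_two_pow j
            calc ((⌊t * 2 ^ j⌋₊ : ℕ) : ℝ) * hs j ≤ (t * 2 ^ j) * hs j := by gcongr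
              _ = t * (hs j * 2 ^ j) := by ring
              _ = t := by rw [h3, mul_one]
          have : Real.exp (2 * K * (((⌊t * 2 ^ j⌋₊ : ℕ) : ℝ) * hs j)) ≤ Real.exp (2 * K * t) := by
            apply Real.exp_le_exp.2; gcongr
          linarith
        · have h1 : ⌊t * 2 ^ j⌋₊ = 0 := by
            apply Nat.floor_of_nonpos
            have : t < 0 := not_le.1 ht
            have h2 : (0 : ℝ) < 2 ^ j := by positivity
            nlinarith
          rw [h1]
          have := Real.exp_pos (2 * K * t)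
          simp only [Nat.cast_zero, zero_mul, mul_zero, Real.exp_zero]
          linarith

/-- Riemann sums of a function bounded by 1 are bounded. -/
lemma abs_RS_le {K : ℝ} (hK : 0 < K) {f : ℝ → ℝ} (hf : ∀ s, |f s| ≤ 1) (j : ℕ) (t : ℝ) :
    |RS j f t| ≤ Real.exp (2 * K * t) / (2 * K) := by
  unfold RS
  refine (abs_sum_le_sum_abs _ _).trans ?_
  refine le_trans (sum_le_sum fun l _ => ?_) (riemann_exp hK j t)
  rw [abs_mul, abs_of_pos (hs_pos j)]
  refine mul_le_mul_of_nonneg_left ?_ (hs_pos j).le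
  refine (hf _).trans ?_
  apply Real.one_le_exp
  have := hs_pos j
  positivity

lemma abs_dInt_le {K : ℝ} (hK : 0 < K) {f : ℝ → ℝ} (hf : ∀ s, |f s| ≤ 1) (t : ℝ) :
    |dInt f t| ≤ Real.exp (2 * K * t) / (2 * K) :=
  abs_limsup_le fun j => abs_RS_le hK hf j t

/-- Comparison of dyadic integrals with an exponentially growing bound on the dyadic samples. -/
lemma abs_dInt_sub_le {K C : ℝ} (hK : 0 < K) (hC : 0 ≤ C) {f f' : ℝ → ℝ} (hf : ∀ s, |f s| ≤ 1)
    (hf' : ∀ s, |f' s| ≤ 1)
    (h : ∀ (j l : ℕ), |f (l * hs j) - f' (l * hs j)| ≤ C * Real.exp (2 * K * (l * hs j))) (t : ℝ) :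
    |dInt f t - dInt f' t| ≤ C * (Real.exp (2 * K * t) / (2 * K)) := by
  refine limsup_sub_le (C := Real.exp (2 * K * t) / (2 * K)) (fun j => abs_RS_le hK hf j t)
    (fun j => abs_RS_le hK hf' j t) fun j => ?_
  unfold RS
  rw [← Finset.sum_sub_distrib]
  refine (abs_sum_le_sum_abs _ _).trans ?_
  calc _ ≤ ∑ l ∈ range ⌊t * 2 ^ j⌋₊, C * (hs j * Real.exp (2 * K * (l * hs j))) := by
        refine sum_le_sum fun l _ => ?_
        rw [← mul_sub, abs_mul, abs_of_pos (hs_pos j)]
        have := mul_le_mul_of_nonneg_left (h j l) (hs_pos j).le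
        linarith
    _ = C * ∑ l ∈ range ⌊t * 2 ^ j⌋₊, (hs j * Real.exp (2 * K * (l * hs j))) := by
        rw [Finset.mul_sum]
    _ ≤ _ := mul_le_mul_of_nonneg_left (riemann_exp hK j t) hC

variable {I : Type*}

/-- A drift: bounded by one, and Lipschitz in the sup norm on all of `ℝ^I`. -/
structure IsDrift (M : (I → ℝ) → I → ℝ) (K : ℝ) : Prop where
  pos : 0 < K
  bdd : ∀ x e, |M x e| ≤ 1
  lip : ∀ x x' a, (∀ f, |x f - x' f| ≤ a) → ∀ e, |M x e - M x' e| ≤ K * a

/-- Picard iterates of the integral equation. -/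
def picard (M : (I → ℝ) → I → ℝ) (B : ℝ → I → ℝ) : ℕ → ℝ → I → ℝ
  | 0 => B
  | n + 1 => fun t e => B t e + dInt (fun s => M (picard M B n s) e) t

/-- The solution of the integral equation with forcing `B`, as the limsup of Picard iterates. -/
def sol (M : (I → ℝ) → I → ℝ) (B : ℝ → I → ℝ) (t : ℝ) (e : I) : ℝ :=
  limsup (fun n => picard M B n t e) atTop

section Solver

variable {M : (I → ℝ) → I → ℝ} {K : ℝ} (hM : IsDrift M K) (B : ℝ → I → ℝ)
include hM

lemma picard_succ_sub (n : ℕ) (t : ℝ) (e : I) :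
    |picard M B (n + 1) t e - picard M B n t e| ≤
      (1 / (2 * K)) * (1 / 2) ^ n * Real.exp (2 * K * t) := by
  have hK := hM.pos
  induction n generalizing t e with
  | zero =>
    have : picard M B 1 t e - picard M B 0 t e = dInt (fun s => M (picard M B 0 s) e) t := by
      simp only [picard]; ring
    rw [this]
    refine (abs_dInt_le hK (fun s => hM.bdd _ _) t).trans (le_of_eq ?_)
    simp; ring
  | succ n ih =>
    have : picard M B (n + 1 + 1) t e - picard M B (n + 1) t e =
        dInt (fun s => M (picard M B (n + 1) s) e) t - dInt (fun s => M (picard M B n s) e) t := by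
      simp only [picard]; ring
    rw [this]
    have h1 : ∀ s, |M (picard M B (n + 1) s) e - M (picard M B n s) e| ≤
        (1 / 2 * (1 / 2) ^ n) * Real.exp (2 * K * s) := by
      intro s
      have := hM.lip (picard M B (n + 1) s) (picard M B n s) _ (fun f => ih s f) e
      refine this.trans (le_of_eq ?_)
      field_simp
    have := abs_dInt_sub_le hK (by positivity) (fun s => hM.bdd (picard M B (n + 1) s) e)
      (fun s => hM.bdd (picard M B n s) e) (fun j l => h1 _) t
    refine this.trans (le_of_eq ?_)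
    rw [pow_succ]
    field_simp

lemma picard_tendsto (t : ℝ) (e : I) :
    Tendsto (fun n => picard M B n t e) atTop (𝓝 (sol M B t e)) := by
  have hK := hM.pos
  have hc : CauchySeq (fun n => picard M B n t e) := by
    refine cauchySeq_of_le_geometric (1 / 2) ((1 / (2 * K)) * Real.exp (2 * K * t)) (by norm_num) ?_
    intro n
    rw [Real.dist_eq, abs_sub_comm]
    refine (picard_succ_sub hM B n t e).trans (le_of_eq ?_)
    ring
  obtain ⟨a, ha⟩ := cauchySeq_tendsto_of_complete hc
  have : sol M B t e = a := ha.limsup_eq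
  rw [this]; exact ha

lemma sol_sub_picard (n : ℕ) (t : ℝ) (e : I) :
    |picard M B n t e - sol M B t e| ≤ (1 / K) * (1 / 2) ^ n * Real.exp (2 * K * t) := by
  have hK := hM.pos
  have := dist_le_of_le_geometric_of_tendsto (r := 1 / 2)
    (C := (1 / (2 * K)) * Real.exp (2 * K * t)) (f := fun n => picard M B n t e) (by norm_num)
    (fun n => by
      rw [Real.dist_eq, abs_sub_comm]
      refine (picard_succ_sub hM B n t e).trans (le_of_eq ?_)
      ring) (picard_tendsto hM B t e) n
  rw [Real.dist_eq] at this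
  refine this.trans (le_of_eq ?_)
  field_simp
  ring

/-- The limit solves the integral equation, at all times. -/
lemma sol_eq (t : ℝ) (e : I) :
    sol M B t e = B t e + dInt (fun s => M (sol M B s) e) t := by
  have hK := hM.pos
  have h1 : Tendsto (fun n => picard M B (n + 1) t e) atTop (𝓝 (sol M B t e)) :=
    (picard_tendsto hM B t e).comp (tendsto_add_atTop_nat 1)
  have h2 : Tendsto (fun n => picard M B (n + 1) t e) atTop
      (𝓝 (B t e + dInt (fun s => M (sol M B s) e) t)) := by
    rw [Metric.tendsto_atTop']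
    have hg : Tendsto (fun n : ℕ => (1 / (2 * K)) * (1 / 2) ^ n * Real.exp (2 * K * t)) atTop (𝓝 0) := by
      have := (tendsto_pow_atTop_nhds_zero_of_lt_one (r := (1 / 2 : ℝ)) (by norm_num) (by norm_num))
      have := (this.const_mul (1 / (2 * K))).mul_const (Real.exp (2 * K * t))
      simpa using this
    intro ε hε
    have := (hg.eventually (gt_mem_nhds hε))
    obtain ⟨N, hN⟩ := eventually_atTop.1 this
    refine ⟨N, fun n hn => ?_⟩
    have h3 : ∀ s, |M (picard M B n s) e - M (sol M B s) e| ≤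
        (1 * (1 / 2) ^ n) * Real.exp (2 * K * s) := by
      intro s
      have := hM.lip (picard M B n s) (sol M B s) _ (fun f => sol_sub_picard hM B n s f) e
      refine this.trans (le_of_eq ?_)
      field_simp
    have h4 := abs_dInt_sub_le hK (by positivity) (fun s => hM.bdd (picard M B n s) e)
      (fun s => hM.bdd (sol M B s) e) (fun j l => h3 _) t
    rw [Real.dist_eq]
    have h5 : picard M B (n + 1) t e - (B t e + dInt (fun s => M (sol M B s) e) t) =
        dInt (fun s => M (picard M B n s) e) t - dInt (fun s => M (sol M B s) e) t := by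
      simp only [picard]; ring
    rw [h5]
    refine lt_of_le_of_lt h4 (lt_of_eq_of_lt ?_ (hN n hn.le))
    field_simp
  exact tendsto_nhds_unique h1 h2

/-- Dyadic times. -/
def IsDyadicTime (t : ℝ) : Prop := ∃ j l : ℕ, t = l * hs j

omit hM in
lemma isDyadicTime_mk (j l : ℕ) : IsDyadicTime ((l : ℝ) * hs j) := ⟨j, l, rfl⟩

/-- Pathwise uniqueness at dyadic times: two solutions with the same forcing agree. -/
lemma unique_dyadic {y y' : ℝ → I → ℝ}
    (hy : ∀ t, IsDyadicTime t → ∀ e, y t e = B t e + dInt (fun s => M (y s) e) t)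
    (hy' : ∀ t, IsDyadicTime t → ∀ e, y' t e = B t e + dInt (fun s => M (y' s) e) t)
    {t : ℝ} (ht : IsDyadicTime t) (e : I) : y t e = y' t e := by
  have hK := hM.pos
  have hb : ∀ (n : ℕ) (t : ℝ), IsDyadicTime t → ∀ e : I,
      |y t e - y' t e| ≤ (1 / K) * (1 / 2) ^ n * Real.exp (2 * K * t) := by
    intro n
    induction n with
    | zero =>
      intro t ht e
      rw [hy t ht e, hy' t ht e]
      have h1 := abs_dInt_le hK (fun s => hM.bdd (y s) e) t
      have h2 := abs_dInt_le hK (fun s => hM.bdd (y' s) e) t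
      have h3 : B t e + dInt (fun s => M (y s) e) t - (B t e + dInt (fun s => M (y' s) e) t) =
          dInt (fun s => M (y s) e) t - dInt (fun s => M (y' s) e) t := by ring
      rw [h3]
      have h4 := abs_sub (dInt (fun s => M (y s) e) t) (dInt (fun s => M (y' s) e) t)
      refine h4.trans ((add_le_add h1 h2).trans (le_of_eq ?_))
      field_simp
      ring
    | succ n ih =>
      intro t ht e
      rw [hy t ht e, hy' t ht e]
      have h3 : B t e + dInt (fun s => M (y s) e) t - (B t e + dInt (fun s => M (y' s) e) t) =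
          dInt (fun s => M (y s) e) t - dInt (fun s => M (y' s) e) t := by ring
      rw [h3]
      have h1 : ∀ j l : ℕ, |M (y ((l : ℝ) * hs j)) e - M (y' ((l : ℝ) * hs j)) e| ≤
          (1 * (1 / 2) ^ n) * Real.exp (2 * K * ((l : ℝ) * hs j)) := by
        intro j l
        have := hM.lip (y ((l : ℝ) * hs j)) (y' ((l : ℝ) * hs j)) _
          (fun f => ih _ (isDyadicTime_mk j l) f) e
        refine this.trans (le_of_eq ?_)
        field_simp
      have := abs_dInt_sub_le hK (by positivity) (fun s => hM.bdd (y s) e)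
        (fun s => hM.bdd (y' s) e) h1 t
      refine this.trans (le_of_eq ?_)
      rw [pow_succ]
      field_simp
  have hlim : Tendsto (fun n : ℕ => (1 / K) * (1 / 2) ^ n * Real.exp (2 * K * t)) atTop (𝓝 0) := by
    have := (tendsto_pow_atTop_nhds_zero_of_lt_one (r := (1 / 2 : ℝ)) (by norm_num) (by norm_num))
    have := (this.const_mul (1 / K)).mul_const (Real.exp (2 * K * t))
    simpa using this
  have : |y t e - y' t e| ≤ 0 := ge_of_tendsto' hlim (fun n => hb n t ht e)
  have := abs_nonpos_iff.1 this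
  linarith

/-- At dyadic times, every solution is the canonical one. -/
lemma eq_sol_of_dyadic {y : ℝ → I → ℝ}
    (hy : ∀ t, IsDyadicTime t → ∀ e, y t e = B t e + dInt (fun s => M (y s) e) t)
    {t : ℝ} (ht : IsDyadicTime t) (e : I) : y t e = sol M B t e :=
  unique_dyadic hM B hy (fun t _ e => sol_eq hM B t e) ht e

end Solver

section Meas

lemma RS_measurable {β : Type*} [MeasurableSpace β] {f : β → ℝ → ℝ}
    (hf : ∀ s, Measurable fun b => f b s) (j : ℕ) (t : ℝ) :
    Measurable fun b => RS j (f b) t := by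
  unfold RS
  exact Finset.measurable_sum _ fun l _ => (hf _).const_mul _

lemma dInt_measurable {β : Type*} [MeasurableSpace β] {f : β → ℝ → ℝ}
    (hf : ∀ s, Measurable fun b => f b s) (t : ℝ) :
    Measurable fun b => dInt (f b) t :=
  Measurable.limsup fun j => RS_measurable hf j t

variable {M : (I → ℝ) → I → ℝ}

lemma picard_measurable (hM : ∀ e, Measurable fun x => M x e)
    (n : ℕ) (t : ℝ) (e : I) : Measurable fun B : ℝ → I → ℝ => picard M B n t e := by
  induction n generalizing t e with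
  | zero =>
    change Measurable fun B : ℝ → I → ℝ => B t e
    fun_prop
  | succ n ih =>
    have h0 : Measurable fun B : ℝ → I → ℝ => B t e := by fun_prop
    refine h0.add ?_
    refine dInt_measurable (f := fun (B : ℝ → I → ℝ) s => M (picard M B n s) e) (fun s => ?_) t
    exact (hM e).comp (measurable_pi_lambda _ fun f => ih s f)

lemma sol_measurable (hM : ∀ e, Measurable fun x => M x e) (t : ℝ) (e : I) :
    Measurable fun B : ℝ → I → ℝ => sol M B t e :=
  Measurable.limsup fun n => picard_measurable hM n t e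

end Meas

section Equivariance

variable {M : (I → ℝ) → I → ℝ}

lemma picard_equivariant (π : I → I) (hM : ∀ x e, M x (π e) = M (x ∘ π) e) (B : ℝ → I → ℝ)
    (n : ℕ) (t : ℝ) (e : I) :
    picard M B n t (π e) = picard M (fun t e => B t (π e)) n t e := by
  induction n generalizing t e with
  | zero => rfl
  | succ n ih =>
    simp only [picard]
    congr 2
    funext s
    rw [hM]
    congr 1
    funext f
    exact ih s f

lemma sol_equivariant (π : I → I) (hM : ∀ x e, M x (π e) = M (x ∘ π) e) (B : ℝ → I → ℝ)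
    (t : ℝ) (e : I) :
    sol M B t (π e) = sol M (fun t e => B t (π e)) t e := by
  unfold sol
  simp_rw [picard_equivariant π hM B]

end Equivariance

/-! ### Forcing from a noise array -/

/-- The forcing from a noise array: scaled partial sums at the finest meshes. -/
def forc (a : ℕ → ℕ → I → ℝ) (t : ℝ) (e : I) : ℝ :=
  limsup (fun j => rs j * ∑ l ∈ range ⌊t * 2 ^ j⌋₊, a j l e) atTop

lemma forc_measurable (t : ℝ) (e : I) : Measurable fun a : ℕ → ℕ → I → ℝ => forc a t e := by
  refine Measurable.limsup fun j => ?_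
  refine Measurable.const_mul (Finset.measurable_sum _ fun l _ => ?_) _
  change Measurable fun a : ℕ → ℕ → I → ℝ => a j l e
  fun_prop

lemma sum_range_two_mul (f : ℕ → ℝ) (L : ℕ) :
    ∑ l ∈ range (2 * L), f l = ∑ l ∈ range L, (f (2 * l) + f (2 * l + 1)) := by
  induction L with
  | zero => simp
  | succ L ih =>
    rw [Nat.mul_succ, sum_range_succ, sum_range_succ, sum_range_succ, ih]
    ring

/-- Refinement of the noise makes the scaled partial sums consistent. -/
lemma scaled_sum_refine {a : ℕ → ℕ → I → ℝ}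
    (ha : ∀ j k e, a j k e = (a (j + 1) (2 * k) e + a (j + 1) (2 * k + 1) e) / Real.sqrt 2)
    (j L : ℕ) (e : I) :
    rs (j + 1) * ∑ l ∈ range (2 * L), a (j + 1) l e = rs j * ∑ l ∈ range L, a j l e := by
  rw [sum_range_two_mul, rs_succ j, mul_assoc]
  congr 1
  rw [Finset.mul_sum]
  refine sum_congr rfl fun l _ => ?_
  rw [ha j l e]
  have : Real.sqrt 2 ≠ 0 := by positivity
  field_simp

lemma scaled_sum_refine' {a : ℕ → ℕ → I → ℝ}
    (ha : ∀ j k e, a j k e = (a (j + 1) (2 * k) e + a (j + 1) (2 * k + 1) e) / Real.sqrt 2)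
    (J m L : ℕ) (e : I) :
    rs (J + m) * ∑ l ∈ range (L * 2 ^ m), a (J + m) l e = rs J * ∑ l ∈ range L, a J l e := by
  induction m with
  | zero => simp
  | succ m ih =>
    have : L * 2 ^ (m + 1) = 2 * (L * 2 ^ m) := by ring
    rw [← add_assoc, this, scaled_sum_refine ha, ih]

/-- The floor of a dyadic time at a finer mesh. -/
lemma floor_dyadic (J m k : ℕ) : ⌊((k : ℝ) * hs J) * 2 ^ (J + m)⌋₊ = k * 2 ^ m := by
  have : ((k : ℝ) * hs J) * 2 ^ (J + m) = ((k * 2 ^ m : ℕ) : ℝ) := by
    rw [pow_add]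
    have := hs_mul_two_pow J
    push_cast
    calc (k : ℝ) * hs J * (2 ^ J * 2 ^ m) = k * (hs J * 2 ^ J) * 2 ^ m := by ring
      _ = k * 2 ^ m := by rw [this]; ring
  rw [this, Nat.floor_natCast]

/-- The forcing at a dyadic time is read off from the level of that time. -/
lemma forc_dyadic {a : ℕ → ℕ → I → ℝ}
    (ha : ∀ j k e, a j k e = (a (j + 1) (2 * k) e + a (j + 1) (2 * k + 1) e) / Real.sqrt 2)
    (J k : ℕ) (e : I) :
    forc a ((k : ℝ) * hs J) e = rs J * ∑ l ∈ range k, a J l e := by
  unfold forc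
  refine Tendsto.limsup_eq ?_
  refine tendsto_const_nhds.congr' ?_
  filter_upwards [eventually_ge_atTop J] with j hj
  obtain ⟨m, rfl⟩ := Nat.exists_eq_add_of_le hj
  rw [floor_dyadic, scaled_sum_refine' ha]

/-- Dyadic time at a finer level. -/
lemma dyadic_refine (J k : ℕ) : (k : ℝ) * hs J = ((2 * k : ℕ) : ℝ) * hs (J + 1) := by
  rw [hs_succ J]; push_cast; ring

lemma dyadic_refine' (J m k : ℕ) : (k : ℝ) * hs J = ((k * 2 ^ m : ℕ) : ℝ) * hs (J + m) := by
  unfold hs
  rw [pow_add]
  push_cast
  have : (2 : ℝ) ^ m * (1 / 2) ^ m = 1 := by rw [← mul_pow]; norm_num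
  calc (k : ℝ) * (1 / 2) ^ J = k * (1 / 2) ^ J * ((2 : ℝ) ^ m * (1 / 2) ^ m) := by rw [this, mul_one]
    _ = _ := by ring

/-- Riemann sum at a dyadic time on a finer mesh. -/
lemma RS_dyadic (f : ℝ → ℝ) (J m k : ℕ) :
    RS (J + m) f ((k : ℝ) * hs J) = ∑ l ∈ range (k * 2 ^ m), hs (J + m) * f (l * hs (J + m)) := by
  unfold RS
  rw [floor_dyadic]

end

end Vale.Agent.Lib.P143
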