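import Vale.Agent.Lib.P143.Defs
import Vale.Agent.Lib.P143.Flow

set_option linter.unusedSectionVars false
set_option linter.unusedVariables false
set_option linter.unusedSimpArgs false

/-!
From finite subgraphs of `G` to the finite multigraphs of `Flow.lean`.
-/

open Finset Matrix

namespace Vale.Agent.Lib.P143

noncomputable section

variable {V : Type*} {G : SimpleGraph V}

/-- First end of an edge, by a fixed choice of orientation. -/
def oa (e : Sym2 V) : V := (Quot.out e).1

/-- Second end of an edge, by a fixed choice of orientation. -/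
def ob (e : Sym2 V) : V := (Quot.out e).2

lemma s_oa_ob (e : Sym2 V) : s(oa e, ob e) = e := Quot.out_eq e

lemma oa_mem (e : Sym2 V) : oa e ∈ e := by
  have : oa e ∈ s(oa e, ob e) := Sym2.mem_mk_left _ _
  rwa [s_oa_ob] at this

lemma ob_mem (e : Sym2 V) : ob e ∈ e := by
  have : ob e ∈ s(oa e, ob e) := Sym2.mem_mk_right _ _
  rwa [s_oa_ob] at this

lemma oa_mem_verts (H : G.Subgraph) {e : Sym2 V} (he : e ∈ H.edgeSet) : oa e ∈ H.verts :=
  H.mem_verts_of_mem_edge he (oa_mem e)

lemma ob_mem_verts (H : G.Subgraph) {e : Sym2 V} (he : e ∈ H.edgeSet) : ob e ∈ H.verts :=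
  H.mem_verts_of_mem_edge he (ob_mem e)

/-- The edge set of a finite subgraph is finite. -/
lemma finite_edgeSet (H : G.Subgraph) (hf : H.verts.Finite) : H.edgeSet.Finite := by
  have h : H.edgeSet ⊆ (fun p : V × V => s(p.1, p.2)) '' (H.verts ×ˢ H.verts) := by
    intro e he
    refine ⟨(oa e, ob e), ⟨oa_mem_verts H he, ob_mem_verts H he⟩, s_oa_ob e⟩
  exact ((hf.prod hf).image _).subset h

/-- First end map of the multigraph of `H`. -/
def uH (H : G.Subgraph) (f : H.edgeSet) : H.verts := ⟨oa f.1, oa_mem_verts H f.2⟩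

/-- Second end map of the multigraph of `H`. -/
def vH (H : G.Subgraph) (f : H.edgeSet) : H.verts := ⟨ob f.1, ob_mem_verts H f.2⟩

lemma s_uH_vH (H : G.Subgraph) (f : H.edgeSet) : s(((uH H f : H.verts) : V), ((vH H f : H.verts) : V)) = f.1 :=
  s_oa_ob f.1

/-- Edges of a subgraph are not diagonal. -/
lemma ne_of_s_mem (H : G.Subgraph) {a b : V} (h : s(a, b) ∈ H.edgeSet) : a ≠ b := by
  rw [SimpleGraph.Subgraph.mem_edgeSet] at h
  exact h.ne

lemma uH_ne_vH (H : G.Subgraph) (f : H.edgeSet) : uH H f ≠ vH H f := by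
  intro h
  have h2 : (uH H f : V) = (vH H f : V) := congrArg _ h
  have := f.2
  rw [← s_uH_vH H f] at this
  exact ne_of_s_mem H this h2

/-- The steps of `IsSpanTree` are the adjacencies of the graph with edge set `T`. -/
lemma step_iff (H : G.Subgraph) (T' : Finset H.edgeSet) (a b : H.verts) :
    (∃ f ∈ T', (uH H f = a ∧ vH H f = b) ∨ (uH H f = b ∧ vH H f = a)) ↔
      ((SimpleGraph.fromEdgeSet ((T'.map (Function.Embedding.subtype _) : Finset (Sym2 V)) : Set (Sym2 V))).induce H.verts).Adj a b := by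
  rw [SimpleGraph.comap_adj, SimpleGraph.fromEdgeSet_adj]
  constructor
  · rintro ⟨f, hf, ⟨rfl, rfl⟩ | ⟨rfl, rfl⟩⟩
    · refine ⟨?_, fun h => uH_ne_vH H f (Subtype.ext h)⟩
      simp only [Finset.coe_map, Set.mem_image, Function.Embedding.subtype_apply, Finset.mem_coe]
      exact ⟨f, hf, (s_uH_vH H f).symm⟩
    · refine ⟨?_, fun h => uH_ne_vH H f (Subtype.ext h.symm)⟩
      simp only [Finset.coe_map, Set.mem_image, Function.Embedding.subtype_apply, Finset.mem_coe]
      refine ⟨f, hf, ?_⟩
      rw [Sym2.eq_swap]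
      exact (s_uH_vH H f).symm
  · rintro ⟨hmem, hne⟩
    simp only [Finset.coe_map, Set.mem_image, Function.Embedding.subtype_apply, Finset.mem_coe] at hmem
    obtain ⟨f, hf, hfe⟩ := hmem
    refine ⟨f, hf, ?_⟩
    have h := s_uH_vH H f
    rw [hfe] at h
    rw [Sym2.eq_iff] at h
    rcases h with ⟨h1, h2⟩ | ⟨h1, h2⟩
    · left; exact ⟨Subtype.ext h1, Subtype.ext h2⟩
    · right; exact ⟨Subtype.ext h1, Subtype.ext h2⟩

/-- The number of edges of the graph with edge set `T`. -/
lemma natCard_edgeSet_induce (H : G.Subgraph) (T' : Finset H.edgeSet) :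
    Nat.card ((SimpleGraph.fromEdgeSet ((T'.map (Function.Embedding.subtype _) : Finset (Sym2 V)) : Set (Sym2 V))).induce H.verts).edgeSet = T'.card := by
  classical
  set G' := (SimpleGraph.fromEdgeSet ((T'.map (Function.Embedding.subtype _) : Finset (Sym2 V)) : Set (Sym2 V))).induce H.verts with hG'
  have hadj : ∀ f ∈ T', G'.Adj (uH H f) (vH H f) := fun f hf =>
    (step_iff H T' _ _).1 ⟨f, hf, Or.inl ⟨rfl, rfl⟩⟩
  let g : T' → G'.edgeSet := fun f => ⟨s(uH H f.1, vH H f.1), hadj f.1 f.2⟩
  have hg : Function.Bijective g := by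
    constructor
    · rintro ⟨f, hf⟩ ⟨f', hf'⟩ h
      have h1 : s(uH H f, vH H f) = s(uH H f', vH H f') := congrArg Subtype.val h
      have h2 := congrArg (Sym2.map Subtype.val) h1
      simp only [Sym2.map_pair_eq] at h2
      rw [s_uH_vH, s_uH_vH] at h2
      exact Subtype.ext (Subtype.ext h2)
    · rintro ⟨e, he⟩
      induction e using Sym2.ind with
      | _ a b =>
        rw [SimpleGraph.mem_edgeSet] at he
        obtain ⟨f, hf, hfe⟩ := (step_iff H T' a b).2 he
        refine ⟨⟨f, hf⟩, Subtype.ext ?_⟩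
        rcases hfe with ⟨rfl, rfl⟩ | ⟨rfl, rfl⟩
        · rfl
        · exact Sym2.eq_swap
  rw [← Nat.card_congr (Equiv.ofBijective g hg)]
  simp

/-- The two notions of spanning tree agree. -/
theorem isSpanTree_iff (H : G.Subgraph) [Fintype H.verts] [Fintype H.edgeSet] [DecidableEq H.verts]
    [DecidableEq H.edgeSet] (T' : Finset H.edgeSet) :
    IsSpanTree (uH H) (vH H) T' ↔
      IsSpanningTreeOf H (T'.map (Function.Embedding.subtype _)) := by
  classical
  set G' := (SimpleGraph.fromEdgeSet ((T'.map (Function.Embedding.subtype _) : Finset (Sym2 V)) : Set (Sym2 V))).induce H.verts with hG'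
  have hrel : (fun a b : H.verts => ∃ f ∈ T', (uH H f = a ∧ vH H f = b) ∨ (uH H f = b ∧ vH H f = a))
      = G'.Adj := by
    funext a b
    exact propext (step_iff H T' a b)
  have hsub : ((T'.map (Function.Embedding.subtype _) : Finset (Sym2 V)) : Set (Sym2 V)) ⊆ H.edgeSet := by
    intro e he
    simp only [Finset.coe_map, Set.mem_image, Function.Embedding.subtype_apply, Finset.mem_coe] at he
    obtain ⟨f, _, rfl⟩ := he
    exact f.2
  have hcard := natCard_edgeSet_induce H T'
  unfold IsSpanTree IsSpanningTreeOf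
  rw [hrel]
  constructor
  · rintro ⟨h1, h2⟩
    refine ⟨hsub, ?_⟩
    rw [SimpleGraph.isTree_iff_connected_and_card]
    refine ⟨?_, ?_⟩
    · have : Nonempty H.verts := Fintype.card_pos_iff.1 (by omega)
      refine ⟨fun a b => ?_⟩
      rw [SimpleGraph.reachable_iff_reflTransGen]
      exact h2 a b
    · rw [hcard, Nat.card_eq_fintype_card]
      exact h1
  · rintro ⟨_, h2⟩
    rw [SimpleGraph.isTree_iff_connected_and_card] at h2
    obtain ⟨h3, h4⟩ := h2
    refine ⟨?_, fun a b => ?_⟩
    · rw [hcard, Nat.card_eq_fintype_card] at h4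
      exact h4
    · rw [← SimpleGraph.reachable_iff_reflTransGen]
      exact h3.preconnected a b

/-- Every finite connected subgraph has a spanning tree. -/
theorem exists_isSpanTree (H : G.Subgraph) [Fintype H.verts] [Fintype H.edgeSet] [DecidableEq H.verts]
    [DecidableEq H.edgeSet] (hc : H.Connected) : ∃ T', IsSpanTree (uH H) (vH H) T' := by
  classical
  obtain ⟨T, hle, hT⟩ := hc.coe.exists_isTree_le
  refine ⟨Finset.univ.filter (fun f => T.Adj (uH H f) (vH H f)), ?_⟩
  rw [isSpanTree_iff]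
  set T' : Finset H.edgeSet := Finset.univ.filter (fun f => T.Adj (uH H f) (vH H f)) with hT'
  have hG : (SimpleGraph.fromEdgeSet ((T'.map (Function.Embedding.subtype _) : Finset (Sym2 V)) : Set (Sym2 V))).induce H.verts = T := by
    ext a b
    rw [← step_iff H T' a b]
    constructor
    · rintro ⟨f, hf, ⟨rfl, rfl⟩ | ⟨rfl, rfl⟩⟩
      · exact (Finset.mem_filter.1 hf).2
      · exact (Finset.mem_filter.1 hf).2.symm
    · intro hab
      have hab' : H.Adj a b := hle hab
      let f : H.edgeSet := ⟨s(a, b), hab'⟩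
      have hfs : s(((uH H f : H.verts) : V), ((vH H f : H.verts) : V)) = s((a : V), (b : V)) :=
        s_uH_vH H f
      rw [Sym2.eq_iff] at hfs
      rcases hfs with ⟨h1, h2⟩ | ⟨h1, h2⟩
      · have e1 : uH H f = a := Subtype.ext h1
        have e2 : vH H f = b := Subtype.ext h2
        refine ⟨f, Finset.mem_filter.2 ⟨Finset.mem_univ _, by rw [e1, e2]; exact hab⟩, Or.inl ⟨e1, e2⟩⟩
      · have e1 : uH H f = b := Subtype.ext h1
        have e2 : vH H f = a := Subtype.ext h2
        refine ⟨f, Finset.mem_filter.2 ⟨Finset.mem_univ _, by rw [e1, e2]; exact hab.symm⟩, Or.inr ⟨e1, e2⟩⟩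
  refine ⟨?_, by rw [hG]; exact hT⟩
  intro e he
  simp only [Finset.coe_map, Set.mem_image, Function.Embedding.subtype_apply, Finset.mem_coe] at he
  obtain ⟨f, _, rfl⟩ := he
  exact f.2

end

end Vale.Agent.Lib.P143
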